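import Vale.Agent.P184.Cat0Def

/-!
P184: an additive character of the centralizer from an isometric action on a CAT(0) space.
-/

open Filter Topology

namespace Vale.Agent.P184

universe u v

/-- Reshetnyak's quadrilateral inequality -/
theorem quad {X : Type v} [PseudoMetricSpace X] (hX : IsCAT0 X) (x1 x2 x3 x4 : X) :
    dist x1 x3 ^ 2 + dist x2 x4 ^ 2 ≤
      dist x1 x2 ^ 2 + dist x3 x4 ^ 2 + 2 * dist x2 x3 * dist x1 x4 := by
  have key : ∀ s : ℝ, 0 < s → dist x1 x3 ^ 2 + dist x2 x4 ^ 2 ≤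
      dist x1 x2 ^ 2 + dist x3 x4 ^ 2 + 2 * (dist x2 x3 + s) * (dist x1 x4 + s) := by
    intro s hs
    set A := dist x1 x4 with hA
    set B := dist x2 x3 with hB
    have hA0 : 0 ≤ A := dist_nonneg
    have hB0 : 0 ≤ B := dist_nonneg
    have hAs : 0 < A + s := by linarith
    have hBs : 0 < B + s := by linarith
    have hS : 0 < A + B + 2 * s := by linarith
    obtain ⟨p, hp⟩ := hX x1 x3 ((A + s) / (A + B + 2 * s)) (by positivity)
      (by rw [div_le_one hS]; linarith)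
    have h2 := hp x2
    have h4 := hp x4
    have e1 : 1 - (A + s) / (A + B + 2 * s) = (B + s) / (A + B + 2 * s) := by
      field_simp
      ring
    rw [e1] at h2 h4
    set a := dist x2 p with ha
    set b := dist x4 p with hb
    have htri : dist x2 x4 ≤ a + b := by
      calc dist x2 x4 ≤ dist x2 p + dist p x4 := dist_triangle _ _ _
        _ = a + b := by rw [ha, hb, dist_comm p x4]
    rw [dist_comm x2 x1, ← hB] at h2
    rw [dist_comm x4 x1, ← hA, dist_comm x4 x3] at h4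
    -- multiply out
    have h2' : a ^ 2 * ((A + B + 2 * s) / (B + s)) ≤ dist x1 x2 ^ 2 + (A + s) / (B + s) * B ^ 2
        - (A + s) / (A + B + 2 * s) * dist x1 x3 ^ 2 := by
      have := mul_le_mul_of_nonneg_right h2 (show 0 ≤ (A + B + 2 * s) / (B + s) by positivity)
      refine this.trans (le_of_eq ?_)
      field_simp
    have h4' : b ^ 2 * ((A + B + 2 * s) / (A + s)) ≤ (B + s) / (A + s) * A ^ 2 + dist x3 x4 ^ 2
        - (B + s) / (A + B + 2 * s) * dist x1 x3 ^ 2 := by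
      have := mul_le_mul_of_nonneg_right h4 (show 0 ≤ (A + B + 2 * s) / (A + s) by positivity)
      refine this.trans (le_of_eq ?_)
      field_simp
    have hcs : (a + b) ^ 2 ≤ a ^ 2 * ((A + B + 2 * s) / (B + s)) +
        b ^ 2 * ((A + B + 2 * s) / (A + s)) := by
      have : a ^ 2 * ((A + B + 2 * s) / (B + s)) + b ^ 2 * ((A + B + 2 * s) / (A + s)) - (a + b) ^ 2
          = (a * (A + s) - b * (B + s)) ^ 2 / ((A + s) * (B + s)) := by
        field_simp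
        ring
      have h0 : 0 ≤ (a * (A + s) - b * (B + s)) ^ 2 / ((A + s) * (B + s)) := by positivity
      linarith
    have hd : dist x2 x4 ^ 2 ≤ (a + b) ^ 2 := by
      have : 0 ≤ dist x2 x4 := dist_nonneg
      gcongr
    have hsum : (A + s) / (A + B + 2 * s) * dist x1 x3 ^ 2 +
        (B + s) / (A + B + 2 * s) * dist x1 x3 ^ 2 = dist x1 x3 ^ 2 := by
      field_simp
      ring
    have hr1 : (A + s) / (B + s) * B ^ 2 ≤ (A + s) * (B + s) := by
      rw [div_mul_eq_mul_div, div_le_iff₀ hBs]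
      nlinarith [mul_nonneg hAs.le hB0, mul_pos hAs hs, mul_pos hAs hBs,
        mul_nonneg hAs.le (mul_nonneg hB0 hs.le), mul_nonneg hAs.le (sq_nonneg s)]
    have hr2 : (B + s) / (A + s) * A ^ 2 ≤ (A + s) * (B + s) := by
      rw [div_mul_eq_mul_div, div_le_iff₀ hAs]
      nlinarith [mul_nonneg hBs.le hA0, mul_pos hBs hs,
        mul_nonneg hBs.le (mul_nonneg hA0 hs.le), mul_nonneg hBs.le (sq_nonneg s)]
    nlinarith
  have hlim : Tendsto (fun s : ℝ => dist x1 x2 ^ 2 + dist x3 x4 ^ 2 +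
      2 * (dist x2 x3 + s) * (dist x1 x4 + s)) (𝓝[>] 0)
      (𝓝 (dist x1 x2 ^ 2 + dist x3 x4 ^ 2 + 2 * (dist x2 x3 + 0) * (dist x1 x4 + 0))) := by
    apply Tendsto.mono_left _ nhdsWithin_le_nhds
    exact Continuous.tendsto (by fun_prop) 0
  have := ge_of_tendsto hlim (eventually_mem_nhdsWithin.mono fun s hs => key s hs)
  simpa using this


section limit

variable {G : Type u} [Group G]

/-- the data of a left invariant pseudo-metric on `G` with the quadrilateral inequality -/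
structure QMet (d : G → G → ℝ) : Prop where
  nonneg : ∀ x y, 0 ≤ d x y
  self : ∀ x, d x x = 0
  symm : ∀ x y, d x y = d y x
  tri : ∀ x y z, d x z ≤ d x y + d y z
  left : ∀ a x y, d (a * x) (a * y) = d x y
  quad : ∀ x1 x2 x3 x4, d x1 x3 ^ 2 + d x2 x4 ^ 2 ≤
    d x1 x2 ^ 2 + d x3 x4 ^ 2 + 2 * d x2 x3 * d x1 x4

variable {d : G → G → ℝ}

theorem QMet.pow_le (h : QMet d) (g : G) (n : ℕ) : d 1 (g ^ n) ≤ n * d 1 g := by
  induction n with
  | zero => simp [h.self]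
  | succ n ih =>
    have h1 := h.tri 1 (g ^ n) (g ^ (n + 1))
    have h2 : d (g ^ n) (g ^ (n + 1)) = d 1 g := by
      have := h.left (g ^ n) 1 g
      rwa [mul_one, ← pow_succ] at this
    rw [h2] at h1
    push_cast
    linarith

theorem QMet.diff_le (h : QMet d) (x y : G) :
    |d x y ^ 2 - d 1 y ^ 2| ≤ d x 1 * (2 * d 1 y + d x 1) := by
  have h1 := h.tri x 1 y
  have h2 := h.tri 1 x y
  rw [h.symm 1 x] at h2
  have h3 := h.nonneg x y
  have h4 := h.nonneg 1 y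
  have h5 := h.nonneg x 1
  rw [abs_le]
  constructor <;> nlinarith

theorem QMet.quad_abs (h : QMet d) (x y y' : G) :
    |(d x y' ^ 2 - d 1 y' ^ 2) - (d x y ^ 2 - d 1 y ^ 2)| ≤ 2 * d x 1 * d y y' := by
  have h1 := h.quad x y y' 1
  have h2 := h.quad x y' y 1
  rw [h.symm y' y, h.symm y' 1, h.symm y 1] at h2
  rw [h.symm y 1, h.symm y' 1] at h1
  rw [abs_le]
  constructor <;> nlinarith

/-- the approximate Busemann functions -/
noncomputable def FF (d : G → G → ℝ) (g : G) (n : ℕ) (x : G) : ℝ :=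
  (d x (g ^ n) ^ 2 - d 1 (g ^ n) ^ 2) / (2 * n)

theorem QMet.FF_abs (h : QMet d) (g : G) {n : ℕ} (hn : 0 < n) (x : G) :
    |FF d g n x| ≤ d x 1 * d 1 g + d x 1 ^ 2 / (2 * n) := by
  have hn' : (0 : ℝ) < n := by exact_mod_cast hn
  unfold FF
  rw [abs_div, abs_of_pos (show (0 : ℝ) < 2 * n by linarith), div_le_iff₀ (by linarith)]
  refine (h.diff_le x (g ^ n)).trans ?_
  have h1 := h.pow_le g n
  have h2 := h.nonneg x 1
  have e : (d x 1 * d 1 g + d x 1 ^ 2 / (2 * n)) * (2 * n) = d x 1 * (2 * (n * d 1 g) + d x 1) := by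
    field_simp
  rw [e]
  apply mul_le_mul_of_nonneg_left _ h2
  linarith

theorem QMet.frequently {g : G} {c : ℝ} (hc : 0 < c)
    (hg : ∀ n : ℕ, c * n ≤ d 1 (g ^ n)) :
    ∃ᶠ n : ℕ in atTop, c ^ 2 / 2 * (n + 1) ≤ d 1 (g ^ (n + 1)) ^ 2 - d 1 (g ^ n) ^ 2 := by
  intro hcon
  rw [eventually_atTop] at hcon
  obtain ⟨N, hN⟩ := hcon
  -- D_{N+k}^2 ≤ D_N^2 + c^2/2 * sum
  have key : ∀ k : ℕ, d 1 (g ^ (N + k)) ^ 2 ≤ d 1 (g ^ N) ^ 2 +
      c ^ 2 / 4 * ((N + k) * (N + k + 1)) := by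
    intro k
    induction k with
    | zero => 
      have : 0 ≤ c ^ 2 / 4 * ((N + (0 : ℕ) : ℝ) * (N + (0 : ℕ) + 1)) := by positivity
      simpa using this
    | succ k ih =>
      have h1 := hN (N + k) (by omega)
      rw [not_le] at h1
      push_cast at h1 ⊢
      rw [← add_assoc]
      nlinarith
  have hlow : ∀ k : ℕ, c ^ 2 * (N + k) ^ 2 ≤ d 1 (g ^ (N + k)) ^ 2 := by
    intro k
    have h1 := hg (N + k)
    push_cast at h1
    have h2 : 0 ≤ c * ((N : ℝ) + k) := by positivity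
    nlinarith
  -- contradiction for large k
  obtain ⟨k, hk⟩ := exists_nat_gt (4 * d 1 (g ^ N) ^ 2 / c ^ 2 + 1)
  have hk1 : (1 : ℝ) ≤ k := by
    have : 0 ≤ 4 * d 1 (g ^ N) ^ 2 / c ^ 2 := by positivity
    linarith
  have hk2 : 4 * d 1 (g ^ N) ^ 2 < c ^ 2 * k := by
    have h0 : 4 * d 1 (g ^ N) ^ 2 / c ^ 2 < k := by linarith
    rw [div_lt_iff₀ (by positivity)] at h0
    linarith
  have a1 := key k
  have a2 := hlow k
  have hN0 : (0 : ℝ) ≤ N := by positivity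
  have hc2 : 0 < c ^ 2 := by positivity
  have h3 : c ^ 2 * ((N + k : ℝ) ^ 2) ≤ d 1 (g ^ N) ^ 2 + c ^ 2 / 4 * ((N + k) * (N + k + 1)) :=
    a2.trans a1
  have h4 : (N + k : ℝ) * (N + k + 1) ≤ 2 * (N + k : ℝ) ^ 2 := by nlinarith
  have h5 : c ^ 2 / 4 * ((N + k : ℝ) * (N + k + 1)) ≤ c ^ 2 / 4 * (2 * (N + k : ℝ) ^ 2) :=
    mul_le_mul_of_nonneg_left h4 (by positivity)
  have h6 : (k : ℝ) ≤ (N + k : ℝ) ^ 2 := by nlinarith
  have h7 : c ^ 2 * (k : ℝ) ≤ c ^ 2 * (N + k : ℝ) ^ 2 := mul_le_mul_of_nonneg_left h6 hc2.le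
  nlinarith

theorem QMet.char (h : QMet d) {g : G} {c : ℝ} (hc : 0 < c)
    (hg : ∀ n : ℕ, c * n ≤ d 1 (g ^ n)) :
    ∃ χ : G → ℝ, (∀ a, a * g = g * a → ∀ b, χ (a * b) = χ a + χ b) ∧ χ g ≠ 0 ∧
      ∀ a, |χ a| ≤ d 1 g * d 1 a := by
  set S : Set ℕ := {n | c ^ 2 / 2 * (n + 1) ≤ d 1 (g ^ (n + 1)) ^ 2 - d 1 (g ^ n) ^ 2} with hS
  have hfr : ∃ᶠ n : ℕ in atTop, n ∈ S := QMet.frequently hc hg
  have : NeBot (atTop ⊓ 𝓟 S) := frequently_mem_iff_neBot.1 hfr
  obtain ⟨U, hU⟩ := Ultrafilter.exists_le (atTop ⊓ 𝓟 S)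
  have hUtop : (U : Filter ℕ) ≤ atTop := hU.trans inf_le_left
  have hUS : ∀ᶠ n in (U : Filter ℕ), n ∈ S := by
    have : (U : Filter ℕ) ≤ 𝓟 S := hU.trans inf_le_right
    exact this (mem_principal_self S)
  -- compactness
  let C : G → ℝ := fun x => d x 1 * d 1 g + d x 1 ^ 2
  have hK : IsCompact (Set.pi Set.univ fun x : G => Set.Icc (-C x) (C x)) :=
    isCompact_univ_pi fun x => isCompact_Icc
  have hmem : ∀ n, (fun x => FF d g (n + 1) x) ∈ Set.pi Set.univ fun x : G => Set.Icc (-C x) (C x) := by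
    intro n x _
    have h1 := h.FF_abs g (Nat.succ_pos n) x
    have h2 : d x 1 ^ 2 / (2 * ((n.succ : ℕ) : ℝ)) ≤ d x 1 ^ 2 := by
      apply div_le_self (by positivity)
      push_cast
      have : (0 : ℝ) ≤ n := by positivity
      linarith
    have h3 : |FF d g (n + 1) x| ≤ C x := h1.trans (by linarith)
    exact abs_le.1 h3
  obtain ⟨f, -, hf⟩ := hK.ultrafilter_le_nhds (U.map fun n x => FF d g (n + 1) x)
    (by
      rw [le_principal_iff, Ultrafilter.mem_coe, Ultrafilter.mem_map]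
      exact Filter.univ_mem' hmem)
  have hf' : Tendsto (fun n : ℕ => fun x => FF d g (n + 1) x) (U : Filter ℕ) (𝓝 f) := hf
  rw [tendsto_pi_nhds] at hf'
  have hinv : ∀ K : ℝ, Tendsto (fun n : ℕ => K / (2 * ((n + 1 : ℕ) : ℝ))) (U : Filter ℕ) (𝓝 0) := by
    intro K
    have : Tendsto (fun n : ℕ => K / (2 * ((n + 1 : ℕ) : ℝ))) atTop (𝓝 0) := by
      apply Tendsto.div_atTop tendsto_const_nhds
      apply Tendsto.const_mul_atTop (by norm_num)
      exact tendsto_natCast_atTop_atTop.comp (tendsto_add_atTop_nat 1)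
    exact this.mono_left hUtop
  refine ⟨f, ?_, ?_, ?_⟩
  · intro a ha b
    have h1 : Tendsto (fun n : ℕ => FF d g (n + 1) (a * b) - FF d g (n + 1) a - FF d g (n + 1) b)
        (U : Filter ℕ) (𝓝 (f (a * b) - f a - f b)) := ((hf' (a * b)).sub (hf' a)).sub (hf' b)
    have h2 : Tendsto (fun n : ℕ => FF d g (n + 1) (a * b) - FF d g (n + 1) a - FF d g (n + 1) b)
        (U : Filter ℕ) (𝓝 0) := by
      refine squeeze_zero_norm (fun n => ?_) (hinv (2 * d b 1 * d 1 a⁻¹))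
      have hcomm : a⁻¹ * g ^ (n + 1) = g ^ (n + 1) * a⁻¹ := by
        have hc0 : Commute a g := ha
        exact (hc0.inv_left.pow_right (n + 1)).eq
      have e1 : d (a * b) (g ^ (n + 1)) = d b (a⁻¹ * g ^ (n + 1)) := by
        rw [← h.left a b (a⁻¹ * g ^ (n + 1)), mul_inv_cancel_left]
      have e2 : d a (g ^ (n + 1)) = d 1 (a⁻¹ * g ^ (n + 1)) := by
        rw [← h.left a 1 (a⁻¹ * g ^ (n + 1)), mul_inv_cancel_left, mul_one]
      have e3 : d (g ^ (n + 1)) (a⁻¹ * g ^ (n + 1)) = d 1 a⁻¹ := by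
        rw [hcomm]
        have := h.left (g ^ (n + 1)) 1 a⁻¹
        rwa [mul_one] at this
      have hq := h.quad_abs b (g ^ (n + 1)) (a⁻¹ * g ^ (n + 1))
      rw [e3] at hq
      have hn' : (0 : ℝ) < 2 * ((n + 1 : ℕ) : ℝ) := by positivity
      have e4 : FF d g (n + 1) (a * b) - FF d g (n + 1) a - FF d g (n + 1) b =
          ((d b (a⁻¹ * g ^ (n + 1)) ^ 2 - d 1 (a⁻¹ * g ^ (n + 1)) ^ 2) -
            (d b (g ^ (n + 1)) ^ 2 - d 1 (g ^ (n + 1)) ^ 2)) / (2 * ((n + 1 : ℕ) : ℝ)) := by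
        unfold FF
        rw [e1, e2]
        ring
      rw [e4, Real.norm_eq_abs, abs_div, abs_of_pos hn']
      gcongr
    have := tendsto_nhds_unique h1 h2
    linarith
  · have h1 : Tendsto (fun n : ℕ => FF d g (n + 1) g) (U : Filter ℕ) (𝓝 (f g)) := hf' g
    have h2 : ∀ᶠ n in (U : Filter ℕ), FF d g (n + 1) g ≤ -(c ^ 2 / 4) := by
      filter_upwards [hUS] with n hn
      have hn' : (0 : ℝ) < 2 * ((n + 1 : ℕ) : ℝ) := by positivity
      unfold FF
      rw [div_le_iff₀ hn']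
      have e : d g (g ^ (n + 1)) = d 1 (g ^ n) := by
        rw [pow_succ']
        have := h.left g 1 (g ^ n)
        rwa [mul_one] at this
      rw [e]
      have hn2 : c ^ 2 / 2 * (n + 1) ≤ d 1 (g ^ (n + 1)) ^ 2 - d 1 (g ^ n) ^ 2 := hn
      push_cast
      linarith
    have h3 : f g ≤ -(c ^ 2 / 4) := le_of_tendsto h1 h2
    have : 0 < c ^ 2 / 4 := by positivity
    linarith
  · intro a
    have h1 : Tendsto (fun n : ℕ => |FF d g (n + 1) a|) (U : Filter ℕ) (𝓝 |f a|) := (hf' a).abs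
    have h2 : Tendsto (fun n : ℕ => d a 1 * d 1 g + d a 1 ^ 2 / (2 * ((n + 1 : ℕ) : ℝ)))
        (U : Filter ℕ) (𝓝 (d a 1 * d 1 g + 0)) := tendsto_const_nhds.add (hinv (d a 1 ^ 2))
    have h3 : |f a| ≤ d a 1 * d 1 g + 0 :=
      le_of_tendsto_of_tendsto' h1 h2 fun n => h.FF_abs g (Nat.succ_pos n) a
    rw [add_zero, h.symm a 1, mul_comm] at h3
    exact h3

end limit

/-- CAT(0) actions: the additive character of the centralizer -/
theorem cat0 {G : Type u} [Group G] {X : Type v} [PseudoMetricSpace X] (hX : IsCAT0 X)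
    (ρ : G →* (X ≃ᵢ X)) (p : X) (g : G) (c : ℝ) (hc : 0 < c)
    (hg : ∀ n : ℕ, c * n ≤ dist p (ρ (g ^ n) p)) :
    ∃ (ℓ : G → ℝ) (χ : G → ℝ), (∀ x y, ℓ (x * y) ≤ ℓ x + ℓ y) ∧ (∀ x, ℓ x⁻¹ = ℓ x) ∧
      (∀ a ∈ Subgroup.centralizer ({g} : Set G), ∀ b ∈ Subgroup.centralizer ({g} : Set G),
        χ (a * b) = χ a + χ b) ∧ χ g ≠ 0 ∧
      ∀ a ∈ Subgroup.centralizer ({g} : Set G), |χ a| ≤ ℓ a := by
  have hQ : QMet (fun x y : G => dist (ρ x p) (ρ y p)) := by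
    refine ⟨fun _ _ => dist_nonneg, fun _ => dist_self _, fun _ _ => dist_comm _ _,
      fun _ _ _ => dist_triangle _ _ _, fun a x y => ?_, fun _ _ _ _ => quad hX _ _ _ _⟩
    show dist (ρ (a * x) p) (ρ (a * y) p) = _
    rw [map_mul, map_mul, IsometryEquiv.mul_apply, IsometryEquiv.mul_apply]
    exact (ρ a).isometry.dist_eq _ _
  have h1 : ∀ n : ℕ, c * n ≤ dist (ρ (1 : G) p) (ρ (g ^ n) p) := by
    intro n
    have : ρ (1 : G) p = p := by rw [map_one]; rfl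
    rw [this]
    exact hg n
  obtain ⟨χ, hadd, hne, hle⟩ := hQ.char hc h1
  refine ⟨fun x => dist (ρ 1 p) (ρ g p) * dist (ρ 1 p) (ρ x p), χ, ?_, ?_, ?_, hne, ?_⟩
  · intro x y
    have h2 : dist (ρ 1 p) (ρ (x * y) p) ≤ dist (ρ 1 p) (ρ x p) + dist (ρ x p) (ρ (x * y) p) :=
      hQ.tri 1 x (x * y)
    have h3 : dist (ρ (x * 1) p) (ρ (x * y) p) = dist (ρ 1 p) (ρ y p) := hQ.left x 1 y
    rw [mul_one] at h3
    rw [h3] at h2
    have h4 : 0 ≤ dist (ρ 1 p) (ρ g p) := dist_nonneg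
    show dist (ρ 1 p) (ρ g p) * dist (ρ 1 p) (ρ (x * y) p) ≤ _
    nlinarith
  · intro x
    have h3 : dist (ρ (x * 1) p) (ρ (x * x⁻¹) p) = dist (ρ 1 p) (ρ x⁻¹ p) := hQ.left x 1 x⁻¹
    rw [mul_one, mul_inv_cancel] at h3
    show dist (ρ 1 p) (ρ g p) * dist (ρ 1 p) (ρ x⁻¹ p) = dist (ρ 1 p) (ρ g p) * dist (ρ 1 p) (ρ x p)
    rw [← h3, dist_comm (ρ x p)]
  · intro a ha b _
    exact hadd a (Subgroup.mem_centralizer_singleton_iff.1 ha) b
  · intro a _
    exact hle a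

end Vale.Agent.P184
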