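import Mathlib

/-!
P184: CAT(0) spaces.
-/

namespace Vale.Agent.P184

universe v

/-- `X` is a (possibly incomplete) CAT(0) space: any two points `x y` and `t ∈ [0,1]` have a point
`p` (the point at ratio `t` on the geodesic from `x` to `y`) satisfying the Bruhat-Tits / CAT(0)
inequality for all `z`. -/
def IsCAT0 (X : Type v) [PseudoMetricSpace X] : Prop :=
  ∀ (x y : X) (t : ℝ), 0 ≤ t → t ≤ 1 → ∃ p : X, ∀ z : X,
    dist z p ^ 2 ≤ (1 - t) * dist z x ^ 2 + t * dist z y ^ 2 - t * (1 - t) * dist x y ^ 2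

end Vale.Agent.P184
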