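import Vale.Agent.P184.Cat0

/-!
P184: displacement and geometric actions on CAT(0) spaces.
-/

open Filter Topology

namespace Vale.Agent.P184

universe u v

theorem mid_ineq {X : Type v} [PseudoMetricSpace X] (hX : IsCAT0 X) (σ : X ≃ᵢ X) (c : ℝ)
    (hc0 : 0 ≤ c) (hc : ∀ y, c ≤ dist y (σ y)) (y : X) : 2 * c ≤ dist y (σ (σ y)) := by
  obtain ⟨m, hm⟩ := hX y (σ y) (1 / 2) (by norm_num) (by norm_num)
  have hm' : ∀ z : X, dist z (σ m) ^ 2 ≤
      (1 - 1 / 2) * dist z (σ y) ^ 2 + 1 / 2 * dist z (σ (σ y)) ^ 2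
        - 1 / 2 * (1 - 1 / 2) * dist (σ y) (σ (σ y)) ^ 2 := by
    intro z
    have h1 := hm (σ.symm z)
    have e : ∀ w, dist (σ.symm z) w = dist z (σ w) := by
      intro w
      rw [← σ.isometry.dist_eq, σ.apply_symm_apply]
    rw [e, e, e, ← σ.isometry.dist_eq y (σ y)] at h1
    exact h1
  have h1 := hm' m
  have h2 := hm (σ y)
  have h3 := hm (σ (σ y))
  have h4 := hc m
  rw [dist_self] at h2
  rw [dist_comm (σ y) m, dist_comm (σ y) y] at h2
  rw [dist_comm (σ (σ y)) m, dist_comm (σ (σ y)) y, dist_comm (σ (σ y)) (σ y)] at h3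
  have h5 : dist m (σ m) ^ 2 ≤ 1 / 4 * dist y (σ (σ y)) ^ 2 := by nlinarith
  have h6 : 0 ≤ dist y (σ (σ y)) := dist_nonneg
  have h7 : (2 * c) ^ 2 ≤ dist y (σ (σ y)) ^ 2 := by nlinarith
  exact abs_le_of_sq_le_sq' h7 h6 |>.2

theorem disp_two_pow {X : Type v} [PseudoMetricSpace X] (hX : IsCAT0 X) (σ : X ≃ᵢ X) (c : ℝ)
    (hc0 : 0 ≤ c) (hc : ∀ y, c ≤ dist y (σ y)) (k : ℕ) :
    ∀ y, 2 ^ k * c ≤ dist y ((σ ^ (2 ^ k)) y) := by
  induction k with
  | zero => intro y; simpa using hc y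
  | succ k ih =>
    intro y
    have h1 := mid_ineq hX (σ ^ (2 ^ k)) (2 ^ k * c) (by positivity) ih y
    have h2 : (σ ^ (2 ^ k)) ((σ ^ (2 ^ k)) y) = (σ ^ (2 ^ (k + 1))) y := by
      rw [← IsometryEquiv.mul_apply, ← pow_add]
      congr 2
      ring
    rw [h2] at h1
    calc 2 ^ (k + 1) * c = 2 * (2 ^ k * c) := by ring
      _ ≤ _ := h1

theorem disp_pow {X : Type v} [PseudoMetricSpace X] (hX : IsCAT0 X) (σ : X ≃ᵢ X) (c : ℝ)
    (hc0 : 0 ≤ c) (hc : ∀ y, c ≤ dist y (σ y)) (n : ℕ) (y : X) :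
    c * n ≤ dist y ((σ ^ n) y) := by
  have hsub : Subadditive fun n : ℕ => dist y ((σ ^ n) y) := by
    intro a b
    have h1 := dist_triangle y ((σ ^ a) y) ((σ ^ (a + b)) y)
    have h2 : dist ((σ ^ a) y) ((σ ^ (a + b)) y) = dist y ((σ ^ b) y) := by
      rw [pow_add, IsometryEquiv.mul_apply, (σ ^ a).isometry.dist_eq]
    rwa [h2] at h1
  have hbdd : BddBelow (Set.range fun n : ℕ => dist y ((σ ^ n) y) / n) := by
    refine ⟨0, ?_⟩
    rintro _ ⟨n, rfl⟩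
    positivity
  have hlim := hsub.tendsto_lim hbdd
  have h2k : Tendsto (fun k : ℕ => 2 ^ k) atTop (atTop : Filter ℕ) :=
    tendsto_pow_atTop_atTop_of_one_lt (by norm_num)
  have h3 := hlim.comp h2k
  have h4 : c ≤ hsub.lim := by
    refine ge_of_tendsto' h3 fun k => ?_
    show c ≤ dist y ((σ ^ (2 ^ k)) y) / ((2 ^ k : ℕ) : ℝ)
    have := disp_two_pow hX σ c hc0 hc k y
    rw [le_div_iff₀ (by positivity)]
    push_cast
    linarith
  rcases Nat.eq_zero_or_pos n with rfl | hn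
  · simp
  · have h5 := hsub.lim_le_div hbdd hn.ne'
    have h6 : c ≤ dist y ((σ ^ n) y) / n := h4.trans h5
    have hn' : (0 : ℝ) < n := by exact_mod_cast hn
    rwa [le_div_iff₀ hn'] at h6

/-- geometric actions: an element all of whose conjugates in a finite set have infinite order has
displacement bounded below -/
theorem geom {G : Type u} [Group G] {X : Type v} [PseudoMetricSpace X]
    (ρ : G →* (X ≃ᵢ X)) (p : X) (R : ℝ) (hR : ∀ y, ∃ h : G, dist p (ρ h y) ≤ R)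
    (hfin : ∀ r : ℝ, {γ : G | dist p (ρ γ p) ≤ r}.Finite) (x : G)
    (hx : ∀ c : ℝ, 0 < c → ∃ y, dist y (ρ x y) < c) :
    ∃ γ : G, IsConj x γ ∧ IsOfFinOrder γ ∧ dist p (ρ γ p) ≤ 2 * R + 1 := by
  have h1 : ∀ n : ℕ, ∃ γ : G, IsConj x γ ∧ ∃ k : X, dist p k ≤ R ∧
      dist k (ρ γ k) < 1 / ((n : ℝ) + 1) := by
    intro n
    obtain ⟨y, hy⟩ := hx (1 / ((n : ℝ) + 1)) (by positivity)
    obtain ⟨h, hh⟩ := hR y
    refine ⟨h * x * h⁻¹, isConj_iff.2 ⟨h, rfl⟩, ρ h y, hh, ?_⟩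
    have e : ρ (h * x * h⁻¹) (ρ h y) = ρ h (ρ x y) := by
      rw [← IsometryEquiv.mul_apply, ← IsometryEquiv.mul_apply, ← map_mul, ← map_mul,
        inv_mul_cancel_right]
    rw [e, (ρ h).isometry.dist_eq]
    exact hy
  choose γ hconj k hk1 hk2 using h1
  have hpow : ∀ (n : ℕ) (N : ℕ), dist (k n) (ρ (γ n ^ N) (k n)) ≤ N * (1 / ((n : ℝ) + 1)) := by
    intro n N
    induction N with
    | zero =>
      have : ρ (γ n ^ 0) (k n) = k n := by rw [pow_zero, map_one]; rfl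
      rw [this, dist_self]
      simp
    | succ N ih =>
      have e : dist (ρ (γ n ^ N) (k n)) (ρ (γ n ^ (N + 1)) (k n)) = dist (k n) (ρ (γ n) (k n)) := by
        rw [pow_succ, map_mul, IsometryEquiv.mul_apply, (ρ (γ n ^ N)).isometry.dist_eq]
      have h2 := dist_triangle (k n) (ρ (γ n ^ N) (k n)) (ρ (γ n ^ (N + 1)) (k n))
      rw [e] at h2
      have h3 := (hk2 n).le
      push_cast
      linarith
  have hball : ∀ (n N : ℕ), N ≤ n → dist p (ρ (γ n ^ N) p) ≤ 2 * R + 1 := by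
    intro n N hN
    have a1 := dist_triangle p (k n) (ρ (γ n ^ N) p)
    have a2 := dist_triangle (k n) (ρ (γ n ^ N) (k n)) (ρ (γ n ^ N) p)
    rw [(ρ (γ n ^ N)).isometry.dist_eq, dist_comm (k n) p] at a2
    have a3 := hpow n N
    have a4 := hk1 n
    have a5 : (N : ℝ) * (1 / ((n : ℝ) + 1)) ≤ 1 := by
      rw [mul_one_div, div_le_one (by positivity)]
      have : (N : ℝ) ≤ n := by exact_mod_cast hN
      linarith
    linarith
  -- pigeonhole
  have hSfin := hfin (2 * R + 1)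
  have hmaps : ∀ n : ℕ, 1 ≤ n → γ n ∈ {γ : G | dist p (ρ γ p) ≤ 2 * R + 1} := by
    intro n hn
    have := hball n 1 hn
    rwa [pow_one] at this
  have hinf : ∃ δ ∈ {γ : G | dist p (ρ γ p) ≤ 2 * R + 1}, {n : ℕ | γ (n + 1) = δ}.Infinite := by
    by_contra hcon
    push Not at hcon
    have h2 : (⋃ δ ∈ {γ : G | dist p (ρ γ p) ≤ 2 * R + 1}, {n : ℕ | γ (n + 1) = δ}).Finite :=
      hSfin.biUnion fun δ hδ => hcon δ hδ
    have h3 : (⋃ δ ∈ {γ : G | dist p (ρ γ p) ≤ 2 * R + 1}, {n : ℕ | γ (n + 1) = δ}) = Set.univ := by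
      rw [Set.eq_univ_iff_forall]
      intro n
      rw [Set.mem_iUnion₂]
      exact ⟨γ (n + 1), hmaps (n + 1) (by omega), rfl⟩
    rw [h3] at h2
    exact Set.infinite_univ h2
  obtain ⟨δ, hδ, hδinf⟩ := hinf
  obtain ⟨n0, hn0⟩ := hδinf.nonempty
  refine ⟨δ, ?_, ?_, hδ⟩
  · have := hconj (n0 + 1)
    rwa [hn0] at this
  · by_contra hnot
    rw [← injective_pow_iff_not_isOfFinOrder] at hnot
    have h5 : Set.range (fun n : ℕ => δ ^ n) ⊆ {γ : G | dist p (ρ γ p) ≤ 2 * R + 1} := by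
      rintro _ ⟨N, rfl⟩
      obtain ⟨n, hn, hNn⟩ := hδinf.exists_gt N
      have h6 := hball (n + 1) N (by omega)
      have h7 : γ (n + 1) = δ := hn
      rwa [h7] at h6
    exact (Set.infinite_range_of_injective hnot) (hSfin.subset h5)

end Vale.Agent.P184
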