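import Vale.Agent.P184.Cross

/-!
# P184: module CONSTR
-/

namespace Vale.Agent.P184

open scoped BoundedContinuousFunction

universe u

namespace CONSTRX

set_option linter.unusedSectionVars false

variable {G : Type u} [Group G] [TopologicalSpace G] [DiscreteTopology G]

/-- translation of bounded functions -/
noncomputable def al (h : G) : (G →ᵇ ℂ) →ₐ[ℂ] (G →ᵇ ℂ) where
  toFun f := f.compContinuous ⟨fun x => h⁻¹ * x, continuous_of_discreteTopology⟩
  map_one' := by ext x; simp
  map_mul' f f' := by ext x; simp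
  map_zero' := by ext x; simp
  map_add' f f' := by ext x; simp
  commutes' c := by ext x; simp

lemma al_apply (h : G) (f : G →ᵇ ℂ) (x : G) : al h f x = f (h⁻¹ * x) := rfl

lemma al_norm (h : G) (f : G →ᵇ ℂ) : ‖al h f‖ ≤ ‖f‖ := by
  rw [BoundedContinuousFunction.norm_le (norm_nonneg _)]
  intro x
  rw [al_apply]
  exact f.norm_coe_le_norm _

/-- a mean as a functional -/
noncomputable def mu (m : (G → ℂ) → ℂ) (hm : IsMean m) : (G →ᵇ ℂ) →L[ℂ] ℂ :=
  LinearMap.mkContinuous
    { toFun := fun f => m f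
      map_add' := fun f f' => by
        have := hm.add f f' ⟨‖f‖, f.norm_coe_le_norm⟩ ⟨‖f'‖, f'.norm_coe_le_norm⟩
        exact this
      map_smul' := fun c f => by
        have := hm.smul c f ⟨‖f‖, f.norm_coe_le_norm⟩
        exact this } 1 (fun f => by
      rw [one_mul]
      exact hm.bound f ‖f‖ f.norm_coe_le_norm)

lemma mu_apply (m : (G → ℂ) → ℂ) (hm : IsMean m) (f : G →ᵇ ℂ) : mu m hm f = m f := rfl

lemma mu_norm (m : (G → ℂ) → ℂ) (hm : IsMean m) : ‖mu m hm‖ ≤ 1 :=
  LinearMap.mkContinuous_norm_le _ zero_le_one _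

/-- the phases -/
noncomputable def ph (φ : G → ℝ) (t : ℝ) (h : G) : G →ᵇ ℂ :=
  BoundedContinuousFunction.ofNormedAddCommGroup
    (fun x => Complex.exp (Complex.I * ((t * (φ x - φ (h⁻¹ * x)) : ℝ) : ℂ)))
    continuous_of_discreteTopology 1 (fun x => by
      rw [mul_comm, Complex.norm_exp_ofReal_mul_I])

lemma ph_apply (φ : G → ℝ) (t : ℝ) (h x : G) :
    ph φ t h x = Complex.exp (Complex.I * ((t * (φ x - φ (h⁻¹ * x)) : ℝ) : ℂ)) := rfl

lemma ph_norm (φ : G → ℝ) (t : ℝ) (h : G) : ‖ph φ t h‖ ≤ 1 := by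
  rw [BoundedContinuousFunction.norm_le zero_le_one]
  intro x
  rw [ph_apply, mul_comm, Complex.norm_exp_ofReal_mul_I]

lemma ph_one (φ : G → ℝ) (t : ℝ) : ph φ t 1 = 1 := by
  ext x
  rw [ph_apply]
  simp

lemma ph_mul (φ : G → ℝ) (t : ℝ) (h k : G) : ph φ t (h * k) = ph φ t h * al h (ph φ t k) := by
  ext x
  rw [BoundedContinuousFunction.mul_apply, al_apply, ph_apply, ph_apply, ph_apply,
    ← Complex.exp_add]
  congr 1
  rw [mul_inv_rev, mul_assoc]
  push_cast
  ring

lemma ph_lip (φ : G → ℝ) (h : G) (C : ℝ) (hC : ∀ x, |φ x - φ (h⁻¹ * x)| ≤ C) (s t : ℝ) :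
    ‖ph φ s h - ph φ t h‖ ≤ C * |s - t| := by
  have hC0 : 0 ≤ C := (abs_nonneg _).trans (hC 1)
  rw [BoundedContinuousFunction.norm_le (by positivity)]
  intro x
  rw [BoundedContinuousFunction.sub_apply, ph_apply, ph_apply]
  set b := φ x - φ (h⁻¹ * x) with hb
  have e : Complex.exp (Complex.I * ((s * b : ℝ) : ℂ)) - Complex.exp (Complex.I * ((t * b : ℝ) : ℂ))
      = Complex.exp (Complex.I * ((t * b : ℝ) : ℂ)) *
        (Complex.exp (Complex.I * (((s - t) * b : ℝ) : ℂ)) - 1) := by
    have e1 : Complex.exp (Complex.I * ((s * b : ℝ) : ℂ)) =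
        Complex.exp (Complex.I * ((t * b : ℝ) : ℂ)) *
          Complex.exp (Complex.I * (((s - t) * b : ℝ) : ℂ)) := by
      rw [← Complex.exp_add]
      congr 1
      push_cast
      ring
    rw [e1]
    ring
  rw [e, norm_mul, mul_comm Complex.I ((t * b : ℝ) : ℂ), Complex.norm_exp_ofReal_mul_I, one_mul]
  refine (Real.norm_exp_I_mul_ofReal_sub_one_le).trans ?_
  rw [Real.norm_eq_abs, abs_mul, mul_comm]
  exact mul_le_mul_of_nonneg_right (hC x) (abs_nonneg _)

end CONSTRX

open CONSTRX in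
theorem constr (hMEANF : S_MEANF.{u}) : S_CONSTR.{u} := by
  classical
  intro G _ g φ hφ1 hφ2 hA
  obtain ⟨μ, hμ1, hμ2, hμ3⟩ := hMEANF G g hA
  let _ : TopologicalSpace G := ⊥
  have _ : DiscreteTopology G := ⟨rfl⟩
  let M : G → ((G →ᵇ ℂ) →L[ℂ] ℂ) := fun h => if hh : IsConj g h then mu (μ h) (hμ1 h hh) else 0
  have hM1 : ∀ h (hh : IsConj g h) f, M h f = μ h f := by
    intro h hh f
    show (if hh : IsConj g h then mu (μ h) (hμ1 h hh) else 0 : (G →ᵇ ℂ) →L[ℂ] ℂ) f = _
    rw [dif_pos hh, mu_apply]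
  have hM0 : ∀ h, ¬ IsConj g h → M h = 0 := by
    intro h hh
    show (if hh : IsConj g h then mu (μ h) (hμ1 h hh) else 0 : (G →ᵇ ℂ) →L[ℂ] ℂ) = _
    rw [dif_neg hh]
  have hMn : ∀ h, ‖M h‖ ≤ 1 := by
    intro h
    by_cases hh : IsConj g h
    · show ‖(if hh : IsConj g h then mu (μ h) (hμ1 h hh) else 0 : (G →ᵇ ℂ) →L[ℂ] ℂ)‖ ≤ 1
      rw [dif_pos hh]
      exact mu_norm _ _
    · rw [hM0 h hh]
      simp
  let Y₀ : Submonoid (G →ᵇ ℂ) :=
    { carrier := {f | ∀ x, f (x * g) = f x}
      mul_mem' := by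
        intro a b ha hb x
        rw [BoundedContinuousFunction.mul_apply, BoundedContinuousFunction.mul_apply, ha x, hb x]
      one_mem' := fun x => rfl }
  have hginv : ∀ f ∈ Y₀, ∀ x, f (x * g⁻¹) = f x := by
    intro f hf x
    have := hf (x * g⁻¹)
    rw [inv_mul_cancel_right] at this
    exact this.symm
  obtain ⟨R, i1, i2, i3, o, T, S, ho1, ho2, ho3, ho4, ho5, hS, hT1, hT2⟩ :=
    cross G (G →ᵇ ℂ) al al_norm (fun y => by ext x; rw [al_apply, inv_one, one_mul])
      (fun h k y => by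
        ext x
        rw [al_apply, al_apply, al_apply, mul_inv_rev, mul_assoc]) M hMn Y₀
      (fun h y hy x => by
        rw [al_apply, al_apply, ← mul_assoc]
        exact hy (h⁻¹ * x))
      (by
        intro f hf f' hf' h h'
        by_cases hc : IsConj g (h * h')
        · have e1 : h' * h = h⁻¹ * (h * h') * h⁻¹⁻¹ := by group
          have hc' : IsConj g (h' * h) := by
            refine hc.trans ?_
            rw [isConj_iff]
            exact ⟨h⁻¹, e1.symm⟩
          rw [hM1 _ hc, hM1 _ hc', e1, hμ2 (h * h') h⁻¹ _ hc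
            ⟨‖f' * al h' f‖, (f' * al h' f).norm_coe_le_norm⟩]
          apply hμ3 _ _ _ hc
          intro x hx
          rw [BoundedContinuousFunction.mul_apply, BoundedContinuousFunction.mul_apply, al_apply,
            al_apply]
          have e2 : h'⁻¹ * (h⁻¹ * x) = x * g⁻¹ := by
            have : h'⁻¹ * (h⁻¹ * x) = (h * h')⁻¹ * x := by group
            rw [this, ← hx]
            group
          rw [e2, hginv f hf, mul_comm]
        · have hc' : ¬ IsConj g (h' * h) := by
            intro h1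
            apply hc
            refine h1.trans ?_
            rw [isConj_iff]
            exact ⟨h, by group⟩
          rw [hM0 _ hc, hM0 _ hc']
          rfl)
  have hphY : ∀ t h, ph φ t h ∈ Y₀ := by
    intro t h x
    rw [ph_apply, ph_apply, ← mul_assoc, hφ1, hφ1]
    congr 3
    ring
  refine ⟨R, i1, i2, i3, fun t =>
    { toFun := fun h => o (ph φ t h) h
      map_one' := by rw [ph_one, ho3]
      map_mul' := fun h k => by rw [ho2, ← ph_mul] }, T, S,
    fun t h => (ho1 _ _).trans (ph_norm φ t h), ?_, fun t h => ho5 _ (hphY t h) h, hS, hT1, ?_⟩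
  · intro h
    obtain ⟨C, hC⟩ := hφ2 h
    have hC' : ∀ x, |φ x - φ (h⁻¹ * x)| ≤ C := by
      intro x
      have := hC (h⁻¹ * x)
      rwa [mul_inv_cancel_left] at this
    have hC0 : 0 ≤ C := (abs_nonneg _).trans (hC' 1)
    show Continuous fun t => o (ph φ t h) h
    refine (LipschitzWith.of_dist_le_mul (K := ⟨C, hC0⟩) fun s t => ?_).continuous
    rw [dist_eq_norm, Real.dist_eq, ho4]
    exact (ho1 _ _).trans (ph_lip φ h C hC' s t)
  · intro t h
    show T (o (ph φ t h) h) = _
    rw [hT2]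
    by_cases hc : IsConj g h
    · rw [if_pos hc, hM1 h hc]
      have e1 : μ h (ph φ t h) = μ h (fun _ => Complex.exp (Complex.I * t) * 1) := by
        apply hμ3 _ _ _ hc
        intro x hx
        rw [ph_apply, mul_one]
        have e2 : h⁻¹ * x = x * g⁻¹ := by
          rw [← hx]
          group
        have e3 : φ x - φ (h⁻¹ * x) = 1 := by
          rw [e2]
          have := hφ1 (x * g⁻¹)
          rw [inv_mul_cancel_right] at this
          rw [this]
          ring
        rw [e3, mul_one]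
      rw [e1, (hμ1 h hc).smul _ (fun _ => 1) ⟨1, fun x => by simp⟩, (hμ1 h hc).one, mul_one]
    · rw [if_neg hc, hM0 h hc]
      rfl

end Vale.Agent.P184
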