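import Vale.Agent.P184.Gen

/-!
# P184: special cases of the criterion
-/

namespace Vale.Agent.P184

universe u

section

variable {G : Type u} [Group G] {g : G}

theorem coamen_of_amen (h : Amen (Subgroup.centralizer ({g} : Set G))) (A : Subgroup G) :
    CoAmen g A := by
  obtain ⟨m, hm, hinv⟩ := h
  exact ⟨m, hm, fun z f hf _ => hinv z f hf⟩

theorem coamen_centralizer : CoAmen g (Subgroup.centralizer ({g} : Set G)) := by
  refine ⟨fun f => f 1, ⟨fun _ _ _ _ => rfl, fun _ _ _ => rfl, fun f C hf => hf 1, rfl⟩, ?_⟩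
  intro z f _ hA
  show f (z * 1) = f 1
  have h1 := hA 1 z z.2
  rw [one_mul] at h1
  rw [mul_one, h1]

open Classical in
theorem crit_amen {ℓ : G → ℝ} (hsub : ∀ x y, ℓ (x * y) ≤ ℓ x + ℓ y) (hinv : ∀ x, ℓ x⁻¹ = ℓ x)
    {c : ℝ} (hc : 0 < c) (hg : ∀ n : ℕ, c * n ≤ ℓ (g ^ n))
    (hA : Amen (Subgroup.centralizer ({g} : Set G))) :
    ∃ χ, Crit g ℓ (Subgroup.zpowers g) χ := by
  have hlow : ∀ n : ℤ, c * |(n : ℝ)| ≤ ℓ (g ^ n) := by
    intro n
    rcases Int.eq_nat_or_neg n with ⟨m, rfl | rfl⟩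
    · simpa using hg m
    · have := hg m
      rw [zpow_neg, hinv]
      simpa using this
  have hinj : ∀ n m : ℤ, g ^ n = g ^ m → n = m := by
    intro n m hnm
    by_contra hne
    have h1 : g ^ (n - m) = 1 := by
      rw [zpow_sub, hnm, mul_inv_cancel]
    have h2 : ∀ k : ℕ, c * k ≤ ℓ 1 := by
      intro k
      have h3 := hlow ((n - m) * k)
      rw [zpow_mul, h1, one_zpow] at h3
      refine le_trans ?_ h3
      apply mul_le_mul_of_nonneg_left _ hc.le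
      have h4 : (1 : ℤ) ≤ |n - m| := Int.one_le_abs (sub_ne_zero.2 hne)
      have h5 : (1 : ℝ) ≤ |((n - m : ℤ) : ℝ)| := by
        rw [← Int.cast_abs]
        exact_mod_cast h4
      push_cast at h5 ⊢
      rw [abs_mul, Nat.abs_cast]
      nlinarith [Nat.cast_nonneg (α := ℝ) k]
    obtain ⟨k, hk⟩ := exists_nat_gt (ℓ 1 / c)
    have h3 := h2 k
    rw [div_lt_iff₀ hc] at hk
    linarith
  let χ : G → ℝ := fun x => if h : ∃ n : ℤ, g ^ n = x then c * (Classical.choose h : ℤ) else 0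
  have hχ : ∀ n : ℤ, χ (g ^ n) = c * n := by
    intro n
    have h : ∃ m : ℤ, g ^ m = g ^ n := ⟨n, rfl⟩
    show (if h : ∃ m : ℤ, g ^ m = g ^ n then c * ((Classical.choose h : ℤ) : ℝ) else 0) = _
    rw [dif_pos h, hinj _ _ (Classical.choose_spec h)]
  refine ⟨χ, hsub, hinv, Subgroup.mem_zpowers g, ?_, ?_, ?_, ?_, coamen_of_amen hA _⟩
  · rintro a ⟨n, rfl⟩
    exact (Commute.refl g).zpow_left n
  · rintro a ⟨n, rfl⟩ b ⟨m, rfl⟩
    show χ (g ^ n * g ^ m) = χ (g ^ n) + χ (g ^ m)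
    rw [← zpow_add, hχ, hχ, hχ]
    push_cast
    ring
  · have := hχ 1
    rw [zpow_one] at this
    rw [this]
    push_cast
    rw [mul_one]
    exact hc.ne'
  · rintro a ⟨n, rfl⟩
    show |χ (g ^ n)| ≤ ℓ (g ^ n)
    rw [hχ, abs_mul, abs_of_pos hc]
    exact hlow n

theorem crit_hom {ℓ : G → ℝ} (hsub : ∀ x y, ℓ (x * y) ≤ ℓ x + ℓ y) (hinv : ∀ x, ℓ x⁻¹ = ℓ x)
    {χ : G → ℝ} (hadd : ∀ a ∈ Subgroup.centralizer ({g} : Set G),
      ∀ b ∈ Subgroup.centralizer ({g} : Set G), χ (a * b) = χ a + χ b) (hne : χ g ≠ 0)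
    (hle : ∀ a ∈ Subgroup.centralizer ({g} : Set G), |χ a| ≤ ℓ a) :
    Crit g ℓ (Subgroup.centralizer ({g} : Set G)) χ where
  sub := hsub
  inv := hinv
  mem := by
    rw [Subgroup.mem_centralizer_singleton_iff]
  cent a ha := by
    rw [Subgroup.mem_centralizer_singleton_iff] at ha
    exact ha
  add := hadd
  ne := hne
  le := hle
  coamen := coamen_centralizer

end

end Vale.Agent.P184
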