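import Mathlib

/-!
# P184: complex linear groups. Module statement.
-/

namespace Vale.Agent.P184

/-- EMB: `T` a transcendence basis of `ℂ` over `F`, `T'` one of `Ω` over `F`; `#T ≤ 𝔠 ≤ #T'` by
`IsAlgClosed.cardinal_le_max_transcendence_basis`-type lemmas (as `F` is countable), so there is an
injection `T → T'`; hence `F(T) → Ω`, and `ℂ` is algebraic over `F(T)`: `IsAlgClosed.lift`.
(The algebraicity of `ℂ` over `FractionRing (MvPolynomial T F)` is done in
`Vale/Agent/P184/Trans.lean`, copy it.) -/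
def S_EMB : Prop := ∀ (F : Type) [Field F] [Countable F] (Ω : Type) [Field Ω] [IsAlgClosed Ω]
  (i : F →+* ℂ) (j : F →+* Ω), Cardinal.continuum ≤ Cardinal.mk Ω →
  ∃ σ : ℂ →+* Ω, ∀ x, σ (i x) = j x

end Vale.Agent.P184
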