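import Vale.Agent.P184.GDefs
import Vale.Agent.P184.GDefs2

/-!
P184, CPLX: absolute values on `ℂ`.
-/

open NumberField IsDedekindDomain

namespace Vale.Agent.P184

universe v

/-- OMEGA: an algebraically closed field of cardinality at least continuum with an absolute value
extending a given nonarchimedean one (algebraic closure of the completion). -/
def S_OMEGA : Prop := ∀ (F : Type) [Field F] (f : AbsoluteValue F ℝ), IsNonarchimedean f →
  f.IsNontrivial → ∃ (Ω : Type) (_ : Field Ω) (_ : IsAlgClosed Ω) (j : F →+* Ω)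
    (f' : AbsoluteValue Ω ℝ), (∀ x, f' (j x) = f x) ∧ Cardinal.continuum ≤ Cardinal.mk Ω

theorem nf2 {K : Type v} [Field K] [NumberField K] (lam : K)
    (hroot : ∀ n : ℕ, 0 < n → lam ^ n ≠ 1) : (∃ φ : K →+* ℂ, ‖φ lam‖ ≠ 1) ∨
      ∃ f : AbsoluteValue K ℝ, IsNonarchimedean f ∧ f lam ≠ 1 := by
  by_contra hcon
  push Not at hcon
  obtain ⟨hcon1, hcon⟩ := hcon
  have hint : IsIntegral ℤ lam := by
    have h1 : lam ∈ (algebraMap (𝓞 K) K).range := by
      apply HeightOneSpectrum.mem_integers_of_valuation_le_one K lam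
      intro w
      have h2 := hcon (NumberField.HeightOneSpectrum.adicAbv K w)
        (NumberField.HeightOneSpectrum.isNonarchimedean_adicAbv K w)
      rw [NumberField.HeightOneSpectrum.adicAbv_def] at h2
      have h3 : WithZeroMulInt.toNNReal
          (NumberField.HeightOneSpectrum.absNorm_ne_zero w)
          (w.valuation K lam) = 1 := by exact_mod_cast h2
      rw [WithZeroMulInt.toNNReal_eq_one_iff] at h3
      · exact h3.le
      · exact (NumberField.HeightOneSpectrum.one_lt_absNorm_nnreal w).ne'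
    obtain ⟨r, hr⟩ := h1
    rw [← hr]
    exact r.isIntegral_coe
  obtain ⟨n, hn, hx⟩ := Embeddings.pow_eq_one_of_norm_eq_one K ℂ hint hcon1
  exact hroot n hn hx

open IntermediateField in
theorem cplx (htrans : S_TRANS.{0}) (hemb : S_EMB) (homega : S_OMEGA) (lam : ℂ) (h0 : lam ≠ 0)
    (hroot : ∀ n : ℕ, 0 < n → lam ^ n ≠ 1) : ∃ f : AbsoluteValue ℂ ℝ, f lam ≠ 1 := by
  by_cases halg : IsAlgebraic ℚ lam
  · -- the number field
    have hint : IsIntegral ℚ lam := halg.isIntegral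
    have hfd : FiniteDimensional ℚ ℚ⟮lam⟯ := IntermediateField.adjoin.finiteDimensional hint
    have hnf : NumberField ℚ⟮lam⟯ := { to_charZero := inferInstance, to_finiteDimensional := hfd }
    let x : ℚ⟮lam⟯ := ⟨lam, mem_adjoin_simple_self _ lam⟩
    have hx0 : x ≠ 0 := fun h => h0 (congrArg Subtype.val h)
    have hxroot : ∀ n : ℕ, 0 < n → x ^ n ≠ 1 := by
      intro n hn h
      exact hroot n hn (by simpa using congrArg Subtype.val h)
    have hcount : Countable ℚ⟮lam⟯ := by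
      have b := Module.finBasis ℚ ℚ⟮lam⟯
      exact b.equivFun.injective.countable
    rcases nf2 x hxroot with ⟨φ, hφ⟩ | ⟨f, hf1, hf2⟩
    · obtain ⟨σ, hσ⟩ := hemb ℚ⟮lam⟯ ℂ (algebraMap ℚ⟮lam⟯ ℂ) φ (by rw [Cardinal.mk_complex])
      refine ⟨(NormedField.toAbsoluteValue ℂ).comp σ.injective, ?_⟩
      show ‖σ lam‖ ≠ 1
      have : σ lam = φ x := hσ x
      rw [this]
      exact hφ
    · obtain ⟨Ω, _, _, j, f', hf', hcard⟩ := homega ℚ⟮lam⟯ f hf1 ⟨x, hx0, hf2⟩
      obtain ⟨σ, hσ⟩ := hemb ℚ⟮lam⟯ Ω (algebraMap ℚ⟮lam⟯ ℂ) j hcard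
      refine ⟨f'.comp σ.injective, ?_⟩
      show f' (σ lam) ≠ 1
      have : σ lam = j x := hσ x
      rw [this, hf']
      exact hf2
  · refine htrans ℂ (algebraMap ℚ ℂ).fieldRange lam ?_
    exact Transcendental.ringHom_of_comp_eq (algebraMap ℚ ℂ).rangeRestrictField (RingHom.id ℂ)
      halg (by rintro ⟨y, x, rfl⟩; exact ⟨x, rfl⟩) Function.injective_id (by ext; rfl)

end Vale.Agent.P184
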