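import Vale.Agent.P184.Defs

/-!
# P184: an abstract crossed product, as operators on `ℓ¹(G; Y)`
-/

namespace Vale.Agent.P184

open scoped ENNReal

universe u v

namespace CROSS

set_option linter.unusedSectionVars false

variable {G : Type u} [Group G] {Y : Type v} [NormedRing Y] [NormedAlgebra ℂ Y] [CompleteSpace Y]

lemma mem1 {f : G → Y} : Memℓp f 1 ↔ Summable fun k => ‖f k‖ := by
  rw [memℓp_gen_iff (by norm_num)]
  simp

lemma norm1 (u : lp (fun _ : G => Y) 1) : ‖u‖ = ∑' k, ‖u k‖ := by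
  rw [lp.norm_eq_tsum_rpow (by norm_num)]
  simp

lemma summ1 (u : lp (fun _ : G => Y) 1) : Summable fun k => ‖u k‖ := mem1.1 u.2

variable (α : G → (Y →ₐ[ℂ] Y)) (hα : ∀ h y, ‖α h y‖ ≤ ‖y‖)

include hα in
lemma mem_op (f : Y) (h : G) (u : lp (fun _ : G => Y) 1) :
    Memℓp (fun k => f * α h (u (h⁻¹ * k))) 1 := by
  rw [mem1]
  have h1 : Summable fun k => ‖u (h⁻¹ * k)‖ := (Equiv.mulLeft h⁻¹).summable_iff.2 (summ1 u)
  refine Summable.of_nonneg_of_le (fun k => norm_nonneg _) (fun k => ?_) (h1.mul_left ‖f‖)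
  exact (norm_mul_le _ _).trans (mul_le_mul_of_nonneg_left (hα _ _) (norm_nonneg _))

/-- left multiplication by `f δ_h` -/
noncomputable def op (f : Y) (h : G) :
    lp (fun _ : G => Y) 1 →L[ℂ] lp (fun _ : G => Y) 1 :=
  LinearMap.mkContinuous
    { toFun := fun u => ⟨fun k => f * α h (u (h⁻¹ * k)), mem_op α hα f h u⟩
      map_add' := fun u v => by
        ext k
        simp [mul_add]
        rfl
      map_smul' := fun c u => by
        ext k
        simp } ‖f‖ (fun u => by
      rw [norm1, norm1]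
      have h1 : Summable fun k => ‖u (h⁻¹ * k)‖ := (Equiv.mulLeft h⁻¹).summable_iff.2 (summ1 u)
      have h2 : ∑' k, ‖u (h⁻¹ * k)‖ = ∑' k, ‖u k‖ := (Equiv.mulLeft h⁻¹).tsum_eq fun k => ‖u k‖
      rw [← h2, ← tsum_mul_left]
      refine Summable.tsum_le_tsum (fun k => ?_) (mem1.1 (mem_op α hα f h u)) (h1.mul_left _)
      exact (norm_mul_le _ _).trans (mul_le_mul_of_nonneg_left (hα _ _) (norm_nonneg _)))

lemma op_apply (f : Y) (h : G) (u : lp (fun _ : G => Y) 1) (k : G) :
    (op α hα f h u) k = f * α h (u (h⁻¹ * k)) := rfl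

lemma op_norm (f : Y) (h : G) : ‖op α hα f h‖ ≤ ‖f‖ :=
  LinearMap.mkContinuous_norm_le _ (norm_nonneg _) _

lemma op_mul (hmul : ∀ h k y, α (h * k) y = α h (α k y)) (f f' : Y) (h h' : G) :
    op α hα f h * op α hα f' h' = op α hα (f * α h f') (h * h') := by
  ext u k
  show (op α hα f h (op α hα f' h' u)) k = _
  rw [op_apply, op_apply, op_apply, map_mul, ← hmul, mul_assoc, mul_inv_rev, mul_assoc]

lemma op_one (hone : ∀ y, α 1 y = y) : op α hα 1 1 = 1 := by
  ext u k
  rw [op_apply]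
  simp [hone]

lemma op_sub (f f' : Y) (h : G) : op α hα f h - op α hα f' h = op α hα (f - f') h := by
  ext u k
  show (op α hα f h u - op α hα f' h u) k = _
  rw [lp.coeFn_sub, Pi.sub_apply, op_apply, op_apply, op_apply, sub_mul]

/-- the functional `u ↦ ∑ μ_k (u k)` -/
noncomputable def T0 (μ : G → (Y →L[ℂ] ℂ)) (hμ : ∀ k, ‖μ k‖ ≤ 1) :
    lp (fun _ : G => Y) 1 →L[ℂ] ℂ :=
  have hs : ∀ u : lp (fun _ : G => Y) 1, Summable fun k => ‖μ k (u k)‖ := fun u =>
    Summable.of_nonneg_of_le (fun k => norm_nonneg _)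
      (fun k => (μ k).le_of_opNorm_le (hμ k) (u k)) ((summ1 u).mul_left 1)
  LinearMap.mkContinuous
    { toFun := fun u => ∑' k, μ k (u k)
      map_add' := fun u v => by
        rw [← (hs u).of_norm.tsum_add (hs v).of_norm]
        refine tsum_congr fun k => ?_
        rw [lp.coeFn_add, Pi.add_apply, map_add]
      map_smul' := fun c u => by
        simp only [RingHom.id_apply, smul_eq_mul]
        rw [← tsum_mul_left]
        refine tsum_congr fun k => ?_
        rw [lp.coeFn_smul, Pi.smul_apply, map_smul, smul_eq_mul] } 1 (fun u => by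
      rw [norm1, one_mul]
      refine (norm_tsum_le_tsum_norm (hs u)).trans ?_
      exact Summable.tsum_le_tsum (fun k => by simpa using (μ k).le_of_opNorm_le (hμ k) (u k))
        (hs u) (summ1 u))

lemma T0_apply (μ : G → (Y →L[ℂ] ℂ)) (hμ : ∀ k, ‖μ k‖ ≤ 1) (u : lp (fun _ : G => Y) 1) :
    T0 μ hμ u = ∑' k, μ k (u k) := rfl

open Classical in
/-- the unit -/
noncomputable def w0 : lp (fun _ : G => Y) 1 := lp.single 1 (1 : G) (1 : Y)

lemma op_w0 (f : Y) (h k : G) : (op α hα f h (w0 : lp (fun _ : G => Y) 1)) k =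
    (open Classical in if k = h then f else 0) := by
  classical
  rw [op_apply]
  unfold w0
  by_cases hk : k = h
  · subst hk
    rw [if_pos rfl]
    have : ((lp.single 1 (1 : G) (1 : Y) : lp (fun _ : G => Y) 1) : G → Y) (k⁻¹ * k) = 1 := by
      rw [inv_mul_cancel]
      convert lp.single_apply_self (E := fun _ : G => Y) 1 (1 : G) (1 : Y)
    rw [this, map_one, mul_one]
  · rw [if_neg hk]
    have : ((lp.single 1 (1 : G) (1 : Y) : lp (fun _ : G => Y) 1) : G → Y) (h⁻¹ * k) = 0 := by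
      have h1 : h⁻¹ * k ≠ 1 := fun h2 => hk (by
        have := inv_mul_eq_one.1 h2
        exact this.symm)
      convert lp.single_apply_ne (E := fun _ : G => Y) 1 (1 : G) (1 : Y) h1
    rw [this, map_zero, mul_zero]

/-- traces extend to the closure -/
lemma closure_trace {R : Type v} [NormedRing R] [NormedAlgebra ℂ R] (T : R →L[ℂ] ℂ)
    (S₀ : Subalgebra ℂ R) (h0 : ∀ a ∈ S₀, ∀ b ∈ S₀, T (a * b) = T (b * a)) :
    ∃ S : Subalgebra ℂ R, S₀ ≤ S ∧ IsClosed (S : Set R) ∧
      ∀ a ∈ S, ∀ b ∈ S, T (a * b) = T (b * a) := by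
  refine ⟨S₀.topologicalClosure, S₀.le_topologicalClosure, S₀.isClosed_topologicalClosure, ?_⟩
  have h1 : ∀ b ∈ S₀, ∀ a ∈ S₀.topologicalClosure, T (a * b) = T (b * a) := by
    intro b hb a ha
    have hcl : IsClosed {a : R | T (a * b) = T (b * a)} :=
      isClosed_eq (T.continuous.comp (continuous_id.mul continuous_const))
        (T.continuous.comp (continuous_const.mul continuous_id))
    have : (S₀.topologicalClosure : Set R) ⊆ {a : R | T (a * b) = T (b * a)} := by
      rw [Subalgebra.topologicalClosure_coe]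
      exact closure_minimal (fun a ha => h0 a ha b hb) hcl
    exact this ha
  intro a ha b hb
  have hcl : IsClosed {b : R | T (a * b) = T (b * a)} :=
    isClosed_eq (T.continuous.comp (continuous_const.mul continuous_id))
      (T.continuous.comp (continuous_id.mul continuous_const))
  have : (S₀.topologicalClosure : Set R) ⊆ {b : R | T (a * b) = T (b * a)} := by
    rw [Subalgebra.topologicalClosure_coe]
    exact closure_minimal (fun b hb => h1 b hb a ha) hcl
  exact this hb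

end CROSS

open CROSS in
/-- the abstract crossed product with a trace -/
theorem cross (G : Type u) [Group G] (Y : Type u) [NormedRing Y] [NormedAlgebra ℂ Y]
    [CompleteSpace Y] (α : G → (Y →ₐ[ℂ] Y)) (hα : ∀ h y, ‖α h y‖ ≤ ‖y‖)
    (hone : ∀ y, α 1 y = y) (hmul : ∀ h k y, α (h * k) y = α h (α k y))
    (μ : G → (Y →L[ℂ] ℂ)) (hμ : ∀ k, ‖μ k‖ ≤ 1) (Y₀ : Submonoid Y)
    (hY₀ : ∀ h, ∀ y ∈ Y₀, α h y ∈ Y₀)
    (htr : ∀ f ∈ Y₀, ∀ f' ∈ Y₀, ∀ h h', μ (h * h') (f * α h f') = μ (h' * h) (f' * α h' f)) :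
    ∃ (R : Type u) (_ : NormedRing R) (_ : NormedAlgebra ℂ R) (_ : CompleteSpace R)
      (o : Y → G → R) (T : R →L[ℂ] ℂ) (S : Subalgebra ℂ R),
      (∀ f h, ‖o f h‖ ≤ ‖f‖) ∧ (∀ f f' h h', o f h * o f' h' = o (f * α h f') (h * h')) ∧
      o 1 1 = 1 ∧ (∀ f f' h, o f h - o f' h = o (f - f') h) ∧ (∀ f ∈ Y₀, ∀ h, o f h ∈ S) ∧
      IsClosed (S : Set R) ∧ (∀ a ∈ S, ∀ b ∈ S, T (a * b) = T (b * a)) ∧
      ∀ f h, T (o f h) = μ h f := by
  classical
  let R := lp (fun _ : G => Y) 1 →L[ℂ] lp (fun _ : G => Y) 1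
  let T : R →L[ℂ] ℂ := (T0 μ hμ).comp (ContinuousLinearMap.apply ℂ _ w0)
  have hT : ∀ f h, T (op α hα f h) = μ h f := by
    intro f h
    show T0 μ hμ (op α hα f h w0) = μ h f
    rw [T0_apply, tsum_eq_single h]
    · rw [op_w0, if_pos rfl]
    · intro k hk
      rw [op_w0, if_neg hk, map_zero]
  let M : Submonoid R :=
    { carrier := {a | ∃ f ∈ Y₀, ∃ h, a = op α hα f h}
      mul_mem' := by
        rintro a b ⟨f, hf, h, rfl⟩ ⟨f', hf', h', rfl⟩
        exact ⟨f * α h f', Y₀.mul_mem hf (hY₀ h f' hf'), h * h', op_mul α hα hmul f f' h h'⟩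
      one_mem' := ⟨1, Y₀.one_mem, 1, (op_one α hα hone).symm⟩ }
  let S₀ : Subalgebra ℂ R := Algebra.adjoin ℂ (M : Set R)
  have hspan : ∀ a ∈ S₀, a ∈ Submodule.span ℂ (M : Set R) := by
    intro a ha
    have h1 := Algebra.adjoin_eq_span ℂ (M : Set R)
    rw [Submonoid.closure_eq] at h1
    rw [← h1]
    exact ha
  have htr0 : ∀ a ∈ S₀, ∀ b ∈ S₀, T (a * b) = T (b * a) := by
    intro a ha b hb
    replace ha := hspan a ha
    replace hb := hspan b hb
    induction ha using Submodule.span_induction with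
    | mem x hx =>
      obtain ⟨f, hf, h, rfl⟩ := hx
      induction hb using Submodule.span_induction with
      | mem y hy =>
        obtain ⟨f', hf', h', rfl⟩ := hy
        rw [op_mul α hα hmul, op_mul α hα hmul, hT, hT]
        exact htr f hf f' hf' h h'
      | zero => simp
      | add y z _ _ hy hz => rw [mul_add, add_mul, map_add, map_add, hy, hz]
      | smul c y _ hy => rw [mul_smul_comm, smul_mul_assoc, map_smul, map_smul, hy]
    | zero => simp
    | add y z _ _ hy hz => rw [mul_add, add_mul, map_add, map_add, hy, hz]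
    | smul c y _ hy => rw [mul_smul_comm, smul_mul_assoc, map_smul, map_smul, hy]
  obtain ⟨S, hS₀, hcl, htrS⟩ := closure_trace (R := R) T S₀ htr0
  refine ⟨R, inferInstance, inferInstance, inferInstance, op α hα, T, S,
    op_norm α hα, fun f f' h h' => op_mul α hα hmul f f' h h', op_one α hα hone,
    fun f f' h => op_sub α hα f f' h, ?_, hcl, htrS, hT⟩
  intro f hf h
  exact hS₀ (Algebra.subset_adjoin ⟨f, hf, h, rfl⟩)

end Vale.Agent.P184
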