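import Mathlib

/-!
# P184 (partial): vanishing of the `ℓ¹` Hattori-Stallings trace at undistorted elements with
amenable centralizer. Definitions and module statements.
-/

namespace Vale.Agent.P184

open scoped ENNReal

universe u

/-! ## The statement -/

/-- `e` is an idempotent `q × q` matrix over the convolution algebra `ℓ¹(G)`. -/
structure IsIdem {G : Type u} [Group G] {q : ℕ} (e : Fin q → Fin q → G → ℂ) : Prop where
  summable : ∀ i j, Summable fun h => ‖e i j h‖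
  idem : ∀ i j g, ∑ k, ∑' h, e i k h * e k j (h⁻¹ * g) = e i j g

open Classical in
/-- the coefficient of the Hattori-Stallings trace at the conjugacy class of `g` -/
noncomputable def tau {G : Type u} [Group G] {q : ℕ} (e : Fin q → Fin q → G → ℂ) (g : G) : ℂ :=
  ∑' x : G, if IsConj g x then ∑ i, e i i x else 0

/-- `m` is a mean on the bounded functions on `X` (its values at unbounded functions play no role) -/
structure IsMean {X : Type u} (m : (X → ℂ) → ℂ) : Prop where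
  add : ∀ f f' : X → ℂ, (∃ C : ℝ, ∀ x, ‖f x‖ ≤ C) → (∃ C : ℝ, ∀ x, ‖f' x‖ ≤ C) →
    m (fun x => f x + f' x) = m f + m f'
  smul : ∀ (c : ℂ) (f : X → ℂ), (∃ C : ℝ, ∀ x, ‖f x‖ ≤ C) → m (fun x => c * f x) = c * m f
  bound : ∀ (f : X → ℂ) (C : ℝ), (∀ x, ‖f x‖ ≤ C) → ‖m f‖ ≤ C
  one : m (fun _ => 1) = 1

/-- amenability of a discrete group: a left invariant mean -/
def Amen (Z : Type u) [Group Z] : Prop :=
  ∃ m : (Z → ℂ) → ℂ, IsMean m ∧ ∀ (z : Z) (f : Z → ℂ), (∃ C : ℝ, ∀ x, ‖f x‖ ≤ C) →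
    m (fun y => f (z * y)) = m f

/-- FINAL -/
def S_FINAL : Prop := ∀ (G : Type u) [Group G] (ℓ : G → ℝ), (∀ x y, ℓ (x * y) ≤ ℓ x + ℓ y) →
  (∀ x, ℓ x⁻¹ = ℓ x) → ∀ (g : G) (c : ℝ), 0 < c → (∀ n : ℕ, c * n ≤ ℓ (g ^ n)) →
  Amen (Subgroup.centralizer {g}) → ∀ (q : ℕ) (e : Fin q → Fin q → G → ℂ), IsIdem e → tau e g = 0

/-! ## Modules -/

/-- PHI: a function with `φ(x g) = φ(x) + 1` and bounded left differences.
`φ x = ⨅ n : ℤ, c⁻¹ * ℓ (g ^ n * x⁻¹) + n`. -/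
def S_PHI : Prop := ∀ (G : Type u) [Group G] (ℓ : G → ℝ), (∀ x y, ℓ (x * y) ≤ ℓ x + ℓ y) →
  (∀ x, ℓ x⁻¹ = ℓ x) → ∀ (g : G) (c : ℝ), 0 < c → (∀ n : ℕ, c * n ≤ ℓ (g ^ n)) →
  ∃ φ : G → ℝ, (∀ x, φ (x * g) = φ x + 1) ∧ ∀ h, ∃ C : ℝ, ∀ x, |φ (h * x) - φ x| ≤ C

/-- MEANF: the family of means, `μ h f = m (z ↦ f (x_h * z))` with `x_h g x_h⁻¹ = h`. -/
def S_MEANF : Prop := ∀ (G : Type u) [Group G] (g : G), Amen (Subgroup.centralizer {g}) →
  ∃ μ : G → (G → ℂ) → ℂ, (∀ h, IsConj g h → IsMean (μ h)) ∧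
  (∀ h k f, IsConj g h → (∃ C : ℝ, ∀ x, ‖f x‖ ≤ C) →
    μ (k * h * k⁻¹) f = μ h (fun x => f (k * x))) ∧
  (∀ h f f', IsConj g h → (∀ x, x * g * x⁻¹ = h → f x = f' x) → μ h f = μ h f')

/-- CONSTR (from MEANF): a path of bounded homomorphisms into a Banach algebra with a trace.
`π t h = exp(i t (φ(x) - φ(h⁻¹ x))) δ_h` in the crossed product `ℓ¹(G; ℓ^∞(G))`, trace
`T a = ∑_{h ∈ C} μ_h (a h)`, `S` = closure of the algebra generated by the `f δ_h` with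
`f (x g) = f x`. -/
def S_CONSTR : Prop := ∀ (G : Type u) [Group G] (g : G) (φ : G → ℝ), (∀ x, φ (x * g) = φ x + 1) →
  (∀ h, ∃ C : ℝ, ∀ x, |φ (h * x) - φ x| ≤ C) → Amen (Subgroup.centralizer {g}) →
  ∃ (R : Type u) (_ : NormedRing R) (_ : NormedAlgebra ℂ R) (_ : CompleteSpace R)
    (π : ℝ → G →* R) (T : R →L[ℂ] ℂ) (S : Subalgebra ℂ R),
    (∀ t h, ‖π t h‖ ≤ 1) ∧ (∀ h, Continuous fun t => π t h) ∧ (∀ t h, π t h ∈ S) ∧
    IsClosed (S : Set R) ∧ (∀ a ∈ S, ∀ b ∈ S, T (a * b) = T (b * a)) ∧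
    ∀ t h, T (π t h) = (open Classical in
      if IsConj g h then Complex.exp (Complex.I * t) else 0)

/-- RING: close idempotents have the same trace: `T (p - r) = T ((p - r) ^ (2 n + 1))`. -/
def S_RING : Prop := ∀ (R : Type u) [NormedRing R] [NormedAlgebra ℂ R] (T : R →L[ℂ] ℂ)
  (S : Subalgebra ℂ R), (∀ a ∈ S, ∀ b ∈ S, T (a * b) = T (b * a)) →
  ∀ p ∈ S, ∀ r ∈ S, p * p = p → r * r = r → ‖p - r‖ < 1 → T p = T r

/-- IDEM: the image of an idempotent matrix under a bounded homomorphism. -/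
def S_IDEM : Prop := ∀ (G : Type u) [Group G] (q : ℕ) (e : Fin q → Fin q → G → ℂ), IsIdem e →
  ∀ (R : Type u) [NormedRing R] [NormedAlgebra ℂ R] [CompleteSpace R] (π : G →* R),
  (∀ h, ‖π h‖ ≤ 1) → ∀ i j,
  ∑ k, (∑' h, e i k h • π h) * (∑' h, e k j h • π h) = ∑' h, e i j h • π h

/-- MAIN (from RING, IDEM): the conclusion from the path of homomorphisms; ring of matrices over
`R` (`Matrix.linftyOpNormedRing`), trace `∑ i, T (a i i)`. -/
def S_MAIN : Prop := ∀ (G : Type u) [Group G] (g : G) (R : Type u) [NormedRing R]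
  [NormedAlgebra ℂ R] [CompleteSpace R] (π : ℝ → G →* R) (T : R →L[ℂ] ℂ) (S : Subalgebra ℂ R),
  (∀ t h, ‖π t h‖ ≤ 1) → (∀ h, Continuous fun t => π t h) → (∀ t h, π t h ∈ S) →
  IsClosed (S : Set R) → (∀ a ∈ S, ∀ b ∈ S, T (a * b) = T (b * a)) →
  (∀ t h, T (π t h) = (open Classical in
      if IsConj g h then Complex.exp (Complex.I * t) else 0)) →
  ∀ (q : ℕ) (e : Fin q → Fin q → G → ℂ), IsIdem e → tau e g = 0

end Vale.Agent.P184
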