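import Vale.Agent.P184.GDefs

/-!
# P184: module EIG
An operator of infinite order in characteristic `p` has, after base change to the algebraic
closure, an eigenvalue which is not a root of unity.
-/

namespace Vale.Agent.P184

universe v w

namespace EigAux

open Polynomial

/-- Common exponent for a multiset of roots of unity. -/
theorem exists_common {L : Type v} [Field L] (s : Multiset L)
    (h : ∀ x ∈ s, ∃ n : ℕ, 0 < n ∧ x ^ n = 1) :
    ∃ N : ℕ, 0 < N ∧ ∀ x ∈ s, x ^ N = 1 := by
  induction s using Multiset.induction_on with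
  | empty => exact ⟨1, one_pos, by simp⟩
  | cons a s ih =>
    obtain ⟨N, hN, hs⟩ := ih (fun x hx => h x (Multiset.mem_cons_of_mem hx))
    obtain ⟨n, hn, ha⟩ := h a (Multiset.mem_cons_self a s)
    refine ⟨n * N, Nat.mul_pos hn hN, fun x hx => ?_⟩
    rcases Multiset.mem_cons.1 hx with rfl | hx
    · rw [pow_mul, ha, one_pow]
    · rw [mul_comm, pow_mul, hs x hx, one_pow]

/-- A product of linear factors at `N`-th roots of unity divides a power of `X ^ N - 1`. -/
theorem prod_dvd {L : Type v} [Field L] (N : ℕ) (s : Multiset L) (h : ∀ x ∈ s, x ^ N = 1) :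
    (s.map (fun a => X - C a)).prod ∣ (X ^ N - 1 : L[X]) ^ s.card := by
  induction s using Multiset.induction_on with
  | empty => simp
  | cons a s ih =>
    rw [Multiset.map_cons, Multiset.prod_cons, Multiset.card_cons, pow_succ']
    refine mul_dvd_mul ?_ (ih (fun x hx => h x (Multiset.mem_cons_of_mem hx)))
    rw [dvd_iff_isRoot]
    simp [IsRoot, h a (Multiset.mem_cons_self a s)]

/-- A monic polynomial over an algebraically closed field of characteristic `p` all of whose roots
are roots of unity divides some `X ^ M - 1`. -/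
theorem dvd_of_roots {L : Type v} [Field L] [IsAlgClosed L] (p : ℕ) [CharP L p] [Fact p.Prime]
    (P : L[X]) (hP : P.Monic) (h : ∀ x ∈ P.roots, ∃ n : ℕ, 0 < n ∧ x ^ n = 1) :
    ∃ M : ℕ, 0 < M ∧ P ∣ X ^ M - 1 := by
  obtain ⟨N, hN, hroots⟩ := exists_common _ h
  have hdvd := prod_dvd N _ hroots
  rw [← (IsAlgClosed.splits P).eq_prod_roots_of_monic hP] at hdvd
  have hp : p.Prime := Fact.out
  refine ⟨N * p ^ P.roots.card, Nat.mul_pos hN (pow_pos hp.pos _), hdvd.trans ?_⟩
  have h1 : (X ^ N - 1 : L[X]) ^ p ^ P.roots.card = X ^ (N * p ^ P.roots.card) - 1 := by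
    rw [sub_pow_char_pow, one_pow, ← pow_mul]
  rw [← h1]
  exact pow_dvd_pow _ (Nat.lt_pow_self hp.one_lt).le

/-- An invertible operator has no eigenvalue zero. -/
theorem ne_zero_of_inv {L : Type v} [Field L] {W : Type w} [AddCommGroup W] [Module L W]
    (B B' : Module.End L W) (h : B' * B = 1) (x : L) (hx : B.HasEigenvalue x) : x ≠ 0 := by
  rintro rfl
  obtain ⟨v, hv⟩ := hx.exists_hasEigenvector
  have h0 : B v = 0 := by simpa using hv.apply_eq_smul
  have h1 : (B' * B) v = 0 := by rw [Module.End.mul_apply, h0, map_zero]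
  rw [h] at h1
  exact hv.2 (by simpa using h1)

end EigAux

open Polynomial in
theorem eig : S_EIG.{v, w} := by
  intro p K _ _ hp V _ _ _ A A' hA hinf
  by_contra hcon
  push Not at hcon
  have : Fact p.Prime := ⟨hp⟩
  have hchar : (A.baseChange (AlgebraicClosure K)).charpoly
      = A.charpoly.map (algebraMap K (AlgebraicClosure K)) :=
    LinearMap.charpoly_baseChange A (AlgebraicClosure K)
  have h3 : A' * A = 1 := mul_eq_one_comm.1 hA
  have h4 : (A'.baseChange (AlgebraicClosure K)) * (A.baseChange (AlgebraicClosure K)) = 1 := by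
    rw [← LinearMap.baseChange_mul, h3, LinearMap.baseChange_one]
  have hroot : ∀ x ∈ (A.charpoly.map (algebraMap K (AlgebraicClosure K))).roots,
      ∃ n : ℕ, 0 < n ∧ x ^ n = 1 := by
    intro x hx
    rw [← hchar] at hx
    have hev : Module.End.HasEigenvalue (A.baseChange (AlgebraicClosure K)) x :=
      (Module.End.hasEigenvalue_iff_isRoot_charpoly _ x).2 (isRoot_of_mem_roots hx)
    have hx0 : x ≠ 0 := EigAux.ne_zero_of_inv _ _ h4 x hev
    by_contra hno
    push Not at hno
    exact hcon x hx0 hno hev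
  obtain ⟨M, hM, hd2⟩ := EigAux.dvd_of_roots p _ (A.charpoly_monic.map _) hroot
  have hd3 : A.charpoly ∣ (X ^ M - 1 : K[X]) := by
    rw [← map_dvd_map' (algebraMap K (AlgebraicClosure K))]
    simpa using hd2
  obtain ⟨q, hq⟩ := hd3
  have hae : aeval A (X ^ M - 1 : K[X]) = 0 := by
    rw [hq, map_mul, LinearMap.aeval_self_charpoly, zero_mul]
  rw [map_sub, map_pow, aeval_X, map_one, sub_eq_zero] at hae
  exact hinf _ hM hae

end Vale.Agent.P184
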