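import Vale.Agent.P184.GDefs2

/-!
P184, EMB.
-/

namespace Vale.Agent.P184

open Cardinal in
theorem emb : S_EMB := by
  intro F _ _ Ω _ _ i j hΩ
  letI : Algebra F ℂ := i.toAlgebra
  letI : Algebra F Ω := j.toAlgebra
  haveI : FaithfulSMul F ℂ := (faithfulSMul_iff_algebraMap_injective F ℂ).2 i.injective
  haveI : FaithfulSMul F Ω := (faithfulSMul_iff_algebraMap_injective F Ω).2 j.injective
  obtain ⟨s, hs⟩ := exists_isTranscendenceBasis F ℂ
  obtain ⟨t, ht⟩ := exists_isTranscendenceBasis F Ω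
  have h1 : #Ω = #t := IsAlgClosed.cardinal_eq_cardinal_transcendence_basis_of_aleph0_lt' _ ht
    (Cardinal.mk_le_aleph0) (aleph0_lt_continuum.trans_le hΩ)
  have h2 : #s ≤ #t := by
    rw [← h1]
    calc #s ≤ #ℂ := Cardinal.mk_set_le s
      _ = 𝔠 := Cardinal.mk_complex
      _ ≤ #Ω := hΩ
  obtain ⟨e⟩ := h2
  have hw : AlgebraicIndependent F (((↑) : t → Ω) ∘ e) := ht.1.comp e e.injective
  let A := Algebra.adjoin F (Set.range ((↑) : s → ℂ))
  let φ : A →ₐ[F] Ω := (MvPolynomial.aeval (((↑) : t → Ω) ∘ e)).comp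
    (hs.1.aevalEquiv.symm : A →ₐ[F] MvPolynomial s F)
  have hφ : Function.Injective φ := by
    have h3 : Function.Injective (MvPolynomial.aeval (R := F) (((↑) : t → Ω) ∘ e)) :=
      algebraicIndependent_iff_injective_aeval.1 hw
    exact h3.comp hs.1.aevalEquiv.symm.injective
  letI : Algebra A Ω := φ.toRingHom.toAlgebra
  haveI : Algebra.IsAlgebraic A ℂ := hs.isAlgebraic
  haveI : FaithfulSMul A Ω := (faithfulSMul_iff_algebraMap_injective A Ω).2 hφ
  let σ : ℂ →ₐ[A] Ω := IsAlgClosed.lift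
  refine ⟨σ.toRingHom, fun x => ?_⟩
  have h4 : i x = algebraMap A ℂ (algebraMap F A x) := rfl
  rw [h4]
  have h5 : σ (algebraMap A ℂ (algebraMap F A x)) = algebraMap A Ω (algebraMap F A x) :=
    σ.commutes _
  have h6 : algebraMap A Ω (algebraMap F A x) = φ (algebraMap F A x) := rfl
  have h7 : φ (algebraMap F A x) = j x := φ.commutes x
  exact h5.trans (h6.trans h7)

end Vale.Agent.P184
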