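import Vale.Agent.P184.GDefs

set_option autoImplicit false

namespace Vale.Agent.P184

universe u v w

namespace ExtX

theorem aux (F : Type v) [Field F] (K : Type v) [Field K] [Algebra F K]
    [Algebra.IsAlgebraic F K] (C : Type v) [NontriviallyNormedField C] [CompleteSpace C]
    [IsUltrametricDist C] (i : F →+* C) :
    ∃ f' : AbsoluteValue K ℝ, ∀ x : F, f' (algebraMap F K x) = ‖i x‖ := by
  letI : Algebra F (AlgebraicClosure C) := ((algebraMap C (AlgebraicClosure C)).comp i).toAlgebra
  let φ : K →ₐ[F] AlgebraicClosure C := IsAlgClosed.lift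
  let g : MulAlgebraNorm C (AlgebraicClosure C) := spectralMulAlgNorm C (AlgebraicClosure C)
  refine ⟨{ toFun := fun x => g (φ x), map_mul' := ?_, nonneg' := ?_, eq_zero' := ?_,
            add_le' := ?_ }, ?_⟩
  · intro x y
    simp only [map_mul]
  · intro x
    exact apply_nonneg g _
  · intro x
    constructor
    · intro h
      have h1 : φ x = 0 := (map_eq_zero_iff_eq_zero g).1 h
      exact (map_eq_zero φ).1 h1
    · intro h
      simp only [h, map_zero]
  · intro x y
    simp only [map_add]
    exact map_add_le_add g _ _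
  · intro x
    change g (φ (algebraMap F K x)) = _
    rw [AlgHom.commutes]
    change spectralNorm C (AlgebraicClosure C) (algebraMap C (AlgebraicClosure C) (i x)) = _
    exact spectralNorm_extends _

end ExtX

theorem ext : S_EXT.{v} := by
  intro F _ K _ _ _ f hf hnt
  have hn : ∀ x : F, ‖((WithAbs.toAbs f x : WithAbs f) : f.Completion)‖ = f x := by
    intro x
    rw [UniformSpace.Completion.norm_coe]
    rfl
  let i : F →+* f.Completion :=
    (UniformSpace.Completion.coeRingHom (α := WithAbs f)).comp
      (WithAbs.equiv f).symm.toRingHom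
  have hi : ∀ x : F, ‖i x‖ = f x := fun x => hn x
  obtain ⟨x, hx0, hx1⟩ := hnt
  letI : NontriviallyNormedField f.Completion :=
    { (inferInstance : NormedField f.Completion) with
      non_trivial := by
        rcases lt_or_gt_of_ne hx1 with h | h
        · refine ⟨i x⁻¹, ?_⟩
          have h1 : ‖i x⁻¹‖ = f x⁻¹ := hi x⁻¹
          have h2 : f x⁻¹ = (f x)⁻¹ := map_inv₀ f x
          have h3 : 0 < f x := f.pos hx0
          change 1 < ‖i x⁻¹‖
          rw [h1, h2]
          exact (one_lt_inv₀ h3).2 h
        · refine ⟨i x, ?_⟩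
          change 1 < ‖i x‖
          rw [hi]
          exact h }
  haveI : IsUltrametricDist f.Completion := by
    apply IsUltrametricDist.isUltrametricDist_of_forall_norm_natCast_le_one
    intro n
    have h1 : (n : f.Completion) = i (n : F) := by rw [map_natCast]
    rw [h1]
    have h2 : ‖i (n : F)‖ = f n := hi n
    have h3 : f (n : F) ≤ 1 := hf.apply_natCast_le_one
    exact h2.le.trans h3
  obtain ⟨f', hf'⟩ := ExtX.aux F K f.Completion i
  exact ⟨f', fun x => (hf' x).trans (hi x)⟩

end Vale.Agent.P184
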