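import Vale.Agent.P184.Cplx

/-!
P184, OMEGA: the algebraic closure of the completion (adapted from `Ext.lean`).
-/

namespace Vale.Agent.P184

namespace OmegaX

theorem aux (C : Type) [NontriviallyNormedField C] [CompleteSpace C] [IsUltrametricDist C] :
    ∃ f' : AbsoluteValue (AlgebraicClosure C) ℝ,
      ∀ x : C, f' (algebraMap C (AlgebraicClosure C) x) = ‖x‖ := by
  let g : MulAlgebraNorm C (AlgebraicClosure C) := spectralMulAlgNorm C (AlgebraicClosure C)
  refine ⟨{ toFun := fun x => g x, map_mul' := ?_, nonneg' := ?_, eq_zero' := ?_,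
            add_le' := ?_ }, ?_⟩
  · intro x y
    exact map_mul g x y
  · intro x
    exact apply_nonneg g _
  · intro x
    exact map_eq_zero_iff_eq_zero g
  · intro x y
    exact map_add_le_add g _ _
  · intro x
    change spectralNorm C (AlgebraicClosure C) (algebraMap C (AlgebraicClosure C) x) = _
    exact spectralNorm_extends _

end OmegaX

theorem omega_ : S_OMEGA := by
  intro F _ f hf hnt
  have hn : ∀ x : F, ‖((WithAbs.toAbs f x : WithAbs f) : f.Completion)‖ = f x := by
    intro x
    rw [UniformSpace.Completion.norm_coe]
    rfl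
  let i : F →+* f.Completion :=
    (UniformSpace.Completion.coeRingHom (α := WithAbs f)).comp
      (WithAbs.equiv f).symm.toRingHom
  have hi : ∀ x : F, ‖i x‖ = f x := fun x => hn x
  obtain ⟨x, hx0, hx1⟩ := hnt
  let _ : NontriviallyNormedField f.Completion :=
    { (inferInstance : NormedField f.Completion) with
      non_trivial := by
        rcases lt_or_gt_of_ne hx1 with h | h
        · refine ⟨i x⁻¹, ?_⟩
          have h1 : ‖i x⁻¹‖ = f x⁻¹ := hi x⁻¹
          have h2 : f x⁻¹ = (f x)⁻¹ := map_inv₀ f x
          have h3 : 0 < f x := f.pos hx0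
          change 1 < ‖i x⁻¹‖
          rw [h1, h2]
          exact (one_lt_inv₀ h3).2 h
        · refine ⟨i x, ?_⟩
          change 1 < ‖i x‖
          rw [hi]
          exact h }
  have : IsUltrametricDist f.Completion := by
    apply IsUltrametricDist.isUltrametricDist_of_forall_norm_natCast_le_one
    intro n
    have h1 : (n : f.Completion) = i (n : F) := by rw [map_natCast]
    rw [h1]
    have h2 : ‖i (n : F)‖ = f n := hi n
    have h3 : f (n : F) ≤ 1 := hf.apply_natCast_le_one
    exact h2.le.trans h3
  obtain ⟨f', hf'⟩ := OmegaX.aux f.Completion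
  refine ⟨AlgebraicClosure f.Completion, inferInstance, inferInstance,
    (algebraMap f.Completion (AlgebraicClosure f.Completion)).comp i, f',
    fun x => (hf' (i x)).trans (hi x), ?_⟩
  have h1 : Cardinal.continuum ≤ Cardinal.mk f.Completion :=
    continuum_le_cardinal_of_nontriviallyNormedField f.Completion
  exact h1.trans (Cardinal.mk_le_of_injective
    (algebraMap f.Completion (AlgebraicClosure f.Completion)).injective)

end Vale.Agent.P184
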