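import Vale.Agent.P184.GDefs

/-!
P184, ROOT.
-/

namespace Vale.Agent.P184

universe v

open IntermediateField in
theorem root : S_ROOT.{v} := by
  intro p K _ _ hp lam hlam0 hroot
  have : Fact p.Prime := ⟨hp⟩
  let _ : Algebra (ZMod p) K := ZMod.algebra K p
  refine ⟨(algebraMap (ZMod p) K).fieldRange, ?_⟩
  intro halg
  have hfin : Finite (algebraMap (ZMod p) K).fieldRange := by
    have h1 : (Set.range (algebraMap (ZMod p) K)).Finite := Set.finite_range _
    exact h1.to_subtype
  have hint : IsIntegral (algebraMap (ZMod p) K).fieldRange lam := halg.isIntegral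
  have hfd : FiniteDimensional (algebraMap (ZMod p) K).fieldRange
      ((algebraMap (ZMod p) K).fieldRange)⟮lam⟯ := IntermediateField.adjoin.finiteDimensional hint
  have hfin2 : Finite ((algebraMap (ZMod p) K).fieldRange)⟮lam⟯ :=
    Module.finite_of_finite (algebraMap (ZMod p) K).fieldRange
  let x : ((algebraMap (ZMod p) K).fieldRange)⟮lam⟯ := ⟨lam, mem_adjoin_simple_self _ lam⟩
  have hx : x ≠ 0 := fun h => hlam0 (congrArg Subtype.val h)
  have h2 : IsOfFinOrder (Units.mk0 x hx) := isOfFinOrder_of_finite _
  obtain ⟨n, hn, hxn⟩ := isOfFinOrder_iff_pow_eq_one.1 h2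
  apply hroot n hn
  have h3 : x ^ n = 1 := by
    have := congrArg Units.val hxn
    simpa using this
  exact congrArg Subtype.val h3

end Vale.Agent.P184
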