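import Vale.Agent.P184.GDefs

/-! P184 TDEG: the total degree absolute value. -/

namespace Vale.Agent.P184

universe v

namespace TdegX

open MvPolynomial

/-- `2 ^ totalDegree` -/
noncomputable def g {k : Type v} [Field k] {T : Type v} (P : MvPolynomial T k) : ℝ :=
  open scoped Classical in if P = 0 then 0 else 2 ^ P.totalDegree

variable {k : Type v} [Field k] {T : Type v}

theorem g_nonneg (P : MvPolynomial T k) : 0 ≤ g P := by
  unfold g
  split_ifs
  · exact le_rfl
  · positivity

theorem g_eq_zero (P : MvPolynomial T k) : g P = 0 ↔ P = 0 := by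
  unfold g
  split_ifs with h
  · simp [h]
  · simp [h]

theorem g_mul (P Q : MvPolynomial T k) : g (P * Q) = g P * g Q := by
  by_cases hP : P = 0
  · subst hP; rw [zero_mul, (g_eq_zero _).2 rfl, zero_mul]
  by_cases hQ : Q = 0
  · subst hQ; rw [mul_zero, (g_eq_zero _).2 rfl, mul_zero]
  unfold g
  rw [if_neg hP, if_neg hQ, if_neg (mul_ne_zero hP hQ), totalDegree_mul_of_isDomain hP hQ, pow_add]

theorem g_add (P Q : MvPolynomial T k) : g (P + Q) ≤ max (g P) (g Q) := by
  by_cases hP : P = 0
  · subst hP; rw [zero_add]; exact le_max_right _ _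
  by_cases hQ : Q = 0
  · subst hQ; rw [add_zero]; exact le_max_left _ _
  by_cases hPQ : P + Q = 0
  · rw [hPQ, (g_eq_zero _).2 rfl]
    exact le_max_of_le_left (g_nonneg _)
  unfold g
  rw [if_neg hP, if_neg hQ, if_neg hPQ]
  rcases le_max_iff.1 (totalDegree_add P Q) with h | h
  · exact le_max_of_le_left (pow_le_pow_right₀ one_le_two h)
  · exact le_max_of_le_right (pow_le_pow_right₀ one_le_two h)

theorem g_one : g (1 : MvPolynomial T k) = 1 := by
  unfold g
  rw [if_neg one_ne_zero, totalDegree_one, pow_zero]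

theorem g_X (t : T) : g (X t : MvPolynomial T k) = 2 := by
  unfold g
  rw [if_neg (X_ne_zero t), totalDegree_X, pow_one]

abbrev K (T k : Type v) [Field k] := FractionRing (MvPolynomial T k)

theorem rep (x : K T k) : ∃ a b : MvPolynomial T k, b ≠ 0 ∧
    algebraMap (MvPolynomial T k) (K T k) a / algebraMap (MvPolynomial T k) (K T k) b = x := by
  obtain ⟨a, b, hb, h⟩ := IsFractionRing.div_surjective (A := MvPolynomial T k) x
  exact ⟨a, b, nonZeroDivisors.ne_zero hb, h⟩

/-- the extension -/
noncomputable def F (x : K T k) : ℝ := g (rep x).choose / g (rep x).choose_spec.choose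

theorem am_ne {b : MvPolynomial T k} (hb : b ≠ 0) :
    algebraMap (MvPolynomial T k) (K T k) b ≠ 0 := by
  intro h
  exact hb ((IsFractionRing.injective (MvPolynomial T k) (K T k)) (by rw [h, map_zero]))

theorem F_eq {x : K T k} {a b : MvPolynomial T k} (hb : b ≠ 0)
    (h : algebraMap (MvPolynomial T k) (K T k) a / algebraMap (MvPolynomial T k) (K T k) b = x) :
    F x = g a / g b := by
  unfold F
  have h1 := (rep x).choose_spec.choose_spec
  set a' := (rep x).choose
  set b' := (rep x).choose_spec.choose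
  obtain ⟨hb', h'⟩ := h1
  have h2 : algebraMap (MvPolynomial T k) (K T k) (a' * b) =
      algebraMap (MvPolynomial T k) (K T k) (a * b') := by
    rw [map_mul, map_mul]
    have h'' := h'.trans h.symm
    rw [div_eq_div_iff (am_ne hb') (am_ne hb)] at h''
    exact h''
  have h3 := IsFractionRing.injective (MvPolynomial T k) (K T k) h2
  have h4 : g a' * g b = g a * g b' := by rw [← g_mul, ← g_mul, h3]
  have h5 : g b ≠ 0 := fun h => hb ((g_eq_zero _).1 h)
  have h6 : g b' ≠ 0 := fun h => hb' ((g_eq_zero _).1 h)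
  rw [div_eq_div_iff h6 h5]
  exact h4

theorem F_nonneg (x : K T k) : 0 ≤ F x := div_nonneg (g_nonneg _) (g_nonneg _)

theorem F_mul (x y : K T k) : F (x * y) = F x * F y := by
  obtain ⟨a, b, hb, h⟩ := rep x
  obtain ⟨a', b', hb', h'⟩ := rep y
  rw [F_eq hb h, F_eq hb' h', F_eq (mul_ne_zero hb hb') (a := a * a')]
  · rw [g_mul, g_mul, div_mul_div_comm]
  · rw [map_mul, map_mul, ← h, ← h', div_mul_div_comm]

theorem F_add (x y : K T k) : F (x + y) ≤ max (F x) (F y) := by
  obtain ⟨a, b, hb, h⟩ := rep x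
  obtain ⟨a', b', hb', h'⟩ := rep y
  have h5 : 0 < g b := lt_of_le_of_ne (g_nonneg _) fun h => hb ((g_eq_zero _).1 h.symm)
  have h6 : 0 < g b' := lt_of_le_of_ne (g_nonneg _) fun h => hb' ((g_eq_zero _).1 h.symm)
  rw [F_eq hb h, F_eq hb' h', F_eq (mul_ne_zero hb hb') (a := a * b' + b * a')]
  · rw [g_mul b b', div_le_iff₀ (mul_pos h5 h6)]
    refine (g_add _ _).trans ?_
    rw [g_mul, g_mul]
    refine max_le ?_ ?_
    · calc g a * g b' = g a / g b * (g b * g b') := by field_simp
        _ ≤ _ := mul_le_mul_of_nonneg_right (le_max_left _ _) (mul_pos h5 h6).le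
    · calc g b * g a' = g a' / g b' * (g b * g b') := by field_simp
        _ ≤ _ := mul_le_mul_of_nonneg_right (le_max_right _ _) (mul_pos h5 h6).le
  · rw [map_add, map_mul, map_mul, map_mul, ← h, ← h', div_add_div _ _ (am_ne hb) (am_ne hb')]

theorem F_eq_zero (x : K T k) : F x = 0 ↔ x = 0 := by
  obtain ⟨a, b, hb, h⟩ := rep x
  have h5 : g b ≠ 0 := fun h => hb ((g_eq_zero _).1 h)
  rw [F_eq hb h, div_eq_zero_iff, g_eq_zero, ← h, div_eq_zero_iff]
  constructor
  · rintro (h1 | h1)
    · left; rw [h1, map_zero]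
    · exact absurd h1 h5
  · rintro (h1 | h1)
    · left
      exact (IsFractionRing.injective (MvPolynomial T k) (K T k)) (by rw [h1, map_zero])
    · exact absurd h1 (am_ne hb)

end TdegX

open TdegX in
theorem tdeg : S_TDEG.{v} := by
  intro k _ T t
  refine ⟨⟨⟨F, F_mul⟩, F_nonneg, F_eq_zero, fun x y => (F_add x y).trans ?_⟩,
    fun x y => F_add x y, ?_⟩
  · exact max_le_add_of_nonneg (F_nonneg x) (F_nonneg y)
  · change F _ = 2
    rw [F_eq (a := MvPolynomial.X t) (b := 1) one_ne_zero (by rw [map_one, div_one]), g_X, g_one,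
      div_one]

end Vale.Agent.P184
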