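import Vale.Agent.P184.GDefs

/-!
P184, TRANS.
-/

namespace Vale.Agent.P184

universe v

theorem trans_ (hext : S_EXT.{v}) (htdeg : S_TDEG.{v}) : S_TRANS.{v} := by
  intro K _ k lam hlam
  classical
  have hind : AlgebraicIndepOn k id ({lam} : Set K) :=
    (algebraicIndependent_unique_type_iff (ι := ({lam} : Set K))).2 hlam
  obtain ⟨T, hT, hbasis⟩ := exists_isTranscendenceBasis_superset hind
  have hx : AlgebraicIndependent k ((↑) : T → K) := hbasis.1
  obtain ⟨f, hna, hf⟩ := htdeg k T ⟨lam, hT rfl⟩
  have hφ : Function.Injective (MvPolynomial.aeval (R := k) ((↑) : T → K)).toRingHom :=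
    (algebraicIndependent_iff_injective_aeval).1 hx
  let ψ : FractionRing (MvPolynomial T k) →+* K :=
    IsFractionRing.lift (g := (MvPolynomial.aeval (R := k) ((↑) : T → K)).toRingHom) hφ
  have hψ : ∀ P : MvPolynomial T k, ψ (algebraMap _ _ P) =
      MvPolynomial.aeval (R := k) ((↑) : T → K) P := by
    intro P
    exact IsFractionRing.lift_algebraMap hφ P
  letI : Algebra (FractionRing (MvPolynomial T k)) K := ψ.toAlgebra
  haveI halg : Algebra.IsAlgebraic (FractionRing (MvPolynomial T k)) K := by
    constructor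
    intro a
    have h1 : IsAlgebraic (Algebra.adjoin k (Set.range ((↑) : T → K))) a :=
      hbasis.isAlgebraic.isAlgebraic a
    refine IsAlgebraic.ringHom_of_comp_eq
      (((algebraMap (MvPolynomial T k) (FractionRing (MvPolynomial T k)))).comp
        (hx.aevalEquiv.symm : _ →+* MvPolynomial T k)) (RingHom.id K) h1 ?_ ?_
    · intro x y hxy
      exact hx.aevalEquiv.symm.injective (IsFractionRing.injective _ _ hxy)
    · ext y
      show ψ (algebraMap _ _ (hx.aevalEquiv.symm y)) = (y : K)
      rw [hψ]
      have := hx.algebraMap_aevalEquiv (hx.aevalEquiv.symm y)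
      rw [AlgEquiv.apply_symm_apply] at this
      exact this.symm
  have hnt : f.IsNontrivial := by
    refine ⟨algebraMap (MvPolynomial T k) (FractionRing (MvPolynomial T k))
      (MvPolynomial.X ⟨lam, hT rfl⟩), ?_, ?_⟩
    · intro h0
      rw [h0, map_zero] at hf
      norm_num at hf
    · rw [hf]
      norm_num
  obtain ⟨f', hf'⟩ := hext (FractionRing (MvPolynomial T k)) K f hna hnt
  refine ⟨f', ?_⟩
  have h2 := hf' (algebraMap (MvPolynomial T k) (FractionRing (MvPolynomial T k))
      (MvPolynomial.X ⟨lam, hT rfl⟩))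
  rw [hf] at h2
  have h3 : algebraMap (FractionRing (MvPolynomial T k)) K
      (algebraMap (MvPolynomial T k) (FractionRing (MvPolynomial T k))
      (MvPolynomial.X ⟨lam, hT rfl⟩)) = lam := by
    show ψ _ = lam
    rw [hψ, MvPolynomial.aeval_X]
  rw [h3] at h2
  rw [h2]
  norm_num

end Vale.Agent.P184
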