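import Vale.Agent.P184.Lin
import Vale.Agent.P184.Ext
import Vale.Agent.P184.Tdeg
import Vale.Agent.P184.Trans
import Vale.Agent.P184.Root
import Vale.Agent.P184.Eig
import Vale.Agent.P184.Omega
import Vale.Agent.P184.Emb

/-!
P184: the additive character from a linear representation, final forms.
-/

namespace Vale.Agent.P184

universe u v w

/-- the conclusion of `lin` and `cat0` -/
def HasChar {G : Type u} [Group G] (g : G) : Prop :=
  ∃ (ℓ : G → ℝ) (χ : G → ℝ), (∀ x y, ℓ (x * y) ≤ ℓ x + ℓ y) ∧ (∀ x, ℓ x⁻¹ = ℓ x) ∧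
    (∀ a ∈ Subgroup.centralizer ({g} : Set G), ∀ b ∈ Subgroup.centralizer ({g} : Set G),
      χ (a * b) = χ a + χ b) ∧ χ g ≠ 0 ∧
    ∀ a ∈ Subgroup.centralizer ({g} : Set G), |χ a| ≤ ℓ a

theorem trans0 : S_TRANS.{v} := trans_ ext tdeg

theorem lin_trans {G : Type u} [Group G] {K : Type v} [Field K] (k : Subfield K) {V : Type w}
    [AddCommGroup V] [Module K V] [FiniteDimensional K V] (ρ : G →* (V →ₗ[K] V)) (g : G) (lam : K)
    (hlam : Module.End.HasEigenvalue (ρ g) lam) (ht : Transcendental k lam) : HasChar g := by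
  obtain ⟨f, hf⟩ := trans0 K k lam ht
  exact lin f ρ g lam hlam hf

open TensorProduct in
/-- base change of a representation -/
noncomputable def bc {G : Type u} [Group G] {K : Type v} [Field K] (L : Type v) [Field L]
    [Algebra K L] {V : Type w} [AddCommGroup V] [Module K V] (ρ : G →* (V →ₗ[K] V)) :
    G →* ((L ⊗[K] V) →ₗ[L] (L ⊗[K] V)) where
  toFun x := (ρ x).baseChange L
  map_one' := by rw [map_one, LinearMap.baseChange_one]
  map_mul' x y := by rw [map_mul, LinearMap.baseChange_mul]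

theorem lin_charp {G : Type u} [Group G] (p : ℕ) {K : Type v} [Field K] [CharP K p]
    (hp : p.Prime) {V : Type w}
    [AddCommGroup V] [Module K V] [FiniteDimensional K V] (ρ : G →* (V →ₗ[K] V)) (g : G)
    (h : ∀ n : ℕ, 0 < n → ρ g ^ n ≠ 1) : HasChar g := by
  obtain ⟨lam, hlam0, hlam, heig⟩ := eig p K hp V (ρ g) (ρ g⁻¹)
    (by rw [← map_mul, mul_inv_cancel, map_one]) h
  have : CharP (AlgebraicClosure K) p :=
    charP_of_injective_algebraMap (algebraMap K (AlgebraicClosure K)).injective p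
  obtain ⟨k, hk⟩ := root p (AlgebraicClosure K) hp lam hlam0 hlam
  obtain ⟨f, hf⟩ := trans0 (AlgebraicClosure K) k lam hk
  exact lin f (bc (AlgebraicClosure K) ρ) g lam heig hf

theorem lin_complex {G : Type u} [Group G] {V : Type w}
    [AddCommGroup V] [Module ℂ V] [FiniteDimensional ℂ V] (ρ : G →* (V →ₗ[ℂ] V)) (g : G) (lam : ℂ)
    (hlam : Module.End.HasEigenvalue (ρ g) lam) (ht : ∀ n : ℕ, 0 < n → lam ^ n ≠ 1) :
    HasChar g := by
  have h0 : lam ≠ 0 := by
    rintro rfl
    obtain ⟨v, hv, hv0⟩ := hlam.exists_hasEigenvector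
    rw [Module.End.mem_eigenspace_iff, zero_smul] at hv
    apply hv0
    have h1 : ρ (g⁻¹ * g) v = 0 := by
      rw [map_mul, Module.End.mul_apply, hv, map_zero]
    rwa [inv_mul_cancel, map_one, Module.End.one_apply] at h1
  obtain ⟨f, hf⟩ := cplx trans0 emb omega_ lam h0 ht
  exact lin f ρ g lam hlam hf

end Vale.Agent.P184
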