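import Mathlib

/-!
# P184: linear groups in positive characteristic. Module statements.
-/

namespace Vale.Agent.P184

universe u v w

/-- EXT: extension of a nonarchimedean absolute value to an algebraic field extension.
Proof: `Fc` = completion of `F` at `f` (`AbsoluteValue.Completion`, a complete normed field,
ultrametric); the ring `K ⊗[F] Fc` is nontrivial, let `L` be its quotient by a maximal ideal, a field,
algebraic over `Fc` (generated by the image of `K`, algebraic over `F`);
`f' x = spectralNorm Fc L (image of x)`, multiplicative by `spectralMulAlgNorm`,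
and it extends the norm of `Fc` (`spectralNorm_extends`). `IsNontrivial` gives the
`NontriviallyNormedField` structure. Any other proof is fine. -/
def S_EXT : Prop := ∀ (F : Type v) [Field F] (K : Type v) [Field K] [Algebra F K]
  [Algebra.IsAlgebraic F K] (f : AbsoluteValue F ℝ), IsNonarchimedean f → f.IsNontrivial →
  ∃ f' : AbsoluteValue K ℝ, ∀ x : F, f' (algebraMap F K x) = f x

/-- TDEG: `f P = 2 ^ totalDegree P` on polynomials (`MvPolynomial.totalDegree_mul_of_isDomain`,
`totalDegree_add`), extended to the fraction field by `f (P / Q) = f P / f Q`. -/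
def S_TDEG : Prop := ∀ (k : Type v) [Field k] (T : Type v) (t : T),
  ∃ f : AbsoluteValue (FractionRing (MvPolynomial T k)) ℝ, IsNonarchimedean f ∧
    f (algebraMap (MvPolynomial T k) (FractionRing (MvPolynomial T k)) (MvPolynomial.X t)) = 2

/-- TRANS (from EXT, TDEG): a transcendence basis of `K` over `k` containing `lam`. -/
def S_TRANS : Prop := ∀ (K : Type v) [Field K] (k : Subfield K) (lam : K), Transcendental k lam →
  ∃ f : AbsoluteValue K ℝ, f lam ≠ 1

/-- ROOT: in characteristic `p` an element which is not a root of unity is transcendental over the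
prime field (`k` = `(algebraMap (ZMod p) K).fieldRange`; an algebraic element lies in a finite
field). -/
def S_ROOT : Prop := ∀ (p : ℕ) (K : Type v) [Field K] [CharP K p], p.Prime → ∀ lam : K, lam ≠ 0 →
  (∀ n : ℕ, 0 < n → lam ^ n ≠ 1) → ∃ k : Subfield K, Transcendental k lam

/-- EIG: an operator of infinite order in characteristic `p` has, after base change to the algebraic
closure, an eigenvalue which is not a root of unity. (If all eigenvalues of `B = A ⊗ 1` are roots of
unity, pick `N > 0` with `lam ^ N = 1` for all of them; then `B ^ N - 1` is nilpotent, because its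
eigenvalues are `0` over an algebraically closed field, so `(B ^ N) ^ (p ^ m) = 1`; injectivity of
base change gives `A ^ (N p ^ m) = 1`.) `A` is invertible so `lam ≠ 0`. -/
def S_EIG : Prop := ∀ (p : ℕ) (K : Type v) [Field K] [CharP K p], p.Prime → ∀ (V : Type w)
  [AddCommGroup V] [Module K V] [FiniteDimensional K V] (A A' : V →ₗ[K] V), A * A' = 1 →
  (∀ n : ℕ, 0 < n → A ^ n ≠ 1) →
  ∃ lam : AlgebraicClosure K, lam ≠ 0 ∧ (∀ n : ℕ, 0 < n → lam ^ n ≠ 1) ∧
    Module.End.HasEigenvalue (A.baseChange (AlgebraicClosure K)) lam

end Vale.Agent.P184
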