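import Vale.Agent.P184.Constr

/-!
# P184: the general criterion
-/

namespace Vale.Agent.P184

open scoped BoundedContinuousFunction

universe u

/-- relative amenability: a mean on the centralizer of `g` which is left invariant on the functions
that are right invariant under `A` (for `A = ⊥` amenability of the centralizer). -/
def CoAmen {G : Type u} [Group G] (g : G) (A : Subgroup G) : Prop :=
  ∃ m : (Subgroup.centralizer ({g} : Set G) → ℂ) → ℂ, IsMean m ∧
    ∀ (z : Subgroup.centralizer ({g} : Set G)) (f : Subgroup.centralizer ({g} : Set G) → ℂ),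
      (∃ C : ℝ, ∀ x, ‖f x‖ ≤ C) →
      (∀ x a : Subgroup.centralizer ({g} : Set G), (a : G) ∈ A → f (x * a) = f x) →
      m (fun y => f (z * y)) = m f

/-- the data of the general criterion: a length function `ℓ`, a subgroup `A` of the centralizer of
`g` containing `g`, an additive map `χ` on `A` with `χ g ≠ 0` and `|χ| ≤ ℓ` on `A`, and `A` is
relatively co-amenable in the centralizer -/
structure Crit {G : Type u} [Group G] (g : G) (ℓ : G → ℝ) (A : Subgroup G) (χ : G → ℝ) : Prop where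
  sub : ∀ x y, ℓ (x * y) ≤ ℓ x + ℓ y
  inv : ∀ x, ℓ x⁻¹ = ℓ x
  mem : g ∈ A
  cent : ∀ a ∈ A, a * g = g * a
  add : ∀ a ∈ A, ∀ b ∈ A, χ (a * b) = χ a + χ b
  ne : χ g ≠ 0
  le : ∀ a ∈ A, |χ a| ≤ ℓ a
  coamen : CoAmen g A

namespace GENX

variable {G : Type u} [Group G] {g : G} {ℓ : G → ℝ} {A : Subgroup G} {χ : G → ℝ}

theorem phi2 (h : Crit g ℓ A χ) : ∃ φ : G → ℝ, (∀ x, ∀ a ∈ A, φ (x * a) = φ x + χ a) ∧
    ∀ k, ∃ C : ℝ, ∀ x, |φ (k * x) - φ x| ≤ C := by
  let F : G → A → ℝ := fun x a => ℓ ((a : G) * x⁻¹) + χ a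
  have hbdd : ∀ x, BddBelow (Set.range (F x)) := by
    intro x
    refine ⟨-ℓ x, ?_⟩
    rintro _ ⟨a, rfl⟩
    have h1 : ℓ (a : G) ≤ ℓ ((a : G) * x⁻¹) + ℓ x := by
      simpa using h.sub ((a : G) * x⁻¹) x
    have h2 := h.le a a.2
    have h3 := neg_abs_le (χ a)
    show -ℓ x ≤ ℓ ((a : G) * x⁻¹) + χ a
    linarith
  have key : ∀ k x : G, ∀ a : A, F (k * x) a ≤ F x a + ℓ k := by
    intro k x a
    have h1 : ℓ ((a : G) * (k * x)⁻¹) ≤ ℓ ((a : G) * x⁻¹) + ℓ k := by
      have := h.sub ((a : G) * x⁻¹) k⁻¹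
      rw [h.inv k] at this
      simpa [mul_assoc, mul_inv_rev] using this
    show ℓ ((a : G) * (k * x)⁻¹) + χ a ≤ ℓ ((a : G) * x⁻¹) + χ a + ℓ k
    linarith
  have key2 : ∀ k x : G, (⨅ a, F (k * x) a) ≤ (⨅ a, F x a) + ℓ k := by
    intro k x
    rw [← sub_le_iff_le_add]
    refine le_ciInf fun a => ?_
    rw [sub_le_iff_le_add]
    exact (ciInf_le (hbdd _) a).trans (key k x a)
  refine ⟨fun x => ⨅ a : A, F x a, ?_, ?_⟩
  · intro x b hb
    show (⨅ a : A, F (x * b) a) = (⨅ a : A, F x a) + χ b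
    rw [ciInf_add (hbdd x)]
    refine ((Equiv.mulRight (⟨b, hb⟩ : A)).symm.iInf_congr ?_)
    intro a
    show ℓ (((a * (⟨b, hb⟩ : A)⁻¹ : A) : G) * x⁻¹) + χ ((a * (⟨b, hb⟩ : A)⁻¹ : A) : G) + χ b
      = ℓ ((a : G) * (x * b)⁻¹) + χ a
    have e1 : ((a * (⟨b, hb⟩ : A)⁻¹ : A) : G) = (a : G) * b⁻¹ := rfl
    have e2 : χ (a : G) = χ ((a : G) * b⁻¹) + χ b := by
      have := h.add ((a : G) * b⁻¹) (A.mul_mem a.2 (A.inv_mem hb)) b hb
      rwa [inv_mul_cancel_right] at this
    rw [e1, e2, mul_inv_rev, mul_assoc]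
    ring
  · intro k
    refine ⟨ℓ k, fun x => ?_⟩
    rw [abs_sub_le_iff]
    constructor
    · have := key2 k x
      show (⨅ a, F (k * x) a) - (⨅ a, F x a) ≤ _
      linarith
    · have := key2 k⁻¹ (k * x)
      rw [inv_mul_cancel_left, h.inv] at this
      show (⨅ a, F x a) - (⨅ a, F (k * x) a) ≤ _
      linarith

open Classical in
theorem meanf2 (hA : CoAmen g A) :
    ∃ μ : G → (G → ℂ) → ℂ, (∀ h, IsConj g h → IsMean (μ h)) ∧
    (∀ h k f, IsConj g h → (∃ C : ℝ, ∀ x, ‖f x‖ ≤ C) → (∀ x, ∀ a ∈ A, f (x * a) = f x) →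
      μ (k * h * k⁻¹) f = μ h (fun x => f (k * x))) ∧
    (∀ h f f', IsConj g h → (∀ x, x * g * x⁻¹ = h → f x = f' x) → μ h f = μ h f') := by
  obtain ⟨m, hm, hinv⟩ := hA
  have hex : ∀ h : G, ∃ x : G, IsConj g h → x * g * x⁻¹ = h := by
    intro h
    by_cases hc : IsConj g h
    · obtain ⟨x, hx⟩ := isConj_iff.1 hc
      exact ⟨x, fun _ => hx⟩
    · exact ⟨1, fun h' => absurd h' hc⟩
  choose X hX using hex
  refine ⟨fun h f => m (fun z => f (X h * (z : G))), ?_, ?_, ?_⟩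
  · intro h _
    refine ⟨?_, ?_, ?_, ?_⟩
    · rintro f f' ⟨C, hC⟩ ⟨C', hC'⟩
      exact hm.add (fun z => f (X h * (z : G))) (fun z => f' (X h * (z : G)))
        ⟨C, fun z => hC _⟩ ⟨C', fun z => hC' _⟩
    · rintro c f ⟨C, hC⟩
      exact hm.smul c (fun z => f (X h * (z : G))) ⟨C, fun z => hC _⟩
    · intro f C hC
      exact hm.bound _ C fun z => hC _
    · exact hm.one
  · rintro h k f hc ⟨C, hC⟩ hfA
    have hc' : IsConj g (k * h * k⁻¹) := hc.trans (isConj_iff.2 ⟨k, rfl⟩)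
    have e1 := hX h hc
    have e2 := hX (k * h * k⁻¹) hc'
    have hz : (k * X h)⁻¹ * X (k * h * k⁻¹) ∈ Subgroup.centralizer ({g} : Set G) := by
      rw [Subgroup.mem_centralizer_singleton_iff]
      set x' := X (k * h * k⁻¹)
      have e3 : x' * g * x'⁻¹ = (k * X h) * g * (k * X h)⁻¹ := by
        rw [e2]
        have e5 : (k * X h) * g * (k * X h)⁻¹ = k * (X h * g * (X h)⁻¹) * k⁻¹ := by
          simp [mul_assoc]
        rw [e5, e1]
      have e4 : x' * g = (k * X h) * g * (k * X h)⁻¹ * x' := by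
        rw [← e3]; simp
      rw [mul_assoc, e4]
      simp [mul_assoc]
    have h1 := hinv ⟨_, hz⟩ (fun z => f (k * (X h * (z : G)))) ⟨C, fun z => hC _⟩ (by
      intro x a ha
      have := hfA (k * (X h * (x : G))) a ha
      simpa [mul_assoc] using this)
    show m (fun z => f (X (k * h * k⁻¹) * (z : G))) = m (fun z => f (k * (X h * (z : G))))
    rw [← h1]
    congr 1
    funext z
    congr 1
    show _ = k * (X h * ((k * X h)⁻¹ * X (k * h * k⁻¹) * (z : G)))
    simp [mul_assoc]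
  · intro h f f' hc hff
    show m (fun z => f (X h * (z : G))) = m (fun z => f' (X h * (z : G)))
    congr 1
    funext z
    refine hff _ ?_
    have hz := z.2
    rw [Subgroup.mem_centralizer_singleton_iff] at hz
    have e1 := hX h hc
    have : X h * (z : G) * g * (X h * (z : G))⁻¹ = X h * g * (X h)⁻¹ := by
      rw [mul_assoc (X h), hz, mul_inv_rev]
      simp [mul_assoc]
    rw [this, e1]

end GENX

open CONSTRX GENX in
/-- the path of homomorphisms -/
theorem constr2 (G : Type u) [Group G] (g : G) (ℓ : G → ℝ) (A : Subgroup G) (χ : G → ℝ)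
    (hcrit : Crit g ℓ A χ) :
    ∃ (R : Type u) (_ : NormedRing R) (_ : NormedAlgebra ℂ R) (_ : CompleteSpace R)
    (π : ℝ → G →* R) (T : R →L[ℂ] ℂ) (S : Subalgebra ℂ R),
    (∀ t h, ‖π t h‖ ≤ 1) ∧ (∀ h, Continuous fun t => π t h) ∧ (∀ t h, π t h ∈ S) ∧
    IsClosed (S : Set R) ∧ (∀ a ∈ S, ∀ b ∈ S, T (a * b) = T (b * a)) ∧
    ∀ t h, T (π t h) = (open Classical in
      if IsConj g h then Complex.exp (Complex.I * t) else 0) := by
  classical
  obtain ⟨φ', hφ1', hφ2'⟩ := phi2 hcrit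
  obtain ⟨μ, hμ1, hμ2, hμ3⟩ := meanf2 hcrit.coamen
  -- normalisation
  set φ : G → ℝ := fun x => φ' x / χ g with hφ
  have hφ1 : ∀ x, ∀ a ∈ A, φ (x * a) = φ x + χ a / χ g := by
    intro x a ha
    rw [hφ]
    simp only
    rw [hφ1' x a ha, add_div]
  have hφ2 : ∀ h, ∃ C : ℝ, ∀ x, |φ (h * x) - φ x| ≤ C := by
    intro h
    obtain ⟨C, hC⟩ := hφ2' h
    refine ⟨C / |χ g|, fun x => ?_⟩
    rw [hφ]
    simp only
    rw [← sub_div, abs_div]
    exact div_le_div_of_nonneg_right (hC x) (abs_nonneg _)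
  let _ : TopologicalSpace G := ⊥
  have _ : DiscreteTopology G := ⟨rfl⟩
  let M : G → ((G →ᵇ ℂ) →L[ℂ] ℂ) := fun h => if hh : IsConj g h then mu (μ h) (hμ1 h hh) else 0
  have hM1 : ∀ h (hh : IsConj g h) f, M h f = μ h f := by
    intro h hh f
    show (if hh : IsConj g h then mu (μ h) (hμ1 h hh) else 0 : (G →ᵇ ℂ) →L[ℂ] ℂ) f = _
    rw [dif_pos hh, mu_apply]
  have hM0 : ∀ h, ¬ IsConj g h → M h = 0 := by
    intro h hh
    show (if hh : IsConj g h then mu (μ h) (hμ1 h hh) else 0 : (G →ᵇ ℂ) →L[ℂ] ℂ) = _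
    rw [dif_neg hh]
  have hMn : ∀ h, ‖M h‖ ≤ 1 := by
    intro h
    by_cases hh : IsConj g h
    · show ‖(if hh : IsConj g h then mu (μ h) (hμ1 h hh) else 0 : (G →ᵇ ℂ) →L[ℂ] ℂ)‖ ≤ 1
      rw [dif_pos hh]
      exact mu_norm _ _
    · rw [hM0 h hh]
      simp
  let Y₀ : Submonoid (G →ᵇ ℂ) :=
    { carrier := {f | ∀ x, ∀ a ∈ A, f (x * a) = f x}
      mul_mem' := by
        intro a b ha hb x c hc
        rw [BoundedContinuousFunction.mul_apply, BoundedContinuousFunction.mul_apply,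
          ha x c hc, hb x c hc]
      one_mem' := fun x _ _ => rfl }
  have hginv : ∀ f ∈ Y₀, ∀ x, f (x * g⁻¹) = f x := fun f hf x => hf x _ (A.inv_mem hcrit.mem)
  have hal : ∀ h, ∀ y ∈ Y₀, al h y ∈ Y₀ := by
    intro h y hy x a ha
    rw [al_apply, al_apply, ← mul_assoc]
    exact hy (h⁻¹ * x) a ha
  obtain ⟨R, i1, i2, i3, o, T, S, ho1, ho2, ho3, ho4, ho5, hS, hT1, hT2⟩ :=
    cross G (G →ᵇ ℂ) al al_norm (fun y => by ext x; rw [al_apply, inv_one, one_mul])
      (fun h k y => by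
        ext x
        rw [al_apply, al_apply, al_apply, mul_inv_rev, mul_assoc]) M hMn Y₀ hal
      (by
        intro f hf f' hf' h h'
        by_cases hc : IsConj g (h * h')
        · have e1 : h' * h = h⁻¹ * (h * h') * h⁻¹⁻¹ := by group
          have hc' : IsConj g (h' * h) := by
            refine hc.trans ?_
            rw [isConj_iff]
            exact ⟨h⁻¹, e1.symm⟩
          rw [hM1 _ hc, hM1 _ hc', e1, hμ2 (h * h') h⁻¹ _ hc
            ⟨‖f' * al h' f‖, (f' * al h' f).norm_coe_le_norm⟩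
            (Y₀.mul_mem hf' (hal h' f hf))]
          apply hμ3 _ _ _ hc
          intro x hx
          rw [BoundedContinuousFunction.mul_apply, BoundedContinuousFunction.mul_apply, al_apply,
            al_apply]
          have e2 : h'⁻¹ * (h⁻¹ * x) = x * g⁻¹ := by
            have : h'⁻¹ * (h⁻¹ * x) = (h * h')⁻¹ * x := by group
            rw [this, ← hx]
            group
          rw [e2, hginv f hf, mul_comm]
        · have hc' : ¬ IsConj g (h' * h) := by
            intro h1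
            apply hc
            refine h1.trans ?_
            rw [isConj_iff]
            exact ⟨h, by group⟩
          rw [hM0 _ hc, hM0 _ hc']
          rfl)
  have hphY : ∀ t h, ph φ t h ∈ Y₀ := by
    intro t h x a ha
    rw [ph_apply, ph_apply, ← mul_assoc, hφ1 _ a ha, hφ1 _ a ha]
    congr 3
    ring
  refine ⟨R, i1, i2, i3, fun t =>
    { toFun := fun h => o (ph φ t h) h
      map_one' := by rw [ph_one, ho3]
      map_mul' := fun h k => by rw [ho2, ← ph_mul] }, T, S,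
    fun t h => (ho1 _ _).trans (ph_norm φ t h), ?_, fun t h => ho5 _ (hphY t h) h, hS, hT1, ?_⟩
  · intro h
    obtain ⟨C, hC⟩ := hφ2 h
    have hC' : ∀ x, |φ x - φ (h⁻¹ * x)| ≤ C := by
      intro x
      have := hC (h⁻¹ * x)
      rwa [mul_inv_cancel_left] at this
    have hC0 : 0 ≤ C := (abs_nonneg _).trans (hC' 1)
    show Continuous fun t => o (ph φ t h) h
    refine (LipschitzWith.of_dist_le_mul (K := ⟨C, hC0⟩) fun s t => ?_).continuous
    rw [dist_eq_norm, Real.dist_eq, ho4]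
    exact (ho1 _ _).trans (ph_lip φ h C hC' s t)
  · intro t h
    show T (o (ph φ t h) h) = _
    rw [hT2]
    by_cases hc : IsConj g h
    · rw [if_pos hc, hM1 h hc]
      have e1 : μ h (ph φ t h) = μ h (fun _ => Complex.exp (Complex.I * t) * 1) := by
        apply hμ3 _ _ _ hc
        intro x hx
        rw [ph_apply, mul_one]
        have e2 : h⁻¹ * x = x * g⁻¹ := by
          rw [← hx]
          group
        have e3 : φ x - φ (h⁻¹ * x) = 1 := by
          rw [e2]
          have := hφ1 (x * g⁻¹) g hcrit.mem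
          rw [inv_mul_cancel_right, div_self hcrit.ne] at this
          rw [this]
          ring
        rw [e3, mul_one]
      rw [e1, (hμ1 h hc).smul _ (fun _ => 1) ⟨1, fun x => by simp⟩, (hμ1 h hc).one, mul_one]
    · rw [if_neg hc, hM0 h hc]
      rfl

/-- GEN: the general criterion -/
theorem gen (hMAIN : S_MAIN.{u}) (G : Type u) [Group G] (g : G) (ℓ : G → ℝ) (A : Subgroup G)
    (χ : G → ℝ) (hcrit : Crit g ℓ A χ) (q : ℕ) (e : Fin q → Fin q → G → ℂ) (he : IsIdem e) :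
    tau e g = 0 := by
  obtain ⟨R, i1, i2, i3, π, T, S, h1, h2, h3, h4, h5, h6⟩ := constr2 G g ℓ A χ hcrit
  exact hMAIN G g R π T S h1 h2 h3 h4 h5 h6 q e he

end Vale.Agent.P184
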