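import Vale.Agent.P184.Defs

/-!
# P184: image of an idempotent matrix under a bounded homomorphism
-/

namespace Vale.Agent.P184

universe u

namespace IdemX

variable {G : Type u} [Group G]

/-- reindexing `(g, h) ↦ (h, h⁻¹ g)` -/
def shear (G : Type u) [Group G] : G × G ≃ G × G where
  toFun p := (p.2, p.2⁻¹ * p.1)
  invFun p := (p.1 * p.2, p.1)
  left_inv p := by simp
  right_inv p := by simp

theorem summable_ab (a b : G → ℂ) (ha : Summable fun h => ‖a h‖)
    (hb : Summable fun h => ‖b h‖) :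
    Summable fun p : G × G => a p.2 * b (p.2⁻¹ * p.1) := by
  have hsab : Summable fun z : G × G => a z.1 * b z.2 := summable_mul_of_summable_norm ha hb
  exact (shear G).summable_iff.2 hsab

variable {R : Type u} [NormedRing R] [NormedAlgebra ℂ R]

theorem term_eq (π : G →* R) (a b : G → ℂ) (g h : G) :
    (a h • π h) * (b (h⁻¹ * g) • π (h⁻¹ * g)) = (a h * b (h⁻¹ * g)) • π g := by
  rw [smul_mul_smul_comm, ← map_mul, mul_inv_cancel_left]

theorem summable_norm_smul (π : G →* R) (hπ : ∀ h, ‖π h‖ ≤ 1) (c : G → ℂ)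
    (hc : Summable fun h => ‖c h‖) : Summable fun h => ‖c h • π h‖ := by
  refine Summable.of_nonneg_of_le (fun _ => norm_nonneg _) (fun h => ?_) hc
  rw [norm_smul]
  calc ‖c h‖ * ‖π h‖ ≤ ‖c h‖ * 1 := mul_le_mul_of_nonneg_left (hπ h) (norm_nonneg _)
    _ = ‖c h‖ := mul_one _

variable [CompleteSpace R]

set_option linter.unusedSectionVars false

theorem summable_pair (π : G →* R) (hπ : ∀ h, ‖π h‖ ≤ 1) (a b : G → ℂ)
    (ha : Summable fun h => ‖a h‖) (hb : Summable fun h => ‖b h‖) :
    Summable fun z : G × G => (a z.1 • π z.1) * (b z.2 • π z.2) :=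
  summable_mul_of_summable_norm (f := fun h => a h • π h) (g := fun h => b h • π h)
    (summable_norm_smul π hπ a ha) (summable_norm_smul π hπ b hb)

theorem summable_pair2 (π : G →* R) (hπ : ∀ h, ‖π h‖ ≤ 1) (a b : G → ℂ)
    (ha : Summable fun h => ‖a h‖) (hb : Summable fun h => ‖b h‖) :
    Summable fun p : G × G => (a p.2 * b (p.2⁻¹ * p.1)) • π p.1 := by
  have h1 := (shear G).summable_iff.2 (summable_pair π hπ a b ha hb)
  refine h1.congr fun p => ?_
  exact term_eq π a b p.1 p.2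

theorem mul_eq (π : G →* R) (hπ : ∀ h, ‖π h‖ ≤ 1) (a b : G → ℂ)
    (ha : Summable fun h => ‖a h‖) (hb : Summable fun h => ‖b h‖) :
    (∑' h, a h • π h) * (∑' h, b h • π h)
      = ∑' p : G × G, (a p.2 * b (p.2⁻¹ * p.1)) • π p.1 := by
  rw [tsum_mul_tsum_of_summable_norm (f := fun h => a h • π h) (g := fun h => b h • π h)
    (summable_norm_smul π hπ a ha) (summable_norm_smul π hπ b hb), ← (shear G).tsum_eq]
  exact tsum_congr fun p => term_eq π a b p.1 p.2

theorem fib_eq (π : G →* R) (a b : G → ℂ)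
    (ha : Summable fun h => ‖a h‖) (hb : Summable fun h => ‖b h‖) (g : G) :
    ∑' h, (a h * b (h⁻¹ * g)) • π g = (∑' h, a h * b (h⁻¹ * g)) • π g :=
  ((summable_ab a b ha hb).prod_factor g).tsum_smul_const _

theorem key (π : G →* R) (hπ : ∀ h, ‖π h‖ ≤ 1) (a b : G → ℂ) (ha : Summable fun h => ‖a h‖)
    (hb : Summable fun h => ‖b h‖) :
    (∑' h, a h • π h) * (∑' h, b h • π h) = ∑' g, (∑' h, a h * b (h⁻¹ * g)) • π g := by
  rw [mul_eq π hπ a b ha hb, (summable_pair2 π hπ a b ha hb).tsum_prod]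
  exact tsum_congr (fib_eq π a b ha hb)

theorem key2 (π : G →* R) (hπ : ∀ h, ‖π h‖ ≤ 1) (a b : G → ℂ) (ha : Summable fun h => ‖a h‖)
    (hb : Summable fun h => ‖b h‖) :
    Summable fun g => (∑' h, a h * b (h⁻¹ * g)) • π g := by
  have := (summable_pair2 π hπ a b ha hb).prod
  refine this.congr fun g => ?_
  exact fib_eq π a b ha hb g

end IdemX

theorem idem : S_IDEM.{u} := by
  intro G _ q e he R _ _ _ π hπ i j
  rw [Finset.sum_congr rfl fun k _ =>
    IdemX.key π hπ (e i k) (e k j) (he.summable i k) (he.summable k j),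
    ← Summable.tsum_finsetSum fun k _ =>
      IdemX.key2 π hπ (e i k) (e k j) (he.summable i k) (he.summable k j)]
  refine tsum_congr fun g => ?_
  rw [← Finset.sum_smul, he.idem]

end Vale.Agent.P184
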