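import Vale.Agent.P184.Twist

/-!
Induced monomial representations of a real character of a finite index subgroup,
and the extension of such a character to a subgroup containing a root.
-/

namespace Vale.Agent.P184

open Filter Topology

variable {G : Type*} [Group G]

/-- the cocycle of the coset representatives -/
noncomputable def coc (H : Subgroup G) (x : G) (q : G ⧸ H) : G :=
  (x • q).out⁻¹ * x * q.out

theorem coc_mem (H : Subgroup G) (x : G) (q : G ⧸ H) : coc H x q ∈ H := by
  unfold coc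
  rw [mul_assoc, ← QuotientGroup.eq]
  rw [QuotientGroup.out_eq']
  conv_lhs => rw [← QuotientGroup.out_eq' q]
  rfl

theorem coc_mul (H : Subgroup G) (x y : G) (q : G ⧸ H) :
    coc H (x * y) q = coc H x (y • q) * coc H y q := by
  unfold coc
  rw [mul_smul]
  group

/-- the monomial matrices -/
noncomputable def indMat (H : Subgroup G) (f : G → ℝ) (t : ℝ) (x : G) :
    Matrix (G ⧸ H) (G ⧸ H) ℂ :=
  open Classical in
  Matrix.of fun p q => if p = x • q then Complex.exp ((t * f (coc H x q) : ℝ) * Complex.I) else 0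

theorem f_one {H : Subgroup G} {f : G → ℝ} (hf : ∀ a ∈ H, ∀ b ∈ H, f (a * b) = f a + f b) :
    f 1 = 0 := by
  have := hf 1 H.one_mem 1 H.one_mem
  rw [mul_one] at this
  linarith

/-- the induced representation -/
noncomputable def ind (H : Subgroup G) [Fintype (G ⧸ H)] [DecidableEq (G ⧸ H)] (f : G → ℝ)
    (hf : ∀ a ∈ H, ∀ b ∈ H, f (a * b) = f a + f b) (t : ℝ) :
    G →* Matrix (G ⧸ H) (G ⧸ H) ℂ where
  toFun := indMat H f t
  map_one' := by
    ext p q
    have h1 : coc H 1 q = 1 := by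
      unfold coc
      rw [one_smul]
      group
    simp only [indMat, Matrix.of_apply, one_smul, h1, f_one hf, Matrix.one_apply]
    by_cases h : p = q <;> simp [h]
  map_mul' x y := by
    classical
    ext p q
    rw [Matrix.mul_apply]
    rw [Finset.sum_eq_single (y • q)]
    · simp only [indMat, Matrix.of_apply, if_true, mul_smul]
      by_cases h : p = x • y • q
      · rw [if_pos h, if_pos h, coc_mul, hf _ (coc_mem _ _ _) _ (coc_mem _ _ _), ← Complex.exp_add]
        congr 1
        push_cast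
        ring
      · rw [if_neg h, if_neg h, zero_mul]
    · intro r _ hr
      have : indMat H f t y r q = 0 := by
        simp only [indMat, Matrix.of_apply, if_neg hr]
      rw [this, mul_zero]
    · intro h
      exact absurd (Finset.mem_univ _) h

theorem ind_continuous (H : Subgroup G) [Fintype (G ⧸ H)] [DecidableEq (G ⧸ H)] (f : G → ℝ)
    (hf : ∀ a ∈ H, ∀ b ∈ H, f (a * b) = f a + f b) (g : G) (a b : G ⧸ H) :
    Continuous fun t => ind H f hf t g a b := by
  show Continuous fun t => indMat H f t g a b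
  simp only [indMat, Matrix.of_apply]
  split_ifs
  · fun_prop
  · exact continuous_const

theorem ind_bound (H : Subgroup G) [Fintype (G ⧸ H)] [DecidableEq (G ⧸ H)] (f : G → ℝ)
    (hf : ∀ a ∈ H, ∀ b ∈ H, f (a * b) = f a + f b) (t : ℝ) (g : G) (a b : G ⧸ H) :
    ‖ind H f hf t g a b‖ ≤ 1 := by
  show ‖indMat H f t g a b‖ ≤ 1
  simp only [indMat, Matrix.of_apply]
  split_ifs
  · rw [Complex.norm_exp_ofReal_mul_I]
  · simp

/-- if `g ∈ H` and `f g ≠ 0`, the character of the induced family is not constant at `g` -/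
theorem ind_trace_ne (H : Subgroup G) [Fintype (G ⧸ H)] [DecidableEq (G ⧸ H)] (f : G → ℝ)
    (hf : ∀ a ∈ H, ∀ b ∈ H, f (a * b) = f a + f b) (g : G) (hg : g ∈ H) (hfg : f g ≠ 0) :
    (ind H f hf (Real.pi / f g) g).trace ≠ (ind H f hf 0 g).trace := by
  classical
  have htr : ∀ t, (ind H f hf t g).trace = ∑ q : G ⧸ H,
      if q = g • q then Complex.exp ((t * f (coc H g q) : ℝ) * Complex.I) else 0 := by
    intro t
    show ∑ q, indMat H f t g q q = _
    refine Finset.sum_congr rfl fun q _ => ?_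
    simp only [indMat, Matrix.of_apply]
    by_cases h : q = g • q
    · rw [if_pos h, if_pos h]
    · rw [if_neg h, if_neg h]
  intro hc
  have hre := congrArg Complex.re hc
  rw [htr, htr, Complex.re_sum, Complex.re_sum] at hre
  set q0 : G ⧸ H := ((1 : G) : G ⧸ H) with hq0
  have hfix : q0 = g • q0 := by
    rw [hq0]
    show ((1 : G) : G ⧸ H) = ((g * 1 : G) : G ⧸ H)
    rw [QuotientGroup.eq]
    simpa using hg
  have hlt : ∑ q : G ⧸ H, (if q = g • q then
        Complex.exp ((Real.pi / f g * f (coc H g q) : ℝ) * Complex.I) else 0 : ℂ).re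
      < ∑ q : G ⧸ H, (if q = g • q then
        Complex.exp (((0 : ℝ) * f (coc H g q) : ℝ) * Complex.I) else 0 : ℂ).re := by
    refine Finset.sum_lt_sum ?_ ⟨q0, Finset.mem_univ _, ?_⟩
    · intro q _
      split_ifs
      · rw [Complex.exp_ofReal_mul_I_re, Complex.exp_ofReal_mul_I_re]
        simp only [zero_mul, Real.cos_zero]
        exact Real.cos_le_one _
      · exact le_rfl
    · rw [if_pos hfix, if_pos hfix, Complex.exp_ofReal_mul_I_re, Complex.exp_ofReal_mul_I_re]
      simp only [zero_mul, Real.cos_zero]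
      have hcoc : f (coc H g q0) = f g := by
        have h1 : coc H g q0 = q0.out⁻¹ * g * q0.out := by
          unfold coc
          rw [← hfix]
        have h2 : q0.out ∈ H := by
          have := QuotientGroup.out_eq' q0
          rw [hq0] at this ⊢
          have h3 := QuotientGroup.eq.mp this
          simpa using h3
        have h3 : f (q0.out⁻¹) = - f q0.out := by
          have := hf _ (H.inv_mem h2) _ h2
          rw [inv_mul_cancel, f_one hf] at this
          linarith
        rw [h1, hf _ (H.mul_mem (H.inv_mem h2) hg) _ h2, hf _ (H.inv_mem h2) _ hg, h3]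
        ring
      rw [hcoc, div_mul_cancel₀ _ hfg, Real.cos_pi]
      norm_num
  exact absurd hre (ne_of_lt hlt)

/-- vanishing at elements detected by a real character of a finite index subgroup -/
theorem vanish_of_mem {κ : Type*} [Fintype κ] [DecidableEq κ]
    (e : κ → κ → G → ℂ) (hsm : ∀ i j, Summable fun x => ‖e i j x‖)
    (hid : ∀ i k x, ∑ j, ∑' h, e i j h * e j k (h⁻¹ * x) = e i k x)
    (H : Subgroup G) [H.FiniteIndex] (f : G → ℝ)
    (hf : ∀ a ∈ H, ∀ b ∈ H, f (a * b) = f a + f b) (g : G) (hg : g ∈ H) (hfg : f g ≠ 0) :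
    hs e g = 0 := by
  classical
  have : Fintype (G ⧸ H) := H.fintypeQuotientOfFiniteIndex
  have h1 := deform e hsm hid (fun t : ℝ => ind H f hf t) (ind_continuous H f hf) 1
    (ind_bound H f hf) g (Real.pi / f g) 0
  have h2 := ind_trace_ne H f hf g hg hfg
  have h3 : ((ind H f hf (Real.pi / f g) g).trace - (ind H f hf 0 g).trace) * hs e g = 0 := by
    rw [sub_mul, h1, sub_self]
  rcases mul_eq_zero.mp h3 with h | h
  · exact absurd (sub_eq_zero.mp h) h2
  · exact h

/-- a real character of a normal subgroup `N`, averaged over the powers of `g` -/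
def avg (f : G → ℝ) (g : G) (m : ℕ) (x : G) : ℝ :=
  ∑ j ∈ Finset.range m, f (g ^ j * x * (g ^ j)⁻¹)

section ext

variable {N : Subgroup G} [hN : N.Normal] {f : G → ℝ}
  (hf : ∀ a ∈ N, ∀ b ∈ N, f (a * b) = f a + f b)

include hf in
theorem f_inv {a : G} (ha : a ∈ N) : f a⁻¹ = - f a := by
  have := hf _ (N.inv_mem ha) _ ha
  rw [inv_mul_cancel, f_one hf] at this
  linarith

include hN hf in
theorem avg_mul (g : G) (m : ℕ) : ∀ a ∈ N, ∀ b ∈ N, avg f g m (a * b) = avg f g m a + avg f g m b := by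
  intro a ha b hb
  unfold avg
  rw [← Finset.sum_add_distrib]
  refine Finset.sum_congr rfl fun j _ => ?_
  rw [← hf _ (hN.conj_mem a ha _) _ (hN.conj_mem b hb _)]
  congr 1
  group

include hf in
theorem avg_conj (g : G) (m : ℕ) (hm : g ^ m ∈ N) {x : G} (hx : x ∈ N) :
    avg f g m (g * x * g⁻¹) = avg f g m x := by
  have h1 : avg f g m (g * x * g⁻¹) = ∑ j ∈ Finset.range m, f (g ^ (j + 1) * x * (g ^ (j + 1))⁻¹) := by
    unfold avg
    refine Finset.sum_congr rfl fun j _ => ?_
    congr 1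
    rw [pow_succ]
    group
  have h2 := Finset.sum_range_succ' (fun j => f (g ^ j * x * (g ^ j)⁻¹)) m
  have h3 := Finset.sum_range_succ (fun j => f (g ^ j * x * (g ^ j)⁻¹)) m
  have h4 : f (g ^ m * x * (g ^ m)⁻¹) = f x := by
    rw [hf _ (N.mul_mem hm hx) _ (N.inv_mem hm), hf _ hm _ hx, f_inv hf hm]
    ring
  have h5 : f (g ^ 0 * x * (g ^ 0)⁻¹) = f x := by simp
  rw [h1]
  unfold avg
  linarith

include hf in
theorem avg_conj_inv (g : G) (m : ℕ) (hm : g ^ m ∈ N) {x : G} (hx : x ∈ N) :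
    avg f g m (g⁻¹ * x * g) = avg f g m x := by
  have h0 : g⁻¹ * x * g ∈ N := by
    have := hN.conj_mem x hx g⁻¹
    simpa using this
  have h1 := avg_conj hf g m hm h0
  rw [← h1]
  congr 1
  group

include hf in
theorem avg_conj_pow (g : G) (m : ℕ) (hm : g ^ m ∈ N) (i : ℤ) {x : G} (hx : x ∈ N) :
    avg f g m (g ^ i * x * (g ^ i)⁻¹) = avg f g m x := by
  induction i using Int.induction_on with
  | zero => simp
  | succ i ih =>
    have h : g ^ ((i : ℤ) + 1) * x * (g ^ ((i : ℤ) + 1))⁻¹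
        = g * (g ^ (i : ℤ) * x * (g ^ (i : ℤ))⁻¹) * g⁻¹ := by
      rw [add_comm, zpow_add, zpow_one]
      group
    rw [h, avg_conj hf g m hm (hN.conj_mem x hx _), ih]
  | pred i ih =>
    have h : g ^ (-(i : ℤ) - 1) * x * (g ^ (-(i : ℤ) - 1))⁻¹
        = g⁻¹ * (g ^ (-(i : ℤ)) * x * (g ^ (-(i : ℤ)))⁻¹) * g := by
      rw [sub_eq_add_neg, add_comm, zpow_add, zpow_neg_one]
      group
    rw [h, avg_conj_inv hf g m hm (hN.conj_mem x hx _), ih]

include hf in
theorem f_pow {a : G} (ha : a ∈ N) (n : ℕ) : f (a ^ n) = n * f a := by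
  induction n with
  | zero => simp [f_one hf]
  | succ n ih =>
    rw [pow_succ, hf _ (N.pow_mem ha n) _ ha, ih]
    push_cast
    ring

include hf in
theorem f_zpow {a : G} (ha : a ∈ N) (n : ℤ) : f (a ^ n) = n * f a := by
  obtain ⟨k, rfl | rfl⟩ := n.eq_nat_or_neg
  · rw [zpow_natCast, f_pow hf ha]
    simp
  · rw [zpow_neg, zpow_natCast, f_inv hf (N.pow_mem ha k), f_pow hf ha]
    push_cast
    ring

include hf in
theorem f_zpow_root {g : G} {m : ℕ} (hm : g ^ m ∈ N) {l : ℤ} (hl : g ^ l ∈ N) :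
    (m : ℝ) * f (g ^ l) = l * f (g ^ m) := by
  rw [← f_pow hf hl m, ← f_zpow hf hm l]
  congr 1
  rw [← zpow_natCast, ← zpow_natCast, ← zpow_mul, ← zpow_mul, mul_comm]

open Classical in
/-- the extension to the subgroup generated by `N` and `g` -/
noncomputable def extend (N : Subgroup G) (f : G → ℝ) (g : G) (m : ℕ) (x : G) : ℝ :=
  if h : ∃ i : ℤ, x * (g ^ i)⁻¹ ∈ N then
    m * avg f g m (x * (g ^ h.choose)⁻¹) + h.choose * avg f g m (g ^ m)
  else 0

include hf in
theorem extend_eq (g : G) (m : ℕ) (hm : g ^ m ∈ N) {x : G} {i : ℤ}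
    (hi : x * (g ^ i)⁻¹ ∈ N) :
    extend N f g m x = m * avg f g m (x * (g ^ i)⁻¹) + i * avg f g m (g ^ m) := by
  have hex : ∃ i : ℤ, x * (g ^ i)⁻¹ ∈ N := ⟨i, hi⟩
  unfold extend
  rw [dif_pos hex]
  set j := hex.choose with hj
  have hjN : x * (g ^ j)⁻¹ ∈ N := hex.choose_spec
  have hav := avg_mul hf g m
  have hij : g ^ (i - j) ∈ N := by
    have h1 := N.mul_mem (N.inv_mem hi) hjN
    have h2 : (x * (g ^ i)⁻¹)⁻¹ * (x * (g ^ j)⁻¹) = g ^ (i - j) := by
      rw [zpow_sub]
      group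
    rwa [h2] at h1
  have h3 : x * (g ^ j)⁻¹ = x * (g ^ i)⁻¹ * g ^ (i - j) := by
    rw [zpow_sub]
    group
  rw [h3, hav _ hi _ hij, mul_add]
  have h4 := f_zpow_root hav hm hij
  rw [h4]
  push_cast
  ring

include hf in
theorem extend_mul (g : G) (m : ℕ) (hm : g ^ m ∈ N) {x y : G}
    (hx : ∃ i : ℤ, x * (g ^ i)⁻¹ ∈ N) (hy : ∃ i : ℤ, y * (g ^ i)⁻¹ ∈ N) :
    extend N f g m (x * y) = extend N f g m x + extend N f g m y := by
  obtain ⟨i, hi⟩ := hx
  obtain ⟨j, hj⟩ := hy
  have h1 : x * y * (g ^ (i + j))⁻¹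
      = (x * (g ^ i)⁻¹) * (g ^ i * (y * (g ^ j)⁻¹) * (g ^ i)⁻¹) := by
    rw [zpow_add]
    group
  have h2 : g ^ i * (y * (g ^ j)⁻¹) * (g ^ i)⁻¹ ∈ N := hN.conj_mem _ hj _
  have h3 : x * y * (g ^ (i + j))⁻¹ ∈ N := by
    rw [h1]
    exact N.mul_mem hi h2
  rw [extend_eq hf g m hm h3, extend_eq hf g m hm hi, extend_eq hf g m hm hj, h1,
    avg_mul hf g m _ hi _ h2, avg_conj_pow hf g m hm i hj]
  push_cast
  ring

include hf in
theorem extend_self (g : G) (m : ℕ) (hm : g ^ m ∈ N) :
    extend N f g m g = m * f (g ^ m) := by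
  have h1 : g * (g ^ (1 : ℤ))⁻¹ ∈ N := by simp
  rw [extend_eq hf g m hm h1]
  have h2 : g * (g ^ (1 : ℤ))⁻¹ = 1 := by simp
  rw [h2, f_one (avg_mul hf g m)]
  have h3 : avg f g m (g ^ m) = m * f (g ^ m) := by
    unfold avg
    have : ∀ j ∈ Finset.range m, f (g ^ j * g ^ m * (g ^ j)⁻¹) = f (g ^ m) := by
      intro j _
      congr 1
      rw [← pow_add, add_comm, pow_add]
      group
    rw [Finset.sum_congr rfl this]
    simp
  rw [h3]
  simp

end ext

/-- vanishing at roots of elements detected by a real character of a finite index subgroup -/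
theorem vanish_of_pow {κ : Type*} [Fintype κ] [DecidableEq κ]
    (e : κ → κ → G → ℂ) (hsm : ∀ i j, Summable fun x => ‖e i j x‖)
    (hid : ∀ i k x, ∑ j, ∑' h, e i j h * e j k (h⁻¹ * x) = e i k x)
    (H : Subgroup G) [H.FiniteIndex] (f : G → ℝ)
    (hf : ∀ a ∈ H, ∀ b ∈ H, f (a * b) = f a + f b) (g : G) (k : ℕ) (hg : g ^ k ∈ H)
    (hfg : f (g ^ k) ≠ 0) :
    hs e g = 0 := by
  classical
  set N := H.normalCore with hNdef
  have hNH : N ≤ H := Subgroup.normalCore_le H
  have hfN : ∀ a ∈ N, ∀ b ∈ N, f (a * b) = f a + f b := fun a ha b hb => hf a (hNH ha) b (hNH hb)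
  -- a power of `g` in the core
  obtain ⟨l, hl0, hl⟩ : ∃ l : ℕ, 0 < l ∧ (g ^ k) ^ l ∈ N := by
    refine ⟨N.index, Nat.pos_of_ne_zero Subgroup.FiniteIndex.index_ne_zero, ?_⟩
    exact Subgroup.pow_index_mem N _
  set m := k * l with hm
  have hmN : g ^ m ∈ N := by rw [hm, pow_mul]; exact hl
  have hfm : f (g ^ m) ≠ 0 := by
    rw [hm, pow_mul]
    have h0 : ∀ n : ℕ, f ((g ^ k) ^ n) = n * f (g ^ k) := by
      intro n
      induction n with
      | zero => simp [f_one hf]
      | succ n ih =>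
        rw [pow_succ, hf _ (H.pow_mem hg n) _ hg, ih]
        push_cast
        ring
    rw [h0]
    exact mul_ne_zero (by exact_mod_cast hl0.ne') hfg
  have hm0 : m ≠ 0 := by
    intro h
    rw [h, pow_zero, f_one hfN] at hfm
    exact hfm rfl
  -- the subgroup generated by `N` and `g`
  set L : Subgroup G := (Subgroup.zpowers ((g : G ⧸ N))).comap (QuotientGroup.mk' N) with hL
  have hmem : ∀ x ∈ L, ∃ i : ℤ, x * (g ^ i)⁻¹ ∈ N := by
    intro x hx
    rw [hL, Subgroup.mem_comap] at hx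
    obtain ⟨i, hi⟩ := Subgroup.mem_zpowers_iff.mp hx
    refine ⟨i, ?_⟩
    have h1 : ((g ^ i : G) : G ⧸ N) = (x : G ⧸ N) := by
      rw [QuotientGroup.mk_zpow]
      exact hi
    have h2 := QuotientGroup.eq.mp h1
    have h3 := (inferInstance : N.Normal).mem_comm h2
    exact h3
  have hNL : N ≤ L := by
    intro x hx
    rw [hL, Subgroup.mem_comap]
    have : (QuotientGroup.mk' N) x = 1 := (QuotientGroup.eq_one_iff x).mpr hx
    rw [this]
    exact Subgroup.one_mem _
  have hLfin : L.FiniteIndex := Subgroup.finiteIndex_of_le hNL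
  have hgL : g ∈ L := by
    rw [hL, Subgroup.mem_comap]
    exact Subgroup.mem_zpowers _
  refine vanish_of_mem e hsm hid L (extend N f g m)
    (fun a ha b hb => extend_mul hfN g m hmN (hmem a ha) (hmem b hb)) g hgL ?_
  rw [extend_self hfN g m hmN]
  exact mul_ne_zero (by exact_mod_cast hm0) hfm

end Vale.Agent.P184
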