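import Mathlib

/-!
The convolution ring of absolutely summable functions `G → A`, `A` a complete normed ring.
-/

namespace Vale.Agent.P184

open Filter Topology

variable {G : Type*} [Group G] {A : Type*} [NormedRing A]

/-- convolution of functions on a group -/
noncomputable def conv (f g : G → A) : G → A := fun y => ∑' h, f h * g (h⁻¹ * y)

/-- reindexing `(h, x) ↦ (h, h * x)` -/
def shear (G : Type*) [Group G] : G × G ≃ G × G where
  toFun p := (p.1, p.1 * p.2)
  invFun p := (p.1, p.1⁻¹ * p.2)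
  left_inv p := by simp
  right_inv p := by simp

variable [CompleteSpace A]

theorem summable_norm_pair {f g : G → A} (hf : Summable fun x => ‖f x‖)
    (hg : Summable fun x => ‖g x‖) :
    Summable fun p : G × G => ‖f p.1 * g (p.1⁻¹ * p.2)‖ := by
  have h1 : Summable fun p : G × G => ‖f p.1 * g p.2‖ := by
    have h0 : Summable fun p : G × G => ‖f p.1‖ * ‖g p.2‖ :=
      hf.mul_of_nonneg hg (fun _ => norm_nonneg _) (fun _ => norm_nonneg _)
    exact h0.of_nonneg_of_le (fun _ => norm_nonneg _) (fun _ => norm_mul_le _ _)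
  have h2 := (shear G).symm.summable_iff.mpr h1
  refine h2.congr ?_
  intro p
  simp [shear, Function.comp]

theorem summable_pair {f g : G → A} (hf : Summable fun x => ‖f x‖)
    (hg : Summable fun x => ‖g x‖) :
    Summable fun p : G × G => f p.1 * g (p.1⁻¹ * p.2) :=
  (summable_norm_pair hf hg).of_norm

theorem summable_row {f g : G → A} (hf : Summable fun x => ‖f x‖)
    (hg : Summable fun x => ‖g x‖) (y : G) :
    Summable fun h : G => ‖f h * g (h⁻¹ * y)‖ := by
  have h := (summable_norm_pair hf hg)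
  have h3 := h.comp_injective (i := fun h : G => ((h, y) : G × G))
    (fun a b hab => by simpa using congrArg Prod.fst hab)
  exact h3

theorem conv_norm_le {f g : G → A} (hf : Summable fun x => ‖f x‖)
    (hg : Summable fun x => ‖g x‖) (y : G) :
    ‖conv f g y‖ ≤ ∑' h, ‖f h * g (h⁻¹ * y)‖ :=
  norm_tsum_le_tsum_norm (summable_row hf hg y)

theorem summable_swap {f g : G → A} (hf : Summable fun x => ‖f x‖)
    (hg : Summable fun x => ‖g x‖) :
    Summable fun p : G × G => ‖f p.2 * g (p.2⁻¹ * p.1)‖ := by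
  have h2 := (Equiv.prodComm G G).summable_iff.mpr (summable_norm_pair hf hg)
  exact h2

theorem summable_conv {f g : G → A} (hf : Summable fun x => ‖f x‖)
    (hg : Summable fun x => ‖g x‖) : Summable fun y => ‖conv f g y‖ := by
  have h := (summable_swap hf hg).prod
  exact h.of_nonneg_of_le (fun _ => norm_nonneg _) (fun y => conv_norm_le hf hg y)

theorem tsum_norm_conv_le {f g : G → A} (hf : Summable fun x => ‖f x‖)
    (hg : Summable fun x => ‖g x‖) :
    ∑' y, ‖conv f g y‖ ≤ (∑' x, ‖f x‖) * ∑' x, ‖g x‖ := by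
  have h1 : ∑' y, ‖conv f g y‖ ≤ ∑' y, ∑' h, ‖f h * g (h⁻¹ * y)‖ :=
    (summable_conv hf hg).tsum_le_tsum (fun y => conv_norm_le hf hg y) (summable_swap hf hg).prod
  have h2 : ∑' y, ∑' h, ‖f h * g (h⁻¹ * y)‖ = ∑' p : G × G, ‖f p.2 * g (p.2⁻¹ * p.1)‖ :=
    (Summable.tsum_prod (summable_swap hf hg)).symm
  have h3 : ∑' p : G × G, ‖f p.2 * g (p.2⁻¹ * p.1)‖ = ∑' p : G × G, ‖f p.1 * g (p.1⁻¹ * p.2)‖ :=
    (Equiv.prodComm G G).tsum_eq (fun p : G × G => ‖f p.1 * g (p.1⁻¹ * p.2)‖)
  have h4 : ∑' p : G × G, ‖f p.1 * g (p.1⁻¹ * p.2)‖ = ∑' p : G × G, ‖f p.1 * g p.2‖ := by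
    rw [← (shear G).tsum_eq (fun p : G × G => ‖f p.1 * g (p.1⁻¹ * p.2)‖)]
    refine tsum_congr fun p => ?_
    simp [shear]
  have h0 : Summable fun p : G × G => ‖f p.1‖ * ‖g p.2‖ :=
    hf.mul_of_nonneg hg (fun _ => norm_nonneg _) (fun _ => norm_nonneg _)
  have h5 : ∑' p : G × G, ‖f p.1 * g p.2‖ ≤ ∑' p : G × G, ‖f p.1‖ * ‖g p.2‖ :=
    (h0.of_nonneg_of_le (fun _ => norm_nonneg _) (fun _ => norm_mul_le _ _)).tsum_le_tsum
      (fun _ => norm_mul_le _ _) h0
  have h6 : (∑' x, ‖f x‖) * ∑' x, ‖g x‖ = ∑' p : G × G, ‖f p.1‖ * ‖g p.2‖ :=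
    hf.tsum_mul_tsum hg h0
  linarith

/-- absolutely summable functions -/
def L1 (G : Type*) (A : Type*) [NormedRing A] : Type _ :=
  {f : G → A // Summable fun x => ‖f x‖}

namespace L1

instance : CoeFun (L1 G A) (fun _ => G → A) := ⟨fun f => f.1⟩

omit [Group G] [CompleteSpace A] in
@[ext] theorem ext {f g : L1 G A} (h : ∀ x, f x = g x) : f = g := Subtype.ext (funext h)

instance : Zero (L1 G A) := ⟨⟨fun _ => 0, by simp⟩⟩
instance : Add (L1 G A) := ⟨fun f g => ⟨fun x => f x + g x,
  (f.2.add g.2).of_nonneg_of_le (fun _ => norm_nonneg _) (fun _ => norm_add_le _ _)⟩⟩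
instance : Neg (L1 G A) := ⟨fun f => ⟨fun x => - f x, by simpa using f.2⟩⟩
instance : Sub (L1 G A) := ⟨fun f g => ⟨fun x => f x - g x,
  (f.2.add g.2).of_nonneg_of_le (fun _ => norm_nonneg _) (fun _ => norm_sub_le _ _)⟩⟩
noncomputable instance : Mul (L1 G A) := ⟨fun f g => ⟨conv f.1 g.1, summable_conv f.2 g.2⟩⟩
open Classical in
noncomputable instance : One (L1 G A) := ⟨⟨fun x => if x = 1 then 1 else 0, by
  refine summable_of_ne_finset_zero (s := {1}) ?_
  intro x hx
  have : x ≠ 1 := by simpa using hx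
  simp [this]⟩⟩

omit [Group G] [CompleteSpace A] in
@[simp] theorem zero_apply (x : G) : (0 : L1 G A) x = 0 := rfl
omit [Group G] [CompleteSpace A] in
@[simp] theorem add_apply (f g : L1 G A) (x : G) : (f + g) x = f x + g x := rfl
omit [Group G] [CompleteSpace A] in
@[simp] theorem neg_apply (f : L1 G A) (x : G) : (-f) x = - f x := rfl
omit [Group G] [CompleteSpace A] in
@[simp] theorem sub_apply (f g : L1 G A) (x : G) : (f - g) x = f x - g x := rfl
theorem mul_apply (f g : L1 G A) (y : G) : (f * g) y = ∑' h, f h * g (h⁻¹ * y) := rfl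
open Classical in
omit [CompleteSpace A] in
theorem one_apply (x : G) : (1 : L1 G A) x = if x = 1 then 1 else 0 := rfl

theorem row (f g : L1 G A) (y : G) : Summable fun h : G => f h * g (h⁻¹ * y) :=
  (summable_row f.2 g.2 y).of_norm

omit [Group G] [CompleteSpace A] in
theorem norm_le_tsum (f : L1 G A) (x : G) : ‖f x‖ ≤ ∑' y, ‖f y‖ :=
  f.2.le_tsum x (fun _ _ => norm_nonneg _)

theorem mul_assoc' (f g k : L1 G A) : f * g * k = f * (g * k) := by
  ext y
  have hS : Summable fun p : G × G => f p.1 * g (p.1⁻¹ * p.2) * k (p.2⁻¹ * y) := by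
    have h1 := (summable_norm_pair f.2 g.2).mul_right (∑' y, ‖k y‖)
    refine Summable.of_norm_bounded h1 ?_
    intro p
    refine (norm_mul_le _ _).trans ?_
    exact mul_le_mul_of_nonneg_left (norm_le_tsum k _) (norm_nonneg _)
  have hL : (f * g * k) y = ∑' u, ∑' h, f h * g (h⁻¹ * u) * k (u⁻¹ * y) := by
    rw [mul_apply]
    refine tsum_congr fun u => ?_
    rw [mul_apply, (row f g u).tsum_mul_right]
  have hR : (f * (g * k)) y = ∑' h, ∑' u, f h * g (h⁻¹ * u) * k (u⁻¹ * y) := by
    rw [mul_apply]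
    refine tsum_congr fun h => ?_
    rw [mul_apply, ← (row g k (h⁻¹ * y)).tsum_mul_left]
    rw [← (Equiv.mulLeft h⁻¹).tsum_eq]
    refine tsum_congr fun u => ?_
    simp [mul_assoc]
  rw [hL, hR]
  exact (Summable.tsum_comm (f := fun h u => f h * g (h⁻¹ * u) * k (u⁻¹ * y)) hS)

theorem left_distrib' (f g k : L1 G A) : f * (g + k) = f * g + f * k := by
  ext y
  simp only [mul_apply, add_apply]
  rw [← (row f g y).tsum_add (row f k y)]
  exact tsum_congr fun h => by rw [mul_add]

theorem right_distrib' (f g k : L1 G A) : (f + g) * k = f * k + g * k := by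
  ext y
  simp only [mul_apply, add_apply]
  rw [← (row f k y).tsum_add (row g k y)]
  exact tsum_congr fun h => by rw [add_mul]

theorem one_mul' (f : L1 G A) : 1 * f = f := by
  ext y
  rw [mul_apply, tsum_eq_single 1]
  · simp [one_apply]
  · intro h hh
    simp [one_apply, hh]

theorem mul_one' (f : L1 G A) : f * 1 = f := by
  ext y
  rw [mul_apply, tsum_eq_single y]
  · simp [one_apply]
  · intro h hh
    have : ¬ (h⁻¹ * y = 1) := by
      intro hc
      apply hh
      have := inv_mul_eq_one.mp hc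
      exact this
    simp [one_apply, this]

noncomputable instance : Ring (L1 G A) where
  add_assoc f g h := by ext; simp [add_assoc]
  zero_add f := by ext; simp
  add_zero f := by ext; simp
  add_comm f g := by ext; simp [add_comm]
  neg_add_cancel f := by ext; simp
  sub_eq_add_neg f g := by ext; simp [sub_eq_add_neg]
  left_distrib := left_distrib'
  right_distrib := right_distrib'
  zero_mul f := by ext y; simp [mul_apply]
  mul_zero f := by ext y; simp [mul_apply]
  mul_assoc := mul_assoc'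
  one_mul := one_mul'
  mul_one := mul_one'
  nsmul := nsmulRec
  zsmul := zsmulRec
  npow := npowRec

/-- the `l1` norm -/
noncomputable def nm (f : L1 G A) : ℝ := ∑' x, ‖f x‖

omit [Group G] [CompleteSpace A] in
theorem nm_nonneg (f : L1 G A) : 0 ≤ nm f := tsum_nonneg fun _ => norm_nonneg _

theorem nm_mul_le (f g : L1 G A) : nm (f * g) ≤ nm f * nm g :=
  tsum_norm_conv_le f.2 g.2

theorem nm_pow_le (f : L1 G A) (n : ℕ) : nm (f ^ (n + 1)) ≤ nm f ^ (n + 1) := by
  induction n with
  | zero => simp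
  | succ n ih =>
    rw [pow_succ, pow_succ (nm f)]
    exact (nm_mul_le _ _).trans (mul_le_mul_of_nonneg_right ih (nm_nonneg f))

end L1

end Vale.Agent.P184
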