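import Mathlib

/-!
P184: an additive character of the centralizer from a finite dimensional linear representation over
a field with an absolute value.
-/

open Module

namespace Vale.Agent.P184

universe u v w

namespace LIN

variable {K : Type v} [Field K] (f : AbsoluteValue K ℝ)

/-- sum of the absolute values of the entries -/
noncomputable def NN {n : ℕ} (A : Matrix (Fin n) (Fin n) K) : ℝ := ∑ i, ∑ j, f (A i j)

theorem NN_nonneg {n : ℕ} (A : Matrix (Fin n) (Fin n) K) : 0 ≤ NN f A :=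
  Finset.sum_nonneg fun i _ => Finset.sum_nonneg fun j _ => f.nonneg _

theorem NN_mul {n : ℕ} (A B : Matrix (Fin n) (Fin n) K) : NN f (A * B) ≤ NN f A * NN f B := by
  unfold NN
  calc ∑ i, ∑ j, f ((A * B) i j) ≤ ∑ i, ∑ j, ∑ k, f (A i k) * f (B k j) := by
        refine Finset.sum_le_sum fun i _ => Finset.sum_le_sum fun j _ => ?_
        rw [Matrix.mul_apply]
        refine (f.sum_le _ _).trans (le_of_eq ?_)
        exact Finset.sum_congr rfl fun k _ => f.map_mul _ _
    _ = ∑ i, ∑ k, f (A i k) * ∑ j, f (B k j) := by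
        refine Finset.sum_congr rfl fun i _ => ?_
        rw [Finset.sum_comm]
        exact Finset.sum_congr rfl fun k _ => by rw [Finset.mul_sum]
    _ ≤ ∑ i, ∑ k, f (A i k) * ∑ k', ∑ j, f (B k' j) := by
        refine Finset.sum_le_sum fun i _ => Finset.sum_le_sum fun k _ => ?_
        refine mul_le_mul_of_nonneg_left ?_ (f.nonneg _)
        exact Finset.single_le_sum (f := fun k' => ∑ j, f (B k' j))
          (fun k' _ => Finset.sum_nonneg fun j _ => f.nonneg _) (Finset.mem_univ k)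
    _ = _ := by
        rw [Finset.sum_mul]
        exact Finset.sum_congr rfl fun i _ => by rw [Finset.sum_mul]

theorem NN_one {n : ℕ} (hn : 0 < n) : 1 ≤ NN f (1 : Matrix (Fin n) (Fin n) K) := by
  unfold NN
  have h1 : f ((1 : Matrix (Fin n) (Fin n) K) ⟨0, hn⟩ ⟨0, hn⟩) ≤
      ∑ j, f ((1 : Matrix (Fin n) (Fin n) K) ⟨0, hn⟩ j) :=
    Finset.single_le_sum (f := fun j => f ((1 : Matrix (Fin n) (Fin n) K) ⟨0, hn⟩ j))
      (fun j _ => f.nonneg _) (Finset.mem_univ _)
  have h2 : ∑ j, f ((1 : Matrix (Fin n) (Fin n) K) ⟨0, hn⟩ j) ≤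
      ∑ i, ∑ j, f ((1 : Matrix (Fin n) (Fin n) K) i j) :=
    Finset.single_le_sum (f := fun i => ∑ j, f ((1 : Matrix (Fin n) (Fin n) K) i j))
      (fun i _ => Finset.sum_nonneg fun j _ => f.nonneg _) (Finset.mem_univ _)
  rw [Matrix.one_apply_eq, f.map_one] at h1
  exact h1.trans h2

theorem func_bound {n : ℕ} (φ : Matrix (Fin n) (Fin n) K →ₗ[K] K) :
    ∃ C : ℝ, 0 ≤ C ∧ ∀ A, f (φ A) ≤ C * NN f A := by
  refine ⟨∑ i, ∑ j, f (φ (Matrix.single i j 1)), Finset.sum_nonneg fun i _ =>
    Finset.sum_nonneg fun j _ => f.nonneg _, fun A => ?_⟩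
  have hA : φ A = ∑ i, ∑ j, A i j * φ (Matrix.single i j 1) := by
    conv_lhs => rw [Matrix.matrix_eq_sum_single A]
    rw [map_sum]
    refine Finset.sum_congr rfl fun i _ => ?_
    rw [map_sum]
    refine Finset.sum_congr rfl fun j _ => ?_
    have : Matrix.single i j (A i j) = A i j • Matrix.single i j (1 : K) := by
      rw [Matrix.smul_single, smul_eq_mul, mul_one]
    rw [this, map_smul, smul_eq_mul]
  rw [hA]
  refine (f.sum_le _ _).trans ?_
  unfold NN
  rw [Finset.mul_sum]
  refine Finset.sum_le_sum fun i _ => ?_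
  refine (f.sum_le _ _).trans ?_
  rw [Finset.mul_sum]
  refine Finset.sum_le_sum fun j _ => ?_
  rw [f.map_mul, mul_comm]
  refine mul_le_mul_of_nonneg_right ?_ (f.nonneg _)
  calc f (φ (Matrix.single i j 1)) ≤ ∑ j, f (φ (Matrix.single i j 1)) :=
        Finset.single_le_sum (f := fun j => f (φ (Matrix.single i j 1)))
          (fun j _ => f.nonneg _) (Finset.mem_univ j)
    _ ≤ _ := Finset.single_le_sum (f := fun i => ∑ j, f (φ (Matrix.single i j 1)))
          (fun i _ => Finset.sum_nonneg fun j _ => f.nonneg _) (Finset.mem_univ i)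

theorem det_bound {n m : ℕ} (Φ : Matrix (Fin n) (Fin n) K →ₗ[K] Matrix (Fin m) (Fin m) K) :
    ∃ C : ℝ, 1 ≤ C ∧ ∀ A, f (Φ A).det ≤ C * NN f A ^ m := by
  have h1 : ∀ i j : Fin m, ∃ C : ℝ, 0 ≤ C ∧ ∀ A, f (Φ A i j) ≤ C * NN f A := by
    intro i j
    have := func_bound f ((LinearMap.proj j ∘ₗ LinearMap.proj i ∘ₗ Φ :
      Matrix (Fin n) (Fin n) K →ₗ[K] K))
    exact this
  choose C hC0 hC using h1
  set D : ℝ := ∑ i, ∑ j, C i j with hD
  have hD0 : 0 ≤ D := Finset.sum_nonneg fun i _ => Finset.sum_nonneg fun j _ => hC0 i j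
  have hle : ∀ i j, C i j ≤ D := by
    intro i j
    calc C i j ≤ ∑ j, C i j := Finset.single_le_sum (f := fun j => C i j)
          (fun j _ => hC0 i j) (Finset.mem_univ j)
      _ ≤ _ := Finset.single_le_sum (f := fun i => ∑ j, C i j)
          (fun i _ => Finset.sum_nonneg fun j _ => hC0 i j) (Finset.mem_univ i)
  refine ⟨max 1 ((m.factorial : ℝ) * D ^ m), le_max_left _ _, fun A => ?_⟩
  have h2 : f (Φ A).det ≤ Nat.factorial (Fintype.card (Fin m)) • (D * NN f A) ^ Fintype.card (Fin m) :=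
    Matrix.det_le fun i j => (hC i j A).trans
      (mul_le_mul_of_nonneg_right (hle i j) (NN_nonneg f A))
  rw [Fintype.card_fin, nsmul_eq_mul, mul_pow, ← mul_assoc] at h2
  exact h2.trans (mul_le_mul_of_nonneg_right (le_max_right _ _) (pow_nonneg (NN_nonneg f A) m))

end LIN

open LIN in
theorem lin {G : Type u} [Group G] {K : Type v} [Field K] (f : AbsoluteValue K ℝ) {V : Type w}
    [AddCommGroup V] [Module K V] [FiniteDimensional K V] (ρ : G →* (V →ₗ[K] V)) (g : G) (lam : K)
    (hlam : Module.End.HasEigenvalue (ρ g) lam) (hf : f lam ≠ 1) :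
    ∃ (ℓ : G → ℝ) (χ : G → ℝ), (∀ x y, ℓ (x * y) ≤ ℓ x + ℓ y) ∧ (∀ x, ℓ x⁻¹ = ℓ x) ∧
      (∀ a ∈ Subgroup.centralizer ({g} : Set G), ∀ b ∈ Subgroup.centralizer ({g} : Set G),
        χ (a * b) = χ a + χ b) ∧ χ g ≠ 0 ∧
      ∀ a ∈ Subgroup.centralizer ({g} : Set G), |χ a| ≤ ℓ a := by
  classical
  -- the eigenspace
  set E : Submodule K V := Module.End.eigenspace (ρ g) lam with hE
  have hEne : E ≠ ⊥ := hlam
  have hmem : ∀ v, v ∈ E ↔ ρ g v = lam • v := fun v => Module.End.mem_eigenspace_iff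
  obtain ⟨v0, hv0, hv0ne⟩ := (Submodule.ne_bot_iff E).1 hEne
  have hlam0 : lam ≠ 0 := by
    rintro rfl
    have h1 : ρ g v0 = 0 := by rw [(hmem v0).1 hv0, zero_smul]
    have h2 : ρ (g⁻¹ * g) v0 = 0 := by
      rw [map_mul, Module.End.mul_apply, h1, map_zero]
    rw [inv_mul_cancel, map_one, Module.End.one_apply] at h2
    exact hv0ne h2
  have hinvE : ∀ a : G, a * g = g * a → ∀ v ∈ E, ρ a v ∈ E := by
    intro a ha v hv
    rw [hmem] at hv ⊢
    rw [← Module.End.mul_apply, ← map_mul, ← ha, map_mul, Module.End.mul_apply, hv, map_smul]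
  -- projection
  obtain ⟨P, hP⟩ := LinearMap.exists_leftInverse_of_injective E.subtype E.ker_subtype
  have hPE : ∀ v (hv : v ∈ E), P v = ⟨v, hv⟩ := fun v hv => LinearMap.congr_fun hP ⟨v, hv⟩
  let D : (V →ₗ[K] V) → (E →ₗ[K] E) := fun A => P ∘ₗ A ∘ₗ E.subtype
  have hDmul : ∀ a b : G, b * g = g * b → D (ρ (a * b)) = D (ρ a) * D (ρ b) := by
    intro a b hb
    ext v
    have h1 : ρ b (v : V) ∈ E := hinvE b hb v v.2
    show ((P (ρ (a * b) (v : V)) : E) : V) = ((P (ρ a ((P (ρ b (v : V)) : E) : V)) : E) : V)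
    rw [hPE _ h1, map_mul, Module.End.mul_apply]
  have hD1 : D (ρ 1) = 1 := by
    ext v
    show ((P (ρ 1 (v : V)) : E) : V) = (v : V)
    rw [map_one, Module.End.one_apply, hPE _ v.2]
  have hDg : D (ρ g) = lam • (1 : E →ₗ[K] E) := by
    ext v
    show ((P (ρ g (v : V)) : E) : V) = lam • (v : V)
    rw [(hmem v).1 v.2, map_smul, hPE _ v.2]
    rfl
  have hdet : ∀ a : G, a * g = g * a → LinearMap.det (D (ρ a)) ≠ 0 := by
    intro a ha h0
    have ha' : a⁻¹ * g = g * a⁻¹ := by
      have : Commute a g := ha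
      exact this.inv_left
    have h1 : LinearMap.det (D (ρ (a * a⁻¹))) = 0 := by
      rw [hDmul a a⁻¹ ha', map_mul, h0, zero_mul]
    rw [mul_inv_cancel, hD1, map_one] at h1
    exact one_ne_zero h1
  -- bases
  let b := Module.finBasis K V
  let c := Module.finBasis K E
  set n := Module.finrank K V with hn
  set m := Module.finrank K E with hm
  have hnpos : 0 < n := by
    have : Nontrivial V := ⟨v0, 0, hv0ne⟩
    exact Module.finrank_pos
  have hmpos : 0 < m := by
    have : Nontrivial E := Submodule.nontrivial_iff_ne_bot.2 hEne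
    exact Module.finrank_pos
  let N : (V →ₗ[K] V) → ℝ := fun A => NN f (LinearMap.toMatrix b b A)
  have hN0 : ∀ A, 0 ≤ N A := fun A => NN_nonneg f _
  have hNmul : ∀ A B, N (A * B) ≤ N A * N B := by
    intro A B
    show NN f (LinearMap.toMatrix b b (A * B)) ≤ _
    rw [LinearMap.toMatrix_mul]
    exact NN_mul f _ _
  have hN1 : 1 ≤ N 1 := by
    show 1 ≤ NN f (LinearMap.toMatrix b b 1)
    rw [LinearMap.toMatrix_one]
    exact NN_one f hnpos
  -- the determinant bound
  obtain ⟨C, hC1, hC⟩ := det_bound f (n := n) (m := m)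
    ((LinearMap.toMatrix c c).toLinearMap ∘ₗ
      (LinearMap.llcomp K E V E P) ∘ₗ (LinearMap.lcomp K V E.subtype) ∘ₗ
      (LinearMap.toMatrix b b).symm.toLinearMap)
  have hbound : ∀ A : V →ₗ[K] V, f (LinearMap.det (D A)) ≤ C * N A ^ m := by
    intro A
    have h1 := hC (LinearMap.toMatrix b b A)
    have h2 : ((LinearMap.toMatrix c c).toLinearMap ∘ₗ
      (LinearMap.llcomp K E V E P) ∘ₗ (LinearMap.lcomp K V E.subtype) ∘ₗ
      (LinearMap.toMatrix b b).symm.toLinearMap) (LinearMap.toMatrix b b A)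
        = LinearMap.toMatrix c c (D A) := by
      simp only [LinearMap.comp_apply, LinearEquiv.coe_coe, LinearEquiv.symm_apply_apply]
      rfl
    rw [h2, LinearMap.det_toMatrix] at h1
    exact h1
  have hCpos : 0 < C := by linarith
  -- the length function
  let W : G → ℝ := fun x => max (N (ρ x)) (N (ρ x⁻¹))
  have hprod : ∀ x, 1 ≤ N (ρ x) * N (ρ x⁻¹) := by
    intro x
    have := hNmul (ρ x) (ρ x⁻¹)
    rw [← map_mul, mul_inv_cancel, map_one] at this
    exact hN1.trans this
  have hNpos : ∀ x, 0 < N (ρ x) := by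
    intro x
    rcases (hN0 (ρ x)).lt_or_eq with h | h
    · exact h
    · exfalso
      have := hprod x
      rw [← h, zero_mul] at this
      linarith
  have hW1 : ∀ x, 1 ≤ W x := by
    intro x
    by_contra hcon
    rw [not_le] at hcon
    have h1 : N (ρ x) < 1 := (le_max_left _ _).trans_lt hcon
    have h2 : N (ρ x⁻¹) < 1 := (le_max_right _ _).trans_lt hcon
    have h3 := hprod x
    have h4 := hNpos x
    have h5 := hNpos x⁻¹
    nlinarith
  have hWmul : ∀ x y, W (x * y) ≤ W x * W y := by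
    intro x y
    have hWx := hW1 x
    have hWy := hW1 y
    apply max_le
    · rw [map_mul]
      exact (hNmul _ _).trans (mul_le_mul (le_max_left _ _) (le_max_left _ _) (hN0 _) (by linarith))
    · rw [mul_inv_rev, map_mul, mul_comm (W x)]
      exact (hNmul _ _).trans (mul_le_mul (le_max_right _ _) (le_max_right _ _) (hN0 _) (by linarith))
  have hlogC : 0 ≤ Real.log C := Real.log_nonneg hC1
  let χ : G → ℝ := fun a => Real.log (f (LinearMap.det (D (ρ a))))
  have hadd : ∀ a : G, a * g = g * a → ∀ b : G, b * g = g * b → χ (a * b) = χ a + χ b := by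
    intro a ha b hb
    show Real.log (f (LinearMap.det (D (ρ (a * b))))) = _
    rw [hDmul a b hb, map_mul, f.map_mul, Real.log_mul]
    · exact (f.pos (hdet a ha)).ne'
    · exact (f.pos (hdet b hb)).ne'
  have hχ1 : χ 1 = 0 := by
    show Real.log (f (LinearMap.det (D (ρ 1)))) = 0
    rw [hD1, map_one, f.map_one, Real.log_one]
  have hle1 : ∀ a : G, a * g = g * a → χ a ≤ Real.log C + m * Real.log (N (ρ a)) := by
    intro a ha
    have h1 := Real.log_le_log (f.pos (hdet a ha)) (hbound (ρ a))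
    rwa [Real.log_mul hCpos.ne' (pow_pos (hNpos a) m).ne', Real.log_pow] at h1
  refine ⟨fun x => Real.log C + m * Real.log (W x), χ, ?_, ?_, ?_, ?_, ?_⟩
  · intro x y
    have hx := hW1 x
    have hy := hW1 y
    have hxy := hW1 (x * y)
    have h1 : Real.log (W (x * y)) ≤ Real.log (W x) + Real.log (W y) := by
      rw [← Real.log_mul (by linarith) (by linarith)]
      exact Real.log_le_log (by linarith) (hWmul x y)
    have h2 : (m : ℝ) * Real.log (W (x * y)) ≤ m * (Real.log (W x) + Real.log (W y)) :=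
      mul_le_mul_of_nonneg_left h1 (Nat.cast_nonneg m)
    show Real.log C + m * Real.log (W (x * y)) ≤ (Real.log C + m * Real.log (W x)) +
      (Real.log C + m * Real.log (W y))
    linarith
  · intro x
    show Real.log C + m * Real.log (W x⁻¹) = Real.log C + m * Real.log (W x)
    have : W x⁻¹ = W x := by
      show max (N (ρ x⁻¹)) (N (ρ x⁻¹⁻¹)) = max (N (ρ x)) (N (ρ x⁻¹))
      rw [inv_inv, max_comm]
    rw [this]
  · intro a ha b hb
    exact hadd a (Subgroup.mem_centralizer_singleton_iff.1 ha) b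
      (Subgroup.mem_centralizer_singleton_iff.1 hb)
  · show Real.log (f (LinearMap.det (D (ρ g)))) ≠ 0
    rw [hDg, LinearMap.det_smul, map_one, mul_one, f.map_pow, Real.log_pow]
    refine mul_ne_zero (by exact_mod_cast hmpos.ne') ?_
    exact Real.log_ne_zero_of_pos_of_ne_one (f.pos hlam0) hf
  · intro a ha
    have ha1 : a * g = g * a := Subgroup.mem_centralizer_singleton_iff.1 ha
    have ha2 : a⁻¹ * g = g * a⁻¹ := by
      have : Commute a g := ha1
      exact this.inv_left
    have h1 := hle1 a ha1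
    have h2 := hle1 a⁻¹ ha2
    have h3 : χ a + χ a⁻¹ = 0 := by
      rw [← hadd a ha1 a⁻¹ ha2, mul_inv_cancel, hχ1]
    have h4 : Real.log (N (ρ a)) ≤ Real.log (W a) := Real.log_le_log (hNpos a) (le_max_left _ _)
    have h5 : Real.log (N (ρ a⁻¹)) ≤ Real.log (W a) := Real.log_le_log (hNpos _) (le_max_right _ _)
    have h6 := mul_le_mul_of_nonneg_left h4 (Nat.cast_nonneg (α := ℝ) m)
    have h7 := mul_le_mul_of_nonneg_left h5 (Nat.cast_nonneg (α := ℝ) m)
    show |χ a| ≤ Real.log C + m * Real.log (W a)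
    rw [abs_le]
    constructor <;> linarith

end Vale.Agent.P184
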