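import Vale.Agent.P184.Defs

/-!
# P184, module MAIN
-/

namespace Vale.Agent.P184

universe u

namespace MainX

open Matrix

attribute [local instance] Matrix.linftyOpNormedRing Matrix.linftyOpNormedAlgebra

variable {R : Type u} [NormedRing R] [NormedAlgebra ℂ R] {q : ℕ}

theorem norm_le_sum (a : Matrix (Fin q) (Fin q) R) : ‖a‖ ≤ ∑ i, ∑ j, ‖a i j‖ := by
  rw [Matrix.linfty_opNorm_def]
  have h : ((Finset.univ : Finset (Fin q)).sup fun i => ∑ j, ‖a i j‖₊) ≤ ∑ i, ∑ j, ‖a i j‖₊ := by
    refine Finset.sup_le fun i hi => ?_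
    exact Finset.single_le_sum (f := fun i => ∑ j, ‖a i j‖₊) (fun _ _ => zero_le) hi
  have h2 : (((Finset.univ : Finset (Fin q)).sup fun i => ∑ j, ‖a i j‖₊ : NNReal) : ℝ) ≤
      ((∑ i, ∑ j, ‖a i j‖₊ : NNReal) : ℝ) := NNReal.coe_le_coe.2 h
  refine h2.trans (le_of_eq ?_)
  push_cast
  rfl

theorem entry_le (a : Matrix (Fin q) (Fin q) R) (i j : Fin q) : ‖a i j‖ ≤ ‖a‖ := by
  rw [Matrix.linfty_opNorm_def]
  have h1 : ‖a i j‖₊ ≤ ∑ j, ‖a i j‖₊ :=
    Finset.single_le_sum (f := fun j => ‖a i j‖₊) (fun _ _ => zero_le) (Finset.mem_univ j)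
  have h2 : (∑ j, ‖a i j‖₊) ≤ (Finset.univ : Finset (Fin q)).sup fun i => ∑ j, ‖a i j‖₊ :=
    Finset.le_sup (f := fun i => ∑ j, ‖a i j‖₊) (Finset.mem_univ i)
  exact NNReal.coe_le_coe.2 (h1.trans h2)

/-- the trace functional on matrices -/
noncomputable def TM (T : R →L[ℂ] ℂ) : Matrix (Fin q) (Fin q) R →L[ℂ] ℂ :=
  LinearMap.mkContinuous
    { toFun := fun a => ∑ i, T (a i i)
      map_add' := fun a b => by
        simp only [Matrix.add_apply, map_add, Finset.sum_add_distrib]
      map_smul' := fun c a => by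
        simp only [Matrix.smul_apply, map_smul, Finset.smul_sum, RingHom.id_apply] }
    (q * ‖T‖) (fun a => by
      show ‖∑ i, T (a i i)‖ ≤ _
      refine (norm_sum_le _ _).trans ?_
      have : ∀ i ∈ (Finset.univ : Finset (Fin q)), ‖T (a i i)‖ ≤ ‖T‖ * ‖a‖ := by
        intro i _
        exact (T.le_opNorm _).trans (mul_le_mul_of_nonneg_left (entry_le a i i) (norm_nonneg _))
      refine (Finset.sum_le_card_nsmul _ _ _ this).trans (le_of_eq ?_)
      simp [mul_assoc])

theorem TM_apply (T : R →L[ℂ] ℂ) (a : Matrix (Fin q) (Fin q) R) : TM T a = ∑ i, T (a i i) := rfl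

/-- matrices with entries in a subalgebra -/
def SM (q : ℕ) (S : Subalgebra ℂ R) : Subalgebra ℂ (Matrix (Fin q) (Fin q) R) where
  carrier := {a | ∀ i j, a i j ∈ S}
  mul_mem' := by
    intro a b ha hb i j
    rw [Matrix.mul_apply]
    exact S.sum_mem fun k _ => S.mul_mem (ha i k) (hb k j)
  add_mem' := by
    intro a b ha hb i j
    exact S.add_mem (ha i j) (hb i j)
  algebraMap_mem' := by
    intro c i j
    rw [Matrix.algebraMap_matrix_apply]
    split_ifs
    · exact S.algebraMap_mem c
    · exact S.zero_mem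

theorem TM_trace (T : R →L[ℂ] ℂ) (S : Subalgebra ℂ R)
    (hT : ∀ a ∈ S, ∀ b ∈ S, T (a * b) = T (b * a)) :
    ∀ a ∈ SM q S, ∀ b ∈ SM q S, TM T (a * b) = TM T (b * a) := by
  intro a ha b hb
  rw [TM_apply, TM_apply]
  simp only [Matrix.mul_apply, map_sum]
  rw [Finset.sum_comm]
  refine Finset.sum_congr rfl fun i _ => Finset.sum_congr rfl fun j _ => ?_
  exact hT _ (ha j i) _ (hb i j)

end MainX

open MainX in
attribute [local instance] Matrix.linftyOpNormedRing Matrix.linftyOpNormedAlgebra in
theorem main (hring : S_RING.{u}) (hidem : S_IDEM.{u}) : S_MAIN.{u} := by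
  intro G _ g R _ _ _ π T S hπ hπc hπS hScl hT hTπ q e he
  classical
  have hsumm : ∀ t i j, Summable fun h => e i j h • π t h := by
    intro t i j
    refine Summable.of_norm_bounded (he.summable i j) fun h => ?_
    rw [norm_smul]
    exact mul_le_of_le_one_right (norm_nonneg _) (hπ t h)
  let E : ℝ → Matrix (Fin q) (Fin q) R := fun t => Matrix.of fun i j => ∑' h, e i j h • π t h
  have hE : ∀ t i j, E t i j = ∑' h, e i j h • π t h := fun t i j => rfl
  have hEid : ∀ t, E t * E t = E t := by
    intro t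
    ext i j
    rw [Matrix.mul_apply]
    exact hidem G q e he R (π t) (hπ t) i j
  have hES : ∀ t, E t ∈ SM q S := by
    intro t i j
    rw [hE]
    have hcl := hScl
    refine hcl.mem_of_tendsto (hsumm t i j).hasSum ?_
    refine Filter.Eventually.of_forall fun s => ?_
    exact S.sum_mem fun h _ => S.smul_mem (hπS t h) _
  have hEcont : ∀ i j, Continuous fun t => E t i j := by
    intro i j
    refine continuous_tsum (u := fun h => ‖e i j h‖) (fun h => (hπc h).const_smul _)
      (he.summable i j) ?_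
    intro h t
    rw [norm_smul]
    exact mul_le_of_le_one_right (norm_nonneg _) (hπ t h)
  have hlc : IsLocallyConstant fun t => TM T (E t) := by
    rw [IsLocallyConstant.iff_eventually_eq]
    intro t
    have hc : Continuous fun s => ∑ i, ∑ j, ‖E s i j - E t i j‖ := by
      refine continuous_finsetSum _ fun i _ => continuous_finsetSum _ fun j _ => ?_
      exact ((hEcont i j).sub continuous_const).norm
    have h0 : (fun s => ∑ i, ∑ j, ‖E s i j - E t i j‖) t < 1 := by simp
    filter_upwards [hc.continuousAt.eventually_lt_const h0] with s hs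
    refine hring (Matrix (Fin q) (Fin q) R) (TM T) (SM q S) (TM_trace T S hT) _ (hES s) _ (hES t)
      (hEid s) (hEid t) ?_
    refine (norm_le_sum _).trans_lt ?_
    simpa using hs
  have hval : ∀ t : ℝ, TM T (E t) = Complex.exp (Complex.I * t) * tau e g := by
    intro t
    rw [TM_apply]
    have h1 : ∀ i, T (E t i i) = ∑' h, e i i h * (if IsConj g h then
        Complex.exp (Complex.I * t) else 0) := by
      intro i
      rw [hE, T.map_tsum (hsumm t i i)]
      refine tsum_congr fun h => ?_
      rw [map_smul, hTπ, smul_eq_mul]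
    rw [Finset.sum_congr rfl fun i _ => h1 i]
    have hs2 : ∀ i, Summable fun h => e i i h * (if IsConj g h then
        Complex.exp (Complex.I * t) else 0) := by
      intro i
      refine Summable.of_norm_bounded (he.summable i i) fun h => ?_
      rw [norm_mul]
      refine mul_le_of_le_one_right (norm_nonneg _) ?_
      split_ifs
      · rw [mul_comm, Complex.norm_exp_ofReal_mul_I]
      · simp
    rw [← Summable.tsum_finsetSum (fun i _ => hs2 i), tau, ← tsum_mul_left]
    refine tsum_congr fun h => ?_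
    by_cases hc : IsConj g h
    · simp only [if_pos hc]
      rw [← Finset.sum_mul, mul_comm]
    · simp only [if_neg hc, mul_zero, Finset.sum_const_zero]
  have h0 := hlc.apply_eq_of_preconnectedSpace (0 : ℝ) Real.pi
  rw [hval, hval] at h0
  rw [mul_comm Complex.I ((Real.pi : ℝ) : ℂ), Complex.exp_pi_mul_I] at h0
  simp only [Complex.ofReal_zero, mul_zero, Complex.exp_zero, one_mul, neg_mul] at h0
  have h2 : (2 : ℂ) * tau e g = 0 := by linear_combination h0
  rcases mul_eq_zero.1 h2 with h | h
  · norm_num at h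
  · exact h

end Vale.Agent.P184
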