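import Mathlib

/-!
P184: an element of a number field which is not a root of unity has absolute value `≠ 1` for some
absolute value of the field.
-/

open NumberField IsDedekindDomain

namespace Vale.Agent.P184

universe v

theorem nf {K : Type v} [Field K] [NumberField K] (lam : K)
    (hroot : ∀ n : ℕ, 0 < n → lam ^ n ≠ 1) : ∃ f : AbsoluteValue K ℝ, f lam ≠ 1 := by
  by_contra hcon
  push Not at hcon
  have hint : IsIntegral ℤ lam := by
    have h1 : lam ∈ (algebraMap (𝓞 K) K).range := by
      apply HeightOneSpectrum.mem_integers_of_valuation_le_one K lam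
      intro w
      have h2 := hcon (NumberField.HeightOneSpectrum.adicAbv K w)
      rw [NumberField.HeightOneSpectrum.adicAbv_def] at h2
      have h3 : WithZeroMulInt.toNNReal
          (NumberField.HeightOneSpectrum.absNorm_ne_zero w)
          (w.valuation K lam) = 1 := by exact_mod_cast h2
      rw [WithZeroMulInt.toNNReal_eq_one_iff] at h3
      · exact h3.le
      · exact (NumberField.HeightOneSpectrum.one_lt_absNorm_nnreal w).ne'
    obtain ⟨r, hr⟩ := h1
    rw [← hr]
    exact r.isIntegral_coe
  obtain ⟨n, hn, hx⟩ := Embeddings.pow_eq_one_of_norm_eq_one K ℂ hint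
    (fun φ => by
      have := hcon (NumberField.place φ)
      rwa [NumberField.place_apply] at this)
  exact hroot n hn hx

end Vale.Agent.P184
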