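import Vale.Agent.P184.Defs

/-!
# P184, modules PHI and MEANF
-/

namespace Vale.Agent.P184

universe u

namespace PhiX

variable {G : Type u} [Group G] {ℓ : G → ℝ}

theorem lower (hsub : ∀ x y, ℓ (x * y) ≤ ℓ x + ℓ y) (hinv : ∀ x, ℓ x⁻¹ = ℓ x) {g : G} {c : ℝ}
    (hc : 0 < c) (hg : ∀ n : ℕ, c * n ≤ ℓ (g ^ n)) (x : G) (n : ℤ) :
    -(c⁻¹ * ℓ x) ≤ c⁻¹ * ℓ (g ^ n * x⁻¹) + n := by
  have h1 : c * |(n : ℝ)| ≤ ℓ (g ^ n) := by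
    rcases Int.eq_nat_or_neg n with ⟨m, rfl | rfl⟩
    · simpa using hg m
    · have := hg m
      rw [zpow_neg, hinv]
      simpa using this
  have h2 : ℓ (g ^ n) ≤ ℓ (g ^ n * x⁻¹) + ℓ x := by
    simpa using hsub (g ^ n * x⁻¹) x
  have h3 : -(n : ℝ) ≤ |(n : ℝ)| := neg_le_abs _
  have hci : 0 < c⁻¹ := inv_pos.2 hc
  have h4 : c⁻¹ * (c * |(n : ℝ)|) ≤ c⁻¹ * (ℓ (g ^ n * x⁻¹) + ℓ x) :=
    mul_le_mul_of_nonneg_left (h1.trans h2) hci.le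
  rw [inv_mul_cancel_left₀ hc.ne', mul_add] at h4
  linarith

end PhiX

theorem phi : S_PHI.{u} := by
  intro G _ ℓ hsub hinv g c hc hg
  let F : G → ℤ → ℝ := fun x n => c⁻¹ * ℓ (g ^ n * x⁻¹) + n
  have hbdd : ∀ x, BddBelow (Set.range (F x)) := by
    intro x
    refine ⟨-(c⁻¹ * ℓ x), ?_⟩
    rintro _ ⟨n, rfl⟩
    exact PhiX.lower hsub hinv hc hg x n
  have hci : 0 < c⁻¹ := inv_pos.2 hc
  have key : ∀ h x : G, ∀ n : ℤ, F (h * x) n ≤ F x n + c⁻¹ * ℓ h := by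
    intro h x n
    have h1 : ℓ (g ^ n * (h * x)⁻¹) ≤ ℓ (g ^ n * x⁻¹) + ℓ h := by
      have := hsub (g ^ n * x⁻¹) h⁻¹
      rw [hinv h] at this
      simpa [mul_assoc, mul_inv_rev] using this
    have h2 := mul_le_mul_of_nonneg_left h1 hci.le
    rw [mul_add] at h2
    show c⁻¹ * ℓ (g ^ n * (h * x)⁻¹) + n ≤ c⁻¹ * ℓ (g ^ n * x⁻¹) + n + c⁻¹ * ℓ h
    linarith
  have key2 : ∀ h x : G, (⨅ n, F (h * x) n) ≤ (⨅ n, F x n) + c⁻¹ * ℓ h := by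
    intro h x
    rw [← sub_le_iff_le_add]
    refine le_ciInf fun n => ?_
    rw [sub_le_iff_le_add]
    exact (ciInf_le (hbdd _) n).trans (key h x n)
  refine ⟨fun x => ⨅ n : ℤ, F x n, ?_, ?_⟩
  · intro x
    show (⨅ n : ℤ, F (x * g) n) = (⨅ n : ℤ, F x n) + 1
    rw [ciInf_add (hbdd x)]
    refine (Equiv.subRight (1 : ℤ)).iInf_congr ?_
    intro n
    show c⁻¹ * ℓ (g ^ (n - 1) * x⁻¹) + ((n - 1 : ℤ) : ℝ) + 1 = c⁻¹ * ℓ (g ^ n * (x * g)⁻¹) + n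
    have : g ^ (n - 1) * x⁻¹ = g ^ n * (x * g)⁻¹ := by
      rw [mul_inv_rev, zpow_sub_one, mul_assoc]
    rw [this]
    push_cast
    ring
  · intro h
    refine ⟨c⁻¹ * ℓ h, fun x => ?_⟩
    rw [abs_sub_le_iff]
    constructor
    · have := key2 h x
      show (⨅ n, F (h * x) n) - (⨅ n, F x n) ≤ _
      linarith
    · have := key2 h⁻¹ (h * x)
      rw [inv_mul_cancel_left, hinv] at this
      show (⨅ n, F x n) - (⨅ n, F (h * x) n) ≤ _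
      linarith

end Vale.Agent.P184
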