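import Vale.Agent.P184.Defs

/-!
# P184, module RING
-/

namespace Vale.Agent.P184

universe u

theorem ring_ : S_RING.{u} := by
  intro R _ _ T S hT p hp r hr hpp hrr hlt
  set d : R := p - r with hd
  set c : R := d * d with hc
  have hdS : d ∈ S := S.sub_mem hp hr
  have hcS : c ∈ S := S.mul_mem hdS hdS
  have hcexp : c = p - p * r - r * p + r := by
    rw [hc, hd, mul_sub, sub_mul, sub_mul, hpp, hrr]
    abel
  have hpc : p * c = p - p * r * p := by
    rw [hcexp]
    have e1 : p * (p - p * r - r * p + r) = p * p - p * p * r - p * r * p + p * r := by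
      noncomm_ring
    rw [e1, hpp]
    abel
  have hcp : c * p = p - p * r * p := by
    rw [hcexp]
    have e1 : (p - p * r - r * p + r) * p = p * p - p * r * p - r * (p * p) + r * p := by
      noncomm_ring
    rw [e1, hpp]
    abel
  have hrc : r * c = r - r * p * r := by
    rw [hcexp]
    have e1 : r * (p - p * r - r * p + r) = r * p - r * p * r - r * r * p + r * r := by
      noncomm_ring
    rw [e1, hrr]
    abel
  have hcr : c * r = r - r * p * r := by
    rw [hcexp]
    have e1 : (p - p * r - r * p + r) * r = p * r - p * (r * r) - r * p * r + r * r := by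
      noncomm_ring
    rw [e1, hrr]
    abel
  have commp : Commute c p := by rw [Commute, SemiconjBy, hcp, hpc]
  have commr : Commute c r := by rw [Commute, SemiconjBy, hcr, hrc]
  have hdc : d * c = (p - p * r * p) - (r - r * p * r) := by
    rw [hd, sub_mul, hpc, hrc]
  have step : ∀ n : ℕ, T (d * c ^ (n + 1)) = T (d * c ^ n) := by
    intro n
    have hcn : c ^ n ∈ S := S.pow_mem hcS n
    have cp : c ^ n * p = p * c ^ n := (commp.pow_left n).eq
    have cr : c ^ n * r = r * c ^ n := (commr.pow_left n).eq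
    have e1 : d * c ^ (n + 1) = d * c ^ n - (p * (r * p * c ^ n) - r * (p * r * c ^ n)) := by
      rw [pow_succ', ← mul_assoc, hdc, hd]
      noncomm_ring
    have t1 : T (p * (r * p * c ^ n)) = T (r * p * c ^ n) := by
      rw [hT p hp (r * p * c ^ n) (S.mul_mem (S.mul_mem hr hp) hcn)]
      congr 1
      rw [mul_assoc (r * p), cp, ← mul_assoc, mul_assoc r p p, hpp]
    have t2 : T (r * (p * r * c ^ n)) = T (p * r * c ^ n) := by
      rw [hT r hr (p * r * c ^ n) (S.mul_mem (S.mul_mem hp hr) hcn)]
      congr 1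
      rw [mul_assoc (p * r), cr, ← mul_assoc, mul_assoc p r r, hrr]
    have t3 : T (r * p * c ^ n) = T (p * r * c ^ n) := by
      rw [mul_assoc, hT r hr (p * c ^ n) (S.mul_mem hp hcn)]
      congr 1
      rw [mul_assoc, cr, ← mul_assoc]
    rw [e1, map_sub, map_sub, t1, t2, t3, sub_self, sub_zero]
  have all : ∀ n : ℕ, T (d * c ^ n) = T d := by
    intro n
    induction n with
    | zero => simp
    | succ n ih => rw [step, ih]
  have hbound : ∀ n : ℕ, ‖T d‖ ≤ ‖T‖ * (‖d‖ * (‖d‖ * ‖d‖) ^ n) := by
    intro n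
    rcases Nat.eq_zero_or_pos n with rfl | hn
    · rw [pow_zero, mul_one]
      exact T.le_opNorm d
    · rw [← all n]
      refine (T.le_opNorm _).trans ?_
      refine mul_le_mul_of_nonneg_left ?_ (norm_nonneg _)
      refine (norm_mul_le _ _).trans ?_
      refine mul_le_mul_of_nonneg_left ?_ (norm_nonneg _)
      refine (norm_pow_le' c hn).trans ?_
      exact pow_le_pow_left₀ (norm_nonneg _) (norm_mul_le d d) n
  have hlim : Filter.Tendsto (fun n : ℕ => ‖T‖ * (‖d‖ * (‖d‖ * ‖d‖) ^ n)) Filter.atTop
      (nhds (‖T‖ * (‖d‖ * 0))) := by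
    refine Filter.Tendsto.const_mul _ (Filter.Tendsto.const_mul _ ?_)
    refine tendsto_pow_atTop_nhds_zero_of_lt_one (mul_nonneg (norm_nonneg _) (norm_nonneg _)) ?_
    exact mul_lt_one_of_nonneg_of_lt_one_left (norm_nonneg _) hlt hlt.le
  have h0 : ‖T d‖ ≤ 0 := by
    have := ge_of_tendsto' hlim hbound
    simpa using this
  have h1 : T d = 0 := norm_le_zero_iff.1 h0
  rw [hd, map_sub, sub_eq_zero] at h1
  exact h1

end Vale.Agent.P184
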