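import Vale.Agent.P184.L1

/-!
Traces on the convolution ring, and their local constancy on idempotents.
-/

namespace Vale.Agent.P184

open Filter Topology

/-- for idempotents `e, f` and a trace `t`, `t ((e - f)^(2m+1)) = t (e - f)` -/
theorem trace_odd_pow {R : Type*} [Ring R] (t : R →+ ℂ) (ht : ∀ a b, t (a * b) = t (b * a))
    {e f : R} (he : e * e = e) (hf : f * f = f) (m : ℕ) :
    t ((e - f) ^ (2 * m + 1)) = t (e - f) := by
  set c := (e - f) * (e - f) with hc
  have hce : Commute c e := by
    show c * e = e * c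
    rw [hc]
    simp only [mul_sub, sub_mul]
    have h1 : e * f * e = e * (f * e) := mul_assoc _ _ _
    have h2 : f * f * e = f * e := by rw [hf]
    have h3 : f * e * e = f * e := by rw [mul_assoc, he]
    have h4 : e * e * e = e := by rw [he, he]
    have h5 : e * (e * f) = e * f := by rw [← mul_assoc, he]
    have h6 : e * (f * f) = e * f := by rw [hf]
    have h7 : e * (e * e) = e := by rw [he, he]
    simp only [h1, h2, h3, h4, h5, h6, h7]
    abel
  have hcf : Commute c f := by
    show c * f = f * c
    rw [hc]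
    simp only [mul_sub, sub_mul]
    have h1 : f * e * f = f * (e * f) := mul_assoc _ _ _
    have h2 : e * e * f = e * f := by rw [he]
    have h3 : e * f * f = e * f := by rw [mul_assoc, hf]
    have h4 : f * f * f = f := by rw [hf, hf]
    have h5 : f * (f * e) = f * e := by rw [← mul_assoc, hf]
    have h6 : f * (e * e) = f * e := by rw [he]
    have h7 : f * (f * f) = f := by rw [hf, hf]
    simp only [h1, h2, h3, h4, h5, h6, h7]
    abel
  have hcube : c * (e - f) = (e - f) - (e * f * e - f * e * f) := by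
    rw [hc]
    simp only [mul_sub, sub_mul]
    have h2 : e * e * f = e * f := by rw [he]
    have h3 : e * f * f = e * f := by rw [mul_assoc, hf]
    have h4 : f * f * f = f := by rw [hf, hf]
    have h5 : f * f * e = f * e := by rw [hf]
    have h6 : f * e * e = f * e := by rw [mul_assoc, he]
    have h7 : e * e * e = e := by rw [he, he]
    simp only [h2, h3, h4, h5, h6, h7]
    abel
  have key : ∀ k : ℕ, t (c ^ (k + 1) * (e - f)) = t (c ^ k * (e - f)) := by
    intro k
    have hke : Commute (c ^ k) e := hce.pow_left k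
    have hkf : Commute (c ^ k) f := hcf.pow_left k
    have h1 : t (c ^ k * (e * f * e)) = t (c ^ k * (e * f)) := by
      have : c ^ k * (e * f * e) = (c ^ k * (e * f)) * e := by simp only [mul_assoc]
      rw [this, ht]
      have : e * (c ^ k * (e * f)) = c ^ k * (e * f) := by
        rw [← mul_assoc, ← hke.eq, mul_assoc, ← mul_assoc e e f, he]
      rw [this]
    have h2 : t (c ^ k * (f * e * f)) = t (c ^ k * (f * e)) := by
      have : c ^ k * (f * e * f) = (c ^ k * (f * e)) * f := by simp only [mul_assoc]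
      rw [this, ht]
      have : f * (c ^ k * (f * e)) = c ^ k * (f * e) := by
        rw [← mul_assoc, ← hkf.eq, mul_assoc, ← mul_assoc f f e, hf]
      rw [this]
    have h3 : t (c ^ k * (e * f)) = t (c ^ k * (f * e)) := by
      have : c ^ k * (e * f) = (c ^ k * e) * f := by simp only [mul_assoc]
      rw [this, ht]
      have : f * (c ^ k * e) = c ^ k * (f * e) := by
        rw [← mul_assoc, ← hkf.eq, mul_assoc]
      rw [this]
    have h4 : c ^ (k + 1) * (e - f) = c ^ k * (e - f) -
        (c ^ k * (e * f * e) - c ^ k * (f * e * f)) := by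
      rw [pow_succ, mul_assoc, hcube, mul_sub, mul_sub (c ^ k) (e * f * e)]
    rw [h4, map_sub, map_sub t (c ^ k * (e * f * e)), h1, h2, h3]
    simp
  have h0 : ∀ k : ℕ, t (c ^ k * (e - f)) = t (e - f) := by
    intro k
    induction k with
    | zero => simp
    | succ k ih => rw [key, ih]
  have : (e - f) ^ (2 * m + 1) = c ^ m * (e - f) := by
    rw [pow_succ, pow_mul, hc, sq]
  rw [this, h0]

variable {G : Type*} [Group G] {A : Type*} [NormedRing A] [CompleteSpace A]

namespace L1

open Classical in
/-- the trace of `f` over a set `C` of group elements -/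
noncomputable def tauFun (T : A →+ ℂ) (C : Set G) (f : L1 G A) : ℂ :=
  ∑' g, if g ∈ C then T (f g) else 0

section

variable (T : A →+ ℂ) (hTc : Continuous T) {K : ℝ} (hK : ∀ a, ‖T a‖ ≤ K * ‖a‖) (C : Set G)

include hK in
omit [Group G] [CompleteSpace A] in
open Classical in
theorem summable_tau (f : L1 G A) : Summable fun g => if g ∈ C then T (f g) else 0 := by
  refine Summable.of_norm_bounded (f.2.mul_left K) ?_
  intro g
  split_ifs with h
  · exact hK _
  · have := (norm_nonneg (T (f g))).trans (hK (f g))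
    simpa using this

include hK in
omit [Group G] [CompleteSpace A] in
theorem norm_tauFun_le (f : L1 G A) : ‖tauFun T C f‖ ≤ K * nm f := by
  classical
  unfold tauFun nm
  rw [← (f.2).tsum_mul_left]
  refine tsum_of_norm_bounded ((f.2.mul_left K).hasSum) ?_
  intro g
  split_ifs with h
  · exact hK _
  · have := (norm_nonneg (T (f g))).trans (hK (f g))
    simpa using this

/-- the trace as an additive map -/
noncomputable def tau : L1 G A →+ ℂ where
  toFun := tauFun T C
  map_zero' := by
    unfold tauFun
    simp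
  map_add' f g := by
    classical
    unfold tauFun
    rw [← (summable_tau T hK C f).tsum_add (summable_tau T hK C g)]
    refine tsum_congr fun x => ?_
    by_cases h : x ∈ C <;> simp [h]

end

open Classical in
theorem tau_mul_eq (T : A →+ ℂ) (hTc : Continuous T) {K : ℝ} (hK : ∀ a, ‖T a‖ ≤ K * ‖a‖)
    (C : Set G) (f g : L1 G A) :
    tauFun T C (f * g) = ∑' p : G × G, if p.1 * p.2 ∈ C then T (f p.1 * g p.2) else 0 := by
  have hK0 : 0 ≤ K ∨ ∀ a : A, ‖a‖ = 0 := by
    by_cases h : 0 ≤ K
    · exact Or.inl h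
    · right
      intro a
      have h1 := (norm_nonneg (T a)).trans (hK a)
      have h2 : ‖a‖ ≤ 0 := by
        by_contra hc
        rw [not_le] at hc
        nlinarith [not_le.mp h]
      exact le_antisymm h2 (norm_nonneg a)
  have hS : Summable fun p : G × G => if p.1 * p.2 ∈ C then T (f p.1 * g p.2) else 0 := by
    have h0 : Summable fun p : G × G => K * (‖f p.1‖ * ‖g p.2‖) :=
      (f.2.mul_of_nonneg g.2 (fun _ => norm_nonneg _) (fun _ => norm_nonneg _)).mul_left K
    refine Summable.of_norm_bounded h0 ?_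
    intro p
    have hb : ‖T (f p.1 * g p.2)‖ ≤ K * (‖f p.1‖ * ‖g p.2‖) := by
      rcases hK0 with h | h
      · exact (hK _).trans (mul_le_mul_of_nonneg_left (norm_mul_le _ _) h)
      · refine (hK _).trans ?_
        rw [h, h]
        simp
    split_ifs with h
    · exact hb
    · have := (norm_nonneg _).trans hb
      simpa using this
  have hS' : Summable fun p : G × G =>
      if p.2 ∈ C then T (f p.1 * g (p.1⁻¹ * p.2)) else 0 := by
    have := (shear G).symm.summable_iff.mpr hS
    refine this.congr ?_
    intro p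
    simp [shear, Function.comp]
  have hS'' : Summable fun p : G × G =>
      if p.1 ∈ C then T (f p.2 * g (p.2⁻¹ * p.1)) else 0 :=
    (Equiv.prodComm G G).summable_iff.mpr hS'
  have h1 : tauFun T C (f * g) = ∑' y, ∑' h, if y ∈ C then T (f h * g (h⁻¹ * y)) else 0 := by
    unfold tauFun
    refine tsum_congr fun y => ?_
    split_ifs with hy
    · rw [mul_apply, (row f g y).map_tsum T hTc]
    · simp
  rw [h1, ← Summable.tsum_prod hS'']
  have h2 : ∑' p : G × G, (if p.1 ∈ C then T (f p.2 * g (p.2⁻¹ * p.1)) else 0)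
      = ∑' p : G × G, (if p.2 ∈ C then T (f p.1 * g (p.1⁻¹ * p.2)) else 0) :=
    (Equiv.prodComm G G).tsum_eq
      (fun p : G × G => if p.2 ∈ C then T (f p.1 * g (p.1⁻¹ * p.2)) else 0)
  rw [h2, ← (shear G).tsum_eq (fun p : G × G => if p.2 ∈ C then T (f p.1 * g (p.1⁻¹ * p.2)) else 0)]
  refine tsum_congr fun p => ?_
  simp [shear]

theorem tau_comm (T : A →+ ℂ) (hTc : Continuous T) {K : ℝ} (hK : ∀ a, ‖T a‖ ≤ K * ‖a‖)
    (hT : ∀ a b, T (a * b) = T (b * a))
    (C : Set G) (hC : ∀ a b : G, a * b ∈ C ↔ b * a ∈ C) (f g : L1 G A) :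
    tauFun T C (f * g) = tauFun T C (g * f) := by
  classical
  rw [tau_mul_eq T hTc hK, tau_mul_eq T hTc hK,
    ← (Equiv.prodComm G G).tsum_eq (fun p : G × G => if p.1 * p.2 ∈ C then T (g p.1 * f p.2) else 0)]
  refine tsum_congr fun p => ?_
  simp only [Equiv.prodComm_apply, Prod.fst_swap, Prod.snd_swap]
  rw [hT (f p.1) (g p.2)]
  by_cases h : p.1 * p.2 ∈ C
  · have h' := (hC _ _).mp h
    simp [h, h']
  · have h' : p.2 * p.1 ∉ C := fun h' => h ((hC _ _).mpr h')
    simp [h, h']

/-- nearby idempotents have the same trace -/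
theorem tau_eq_of_near (T : A →+ ℂ) (hTc : Continuous T) {K : ℝ} (hK : ∀ a, ‖T a‖ ≤ K * ‖a‖)
    (hT : ∀ a b, T (a * b) = T (b * a))
    (C : Set G) (hC : ∀ a b : G, a * b ∈ C ↔ b * a ∈ C) {e f : L1 G A}
    (he : e * e = e) (hf : f * f = f) (hn : nm (e - f) < 1) :
    tauFun T C e = tauFun T C f := by
  set t := tau T hK C with ht
  have hcomm : ∀ a b, t (a * b) = t (b * a) := fun a b => tau_comm T hTc hK hT C hC a b
  have h1 : ∀ m : ℕ, ‖t (e - f)‖ ≤ K * nm (e - f) ^ (2 * m + 1) := by
    intro m
    rw [← trace_odd_pow t hcomm he hf m]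
    refine (norm_tauFun_le T hK C _).trans ?_
    by_cases hK0 : 0 ≤ K
    · exact mul_le_mul_of_nonneg_left (nm_pow_le _ _) hK0
    · -- then the norm vanishes identically
      have hz : ∀ a : A, ‖a‖ = 0 := by
        intro a
        have h1 := (norm_nonneg (T a)).trans (hK a)
        have h2 : ‖a‖ ≤ 0 := by
          by_contra hc
          rw [not_le] at hc
          nlinarith [not_le.mp hK0]
        exact le_antisymm h2 (norm_nonneg a)
      have hz' : ∀ g : L1 G A, nm g = 0 := by
        intro g
        unfold nm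
        simp [hz]
      rw [hz', hz']
      simp
  have h2 : Tendsto (fun m : ℕ => K * nm (e - f) ^ (2 * m + 1)) atTop (𝓝 0) := by
    have h3 : Tendsto (fun m : ℕ => nm (e - f) ^ (2 * m + 1)) atTop (𝓝 0) := by
      have := tendsto_pow_atTop_nhds_zero_of_lt_one (nm_nonneg (e - f)) hn
      refine this.comp ?_
      exact tendsto_atTop_mono (fun m => by simp only [id]; omega) tendsto_id
    simpa using h3.const_mul K
  have h3 : ‖t (e - f)‖ ≤ 0 := ge_of_tendsto' h2 h1
  have h4 : t (e - f) = 0 := norm_le_zero_iff.mp h3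
  have h5 : t e - t f = 0 := by rw [← map_sub]; exact h4
  exact sub_eq_zero.mp h5

/-- along a connected family of idempotents the trace is constant -/
theorem tau_const {X : Type*} [TopologicalSpace X] [PreconnectedSpace X]
    (T : A →+ ℂ) (hTc : Continuous T) {K : ℝ} (hK : ∀ a, ‖T a‖ ≤ K * ‖a‖)
    (hT : ∀ a b, T (a * b) = T (b * a))
    (C : Set G) (hC : ∀ a b : G, a * b ∈ C ↔ b * a ∈ C) (E : X → L1 G A)
    (hE : ∀ x, E x * E x = E x)
    (hcont : ∀ x, Tendsto (fun y => nm (E y - E x)) (𝓝 x) (𝓝 0)) (x y : X) :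
    tauFun T C (E x) = tauFun T C (E y) := by
  have hloc : IsLocallyConstant fun x => tauFun T C (E x) := by
    rw [IsLocallyConstant.iff_eventually_eq]
    intro x
    have := (hcont x).eventually (gt_mem_nhds (zero_lt_one (α := ℝ)))
    filter_upwards [this] with y hy
    exact tau_eq_of_near T hTc hK hT C hC (hE y) (hE x) hy
  exact hloc.apply_eq_of_preconnectedSpace x y

end L1

end Vale.Agent.P184
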