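import Vale.Agent.P184.Trace

/-!
Twisting an idempotent matrix over `l1(G)` by a family of representations.
-/

namespace Vale.Agent.P184

open Filter Topology
open scoped Kronecker

attribute [local instance] Matrix.linftyOpNormedRing Matrix.linftyOpNormedSpace
  Matrix.linftyOpNormedAddCommGroup

section norm

variable {κ : Type*} [Fintype κ] [DecidableEq κ]

theorem entry_le (M : Matrix κ κ ℂ) (i j : κ) : ‖M i j‖ ≤ ‖M‖ := by
  rw [Matrix.linfty_opNorm_def]
  have h1 : ‖M i j‖₊ ≤ ∑ j, ‖M i j‖₊ :=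
    Finset.single_le_sum (f := fun j => ‖M i j‖₊) (fun _ _ => bot_le) (Finset.mem_univ j)
  have h2 : ∑ j, ‖M i j‖₊ ≤ Finset.univ.sup fun i => ∑ j, ‖M i j‖₊ :=
    Finset.le_sup (f := fun i => ∑ j, ‖M i j‖₊) (Finset.mem_univ i)
  exact_mod_cast h1.trans h2

theorem norm_le_sum (M : Matrix κ κ ℂ) : ‖M‖ ≤ ∑ i, ∑ j, ‖M i j‖ := by
  rw [Matrix.linfty_opNorm_def]
  have h : (Finset.univ.sup fun i => ∑ j, ‖M i j‖₊) ≤ ∑ i, ∑ j, ‖M i j‖₊ := by
    refine Finset.sup_le fun i _ => ?_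
    exact Finset.single_le_sum (f := fun i => ∑ j, ‖M i j‖₊) (fun _ _ => bot_le)
      (Finset.mem_univ i)
  have h' : ((Finset.univ.sup fun i => ∑ j, ‖M i j‖₊ : NNReal) : ℝ) ≤
      ((∑ i, ∑ j, ‖M i j‖₊ : NNReal) : ℝ) := by exact_mod_cast h
  refine h'.trans ?_
  push_cast
  exact le_rfl

theorem norm_trace_le (M : Matrix κ κ ℂ) :
    ‖Matrix.traceAddMonoidHom κ ℂ M‖ ≤ (Fintype.card κ : ℝ) * ‖M‖ := by
  show ‖∑ i, M i i‖ ≤ _
  refine (norm_sum_le _ _).trans ?_
  calc ∑ i, ‖M i i‖ ≤ ∑ _i : κ, ‖M‖ := Finset.sum_le_sum fun i _ => entry_le M i i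
    _ = _ := by simp

instance : CompleteSpace (Matrix κ κ ℂ) := FiniteDimensional.complete ℂ _

/-- an entry, as an additive map -/
def entry (i j : κ) : Matrix κ κ ℂ →+ ℂ where
  toFun M := M i j
  map_zero' := rfl
  map_add' _ _ := rfl

theorem continuous_entry (i j : κ) : Continuous (entry (κ := κ) i j) :=
  AddMonoidHomClass.continuous_of_bound (entry i j) 1 fun M => by
    rw [one_mul]; exact entry_le M i j

theorem continuous_tr : Continuous (Matrix.traceAddMonoidHom κ ℂ) :=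
  AddMonoidHomClass.continuous_of_bound (Matrix.traceAddMonoidHom κ ℂ) _ norm_trace_le

end norm

theorem norm_kron_le {κ ι : Type*} [Fintype κ] [DecidableEq κ] [Fintype ι] [DecidableEq ι]
    (M : Matrix κ κ ℂ) (N : Matrix ι ι ℂ) :
    ‖M ⊗ₖ N‖ ≤ (∑ i, ∑ j, ‖M i j‖) * ∑ a, ∑ b, ‖N a b‖ := by
  refine (norm_le_sum _).trans (le_of_eq ?_)
  simp only [Fintype.sum_prod_type, Matrix.kroneckerMap_apply, norm_mul, Finset.sum_mul_sum]

variable {G : Type*} [Group G] {κ ι : Type*} [Fintype κ] [DecidableEq κ] [Fintype ι]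
  [DecidableEq ι]

/-- `τ_[g](e)`: the sum of the traces of `e(x)` over the conjugacy class of `g` -/
noncomputable def hs (e : κ → κ → G → ℂ) (g : G) : ℂ :=
  ∑' x : {x : G // IsConj g x}, ∑ i, e i i x

/-- the value matrix -/
def val (e : κ → κ → G → ℂ) (g : G) : Matrix κ κ ℂ := Matrix.of fun i j => e i j g

theorem summable_val {e : κ → κ → G → ℂ} (hs : ∀ i j, Summable fun x => ‖e i j x‖) :
    Summable fun x => ∑ i, ∑ j, ‖val e x i j‖ :=
  summable_sum fun i _ => summable_sum fun j _ => hs i j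

theorem summable_kron {e : κ → κ → G → ℂ} (hs : ∀ i j, Summable fun x => ‖e i j x‖)
    (ρ : G → Matrix ι ι ℂ) (K : ℝ) (hK : ∀ g, ∑ a, ∑ b, ‖ρ g a b‖ ≤ K) :
    Summable fun x => ‖val e x ⊗ₖ ρ x‖ := by
  refine ((summable_val hs).mul_right K).of_nonneg_of_le (fun _ => norm_nonneg _) ?_
  intro x
  refine (norm_kron_le _ _).trans ?_
  exact mul_le_mul_of_nonneg_left (hK x)
    (Finset.sum_nonneg fun i _ => Finset.sum_nonneg fun j _ => norm_nonneg _)

/-- the twisted element -/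
noncomputable def twist (e : κ → κ → G → ℂ) (hs : ∀ i j, Summable fun x => ‖e i j x‖)
    (ρ : G → Matrix ι ι ℂ) (K : ℝ) (hK : ∀ g, ∑ a, ∑ b, ‖ρ g a b‖ ≤ K) :
    L1 G (Matrix (κ × ι) (κ × ι) ℂ) :=
  ⟨fun x => val e x ⊗ₖ ρ x, summable_kron hs ρ K hK⟩

theorem twist_idem (e : κ → κ → G → ℂ) (hs : ∀ i j, Summable fun x => ‖e i j x‖)
    (hid : ∀ i k x, ∑ j, ∑' h, e i j h * e j k (h⁻¹ * x) = e i k x)
    (ρ : G →* Matrix ι ι ℂ) (K : ℝ) (hK : ∀ g, ∑ a, ∑ b, ‖ρ g a b‖ ≤ K) :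
    twist e hs ρ K hK * twist e hs ρ K hK = twist e hs ρ K hK := by
  have hrow : ∀ i j k x, Summable fun h => e i j h * e j k (h⁻¹ * x) := fun i j k x =>
    (summable_row (f := e i j) (g := e j k) (hs i j) (hs j k) x).of_norm
  refine L1.ext fun x => ?_
  rw [L1.mul_apply]
  ext ⟨i, a⟩ ⟨k, b⟩
  have h1 : (∑' h, (twist e hs ρ K hK) h * (twist e hs ρ K hK) (h⁻¹ * x)) (i, a) (k, b)
      = ∑' h, entry (i, a) (k, b) ((twist e hs ρ K hK) h * (twist e hs ρ K hK) (h⁻¹ * x)) :=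
    (L1.row (twist e hs ρ K hK) (twist e hs ρ K hK) x).map_tsum (entry (i, a) (k, b))
      (continuous_entry _ _)
  refine h1.trans ?_
  have h2 : ∀ h, entry (i, a) (k, b) ((twist e hs ρ K hK) h * (twist e hs ρ K hK) (h⁻¹ * x))
      = (∑ j, e i j h * e j k (h⁻¹ * x)) * ρ x a b := by
    intro h
    show ((val e h ⊗ₖ ρ h) * (val e (h⁻¹ * x) ⊗ₖ ρ (h⁻¹ * x))) (i, a) (k, b) = _
    rw [← Matrix.mul_kronecker_mul, ← map_mul, mul_inv_cancel_left]
    rfl
  refine (tsum_congr h2).trans ?_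
  rw [tsum_mul_right, Summable.tsum_finsetSum fun j _ => hrow i j k x, hid]
  rfl

open Classical in
theorem tau_twist (e : κ → κ → G → ℂ) (hsm : ∀ i j, Summable fun x => ‖e i j x‖)
    (ρ : G →* Matrix ι ι ℂ) (K : ℝ) (hK : ∀ g, ∑ a, ∑ b, ‖ρ g a b‖ ≤ K) (g : G) :
    L1.tauFun (Matrix.traceAddMonoidHom (κ × ι) ℂ) {x | IsConj g x} (twist e hsm ρ K hK)
      = (ρ g).trace * hs e g := by
  unfold L1.tauFun hs
  have h1 : (∑' x, if x ∈ {x | IsConj g x} then
      Matrix.traceAddMonoidHom (κ × ι) ℂ (twist e hsm ρ K hK x) else 0)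
      = ∑' x, ({x | IsConj g x} : Set G).indicator (fun x => (ρ g).trace * ∑ i, e i i x) x := by
    refine tsum_congr fun x => ?_
    by_cases hx : x ∈ {x | IsConj g x}
    · rw [if_pos hx, Set.indicator_of_mem hx]
      show Matrix.trace (val e x ⊗ₖ ρ x) = _
      rw [Matrix.trace_kronecker]
      obtain ⟨c, hc⟩ := isConj_iff.mp hx
      have : (ρ x).trace = (ρ g).trace := by
        rw [← hc, map_mul, map_mul, Matrix.trace_mul_comm, ← mul_assoc, ← map_mul]
        simp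
      rw [this, mul_comm]
      rfl
    · rw [if_neg hx, Set.indicator_of_notMem hx]
  rw [h1, ← tsum_subtype, tsum_mul_left]
  rfl

/-- the deformation theorem -/
theorem deform {X : Type*} [TopologicalSpace X] [PreconnectedSpace X]
    (e : κ → κ → G → ℂ) (hsm : ∀ i j, Summable fun x => ‖e i j x‖)
    (hid : ∀ i k x, ∑ j, ∑' h, e i j h * e j k (h⁻¹ * x) = e i k x)
    (ρ : X → G →* Matrix ι ι ℂ) (hcont : ∀ g a b, Continuous fun x => ρ x g a b)
    (B : ℝ) (hB : ∀ x g a b, ‖ρ x g a b‖ ≤ B) (g : G) (x y : X) :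
    (ρ x g).trace * hs e g = (ρ y g).trace * hs e g := by
  classical
  set K : ℝ := ∑ _a : ι, ∑ _b : ι, B with hKdef
  have hK : ∀ x g, ∑ a, ∑ b, ‖ρ x g a b‖ ≤ K := fun x g =>
    Finset.sum_le_sum fun a _ => Finset.sum_le_sum fun b _ => hB x g a b
  rw [← tau_twist e hsm (ρ x) K (hK x) g, ← tau_twist e hsm (ρ y) K (hK y) g]
  refine L1.tau_const (Matrix.traceAddMonoidHom (κ × ι) ℂ) continuous_tr norm_trace_le
    (fun a b => Matrix.trace_mul_comm a b) _ ?_ (fun x => twist e hsm (ρ x) K (hK x))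
    (fun x => twist_idem e hsm hid (ρ x) K (hK x)) ?_ x y
  · intro a b
    have hab : IsConj (a * b) (b * a) := isConj_iff.mpr ⟨b, by group⟩
    exact ⟨fun h => IsConj.trans h hab, fun h => IsConj.trans h hab.symm⟩
  · intro x
    have key : Tendsto (fun y : X => ∑' g, ‖val e g ⊗ₖ (ρ y g - ρ x g)‖) (𝓝 x)
        (𝓝 (∑' _ : G, (0 : ℝ))) := by
      refine tendsto_tsum_of_dominated_convergence
        (bound := fun g => (∑ i, ∑ j, ‖val e g i j‖) * (K + K)) ((summable_val hsm).mul_right _)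
        ?_ ?_
      · intro g
        have h0 : Tendsto (fun y : X => (∑ i, ∑ j, ‖val e g i j‖) *
            ∑ a, ∑ b, ‖(ρ y g - ρ x g) a b‖) (𝓝 x) (𝓝 0) := by
          have h1 : Tendsto (fun y : X => ∑ a, ∑ b, ‖(ρ y g - ρ x g) a b‖) (𝓝 x) (𝓝 0) := by
            have h2 : ∀ a b, Tendsto (fun y : X => ‖(ρ y g - ρ x g) a b‖) (𝓝 x) (𝓝 0) := by
              intro a b
              have h3 : Tendsto (fun y : X => ρ y g a b - ρ x g a b) (𝓝 x)
                  (𝓝 (ρ x g a b - ρ x g a b)) :=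
                ((hcont g a b).tendsto x).sub_const _
              rw [sub_self] at h3
              simpa using h3.norm
            have := tendsto_finsetSum (Finset.univ : Finset ι) fun a _ =>
              tendsto_finsetSum (Finset.univ : Finset ι) fun b _ => h2 a b
            simpa using this
          simpa using h1.const_mul (∑ i, ∑ j, ‖val e g i j‖)
        exact squeeze_zero (fun _ => norm_nonneg _) (fun y => norm_kron_le _ _) h0
      · refine Eventually.of_forall fun y g => ?_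
        rw [Real.norm_of_nonneg (norm_nonneg _)]
        refine (norm_kron_le _ _).trans ?_
        refine mul_le_mul_of_nonneg_left ?_
          (Finset.sum_nonneg fun i _ => Finset.sum_nonneg fun j _ => norm_nonneg _)
        calc ∑ a, ∑ b, ‖(ρ y g - ρ x g) a b‖ ≤ ∑ a, ∑ b, (‖ρ y g a b‖ + ‖ρ x g a b‖) :=
              Finset.sum_le_sum fun a _ => Finset.sum_le_sum fun b _ => norm_sub_le _ _
          _ = (∑ a, ∑ b, ‖ρ y g a b‖) + ∑ a, ∑ b, ‖ρ x g a b‖ := by
              simp only [Finset.sum_add_distrib]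
          _ ≤ K + K := add_le_add (hK y g) (hK x g)
    rw [tsum_zero] at key
    refine key.congr fun y => ?_
    unfold L1.nm
    refine tsum_congr fun g => ?_
    congr 1
    show val e g ⊗ₖ (ρ y g - ρ x g) = val e g ⊗ₖ ρ y g - val e g ⊗ₖ ρ x g
    ext ⟨i, a⟩ ⟨j, b⟩
    simp [Matrix.kroneckerMap_apply, mul_sub]

end Vale.Agent.P184
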